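import Vale.Agent.P117.Stm

/-! Statements of the steps for the whole range of exponents from two to four. -/

namespace Vale.Agent.P117

open MeasureTheory FourierTransform Set
open scoped ENNReal

noncomputable def Ph (p : ℝ) (g : ℝ → ℂ) (t : ℝ) : ℝ≥0∞ :=
  ∫⁻ l in Ioi (0 : ℝ), ENNReal.ofReal (l ^ (p - 5)) * N 4 (U t ({y | ‖g y‖ ≤ l}.indicator g))

def Phi (η p : ℝ) : Prop := ∃ C : ℝ≥0∞, C ≠ ⊤ ∧ ∀ g : ℝ → ℂ, Good g →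
  ∃ φ : ℝ → ℝ≥0∞, Measurable φ ∧ (∀ t, 1 ≤ φ t) ∧ ∫⁻ t, wt η t * φ t ≤ C ∧
    ∀ t, N p (U t g) ≤ C * φ t ^ ((p - 2) / 2) * N p g

def S_cheb1 : Prop := ∀ (F F₁ F₂ : ℝ → ℂ) (l : ℝ), 0 < l →
  Measurable F₁ → Measurable F₂ → (∀ z, F z = F₁ z + F₂ z) →
  volume {z | l < ‖F z‖} ≤ ENNReal.ofReal (4 * l ^ (-2 : ℝ)) * N 2 F₁ +
    ENNReal.ofReal (16 * l ^ (-4 : ℝ)) * N 4 F₂

def S_jm : Prop := ∀ g : ℝ → ℂ, Measurable g →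
  Measurable (fun z : ℝ × ℝ => N 4 (U z.1 ({y | ‖g y‖ ≤ z.2}.indicator g)))

def S_zero : Prop := ∀ (p : ℝ) (g : ℝ → ℂ), 1 ≤ p → Good g →
  N p g ≠ ⊤ ∧ (N p g = 0 → ∀ t, N p (U t g) = 0)

def S_fix : Prop := ∀ p : ℝ, 2 < p → p < 4 → ∃ C : ℝ≥0∞, C ≠ ⊤ ∧
  ∀ (t c : ℝ) (g : ℝ → ℂ), 0 < c → Good g →
    N p (U t g) ≤ C * (ENNReal.ofReal (c ^ (2 - p)) * N p g +
      ENNReal.ofReal (c ^ (4 - p)) * Ph p g t)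

def S_Ph : Prop := ∀ η p : ℝ, 0 < η → 2 < p → p < 4 → ∃ C : ℝ≥0∞, C ≠ ⊤ ∧
  ∀ g : ℝ → ℂ, Good g → Measurable (Ph p g) ∧ ∫⁻ t, wt η t * Ph p g t ≤ C * N p g

def S_phiI : Prop := ∀ η p : ℝ, 0 < η → 2 < p → p < 4 → Phi η p

def S_phiE : Prop := ∀ η : ℝ, 0 < η → Phi η 2 ∧ Phi η 4

def S_hold2 : Prop := ∀ (p : ℝ) (w a F : ℝ → ℝ≥0∞), 1 ≤ p → Measurable w → Measurable a →
  Measurable F → (∀ t, 1 ≤ a t) → ∫⁻ t, w t * a t ≠ ⊤ →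
  (∫⁻ t, w t * F t) ^ p ≤ (∫⁻ t, w t * a t) ^ (p - 1) * ∫⁻ t, w t * (a t ^ (1 - p) * F t ^ p)

end Vale.Agent.P117
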