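import Mathlib

/-! Bochner-Riesz means on three dimensional space and tensor product inputs. -/

namespace Vale.Agent.P117

open MeasureTheory FourierTransform

/-- Euclidean three-space -/
abbrev E3 := EuclideanSpace ℝ (Fin 3)

/-- the Bochner-Riesz operator of order δ -/
noncomputable def BR (δ : ℝ) (f : E3 → ℂ) (x : E3) : ℂ :=
  ∫ ξ : E3, (((max (1 - ‖ξ‖ ^ 2) 0) ^ δ : ℝ) : ℂ) * 𝓕 f ξ *
    Complex.exp (2 * Real.pi * Complex.I * (inner ℝ x ξ : ℝ))

/-- the tensor product of three Schwartz functions of one variable -/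
noncomputable def tens (g : Fin 3 → SchwartzMap ℝ ℂ) (x : E3) : ℂ := ∏ j, g j (x j)

end Vale.Agent.P117
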