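import Vale.Agent.P117.Stm

namespace Vale.Agent.P117

open MeasureTheory FourierTransform Set
open scoped ENNReal

theorem Ah_ch (β y h : ℝ) : ch β (y + h) * (starRingEnd ℂ) (ch β y) =
    ch β h * Complex.exp (((-2 * Real.pi * y * (-h * β) : ℝ) : ℂ) * Complex.I) := by
  unfold ch
  rw [← Complex.exp_conj, ← Complex.exp_add, ← Complex.exp_add]
  simp only [map_mul, map_pow, Complex.conj_ofReal, Complex.conj_I]
  congr 1
  push_cast
  ring

theorem Ah_norm (β h : ℝ) : ‖ch β h‖ = 1 := by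
  have e : ch β h = Complex.exp (((Real.pi * β * h ^ 2 : ℝ) : ℂ) * Complex.I) := by
    unfold ch
    congr 1
    push_cast
    ring
  rw [e, Complex.norm_exp_ofReal_mul_I]

theorem Ah_eq (g : ℝ → ℂ) (β h : ℝ) : ‖A (fun y => ch β y * g y) h‖ₑ =
    ‖𝓕 (fun y => g (y + h) * (starRingEnd ℂ) (g y)) (-h * β)‖ₑ := by
  have e : A (fun y => ch β y * g y) h =
      ch β h * 𝓕 (fun y => g (y + h) * (starRingEnd ℂ) (g y)) (-h * β) := by
    rw [Real.fourier_real_eq_integral_exp_smul, ← integral_const_mul]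
    refine integral_congr_ae (ae_of_all _ fun y => ?_)
    show ch β (y + h) * g (y + h) * (starRingEnd ℂ) (ch β y * g y) = _
    rw [map_mul, mul_mul_mul_comm, Ah_ch, mul_assoc]
    rfl
  rw [e, enorm_mul, ← ofReal_norm (ch β h), Ah_norm, ENNReal.ofReal_one, one_mul]

theorem Ah_scale (G : ℝ → ℝ≥0∞) (hG : Measurable G) {a : ℝ} (ha : a ≠ 0) :
    ∫⁻ β, G (a * β) = ENNReal.ofReal |a⁻¹| * ∫⁻ β, G β := by
  rw [← lintegral_map hG (measurable_const_mul a), Real.map_volume_mul_left ha, lintegral_smul_measure,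
    smul_eq_mul]

theorem s_Ah (h_bes : S_bes) (h_cs : S_cs) : S_Ah := by
  intro g h hg h0
  obtain ⟨h1, h2, M, h3⟩ := hg
  have hi : Integrable fun y => g (y + h) * (starRingEnd ℂ) (g y) :=
    (h2.comp_add_right h).mul_bdd (c := M)
      (Complex.continuous_conj.measurable.comp h1).aestronglyMeasurable
      (ae_of_all _ fun y => by rw [Complex.norm_conj]; exact h3 y)
  have hc : Continuous (𝓕 fun y => g (y + h) * (starRingEnd ℂ) (g y)) :=
    VectorFourier.fourierIntegral_continuous Real.continuous_fourierChar continuous_inner hi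
  simp only [Ah_eq]
  rw [Ah_scale (fun w => ‖𝓕 (fun y => g (y + h) * (starRingEnd ℂ) (g y)) w‖ₑ ^ (2 : ℝ))
    (hc.measurable.enorm.pow_const _) (neg_ne_zero.2 h0), abs_inv, abs_neg, one_div]
  exact mul_le_mul_right ((h_bes _ hi).trans (h_cs g h h1)) _

end Vale.Agent.P117
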