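import Vale.Agent.P117.Stm

namespace Vale.Agent.P117

open MeasureTheory FourierTransform Set
open scoped ENNReal

theorem Ameas_ch : Measurable fun z : ℝ × ℝ => ch z.1 z.2 := by
  unfold ch
  exact Continuous.measurable (by fun_prop)

theorem s_Ameas : S_Ameas := by
  intro g hg
  have hc : Measurable fun z : ℝ × ℝ => ch z.1 z.2 * g z.2 :=
    Ameas_ch.mul (hg.comp measurable_snd)
  constructor
  · have h1 : Measurable fun w : (ℝ × ℝ) × ℝ => ch w.1.1 (w.2 + w.1.2) * g (w.2 + w.1.2) :=
      hc.comp (measurable_fst.fst.prodMk (measurable_snd.add measurable_fst.snd))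
    have h2 : Measurable fun w : (ℝ × ℝ) × ℝ => (starRingEnd ℂ) (ch w.1.1 w.2 * g w.2) :=
      Complex.continuous_conj.measurable.comp (hc.comp (measurable_fst.fst.prodMk measurable_snd))
    exact ((h1.mul h2).stronglyMeasurable.integral_prod_right' (ν := volume)).measurable
  · have h1 : Measurable fun w : (ℝ × ℝ) × ℝ =>
        Complex.exp (((-2 * Real.pi * w.2 * w.1.2 : ℝ) : ℂ) * Complex.I) :=
      Continuous.measurable (by fun_prop)
    have h2 : Measurable fun w : (ℝ × ℝ) × ℝ => ch w.1.1 w.2 * g w.2 :=
      hc.comp (measurable_fst.fst.prodMk measurable_snd)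
    have h3 := ((h1.smul h2).stronglyMeasurable.integral_prod_right' (ν := volume)).measurable
    have h4 : Measurable fun z : ℝ × ℝ => 𝓕 (fun y => ch z.1 y * g y) z.2 := by
      simp only [Real.fourier_real_eq_integral_exp_smul]
      exact h3
    exact (h4.enorm.pow_const (4 : ℝ)).lintegral_prod_right'

end Vale.Agent.P117
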