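import Vale.Agent.P117.Stm

namespace Vale.Agent.P117

open MeasureTheory FourierTransform Set
open scoped ENNReal

theorem auto_conv (φ : ℝ → ℂ) : A φ = convolution (fun t => (starRingEnd ℂ) (φ (-t))) φ
    (ContinuousLinearMap.mul ℂ ℂ) volume := by
  funext h
  rw [convolution_def, ← integral_neg_eq_self]
  refine integral_congr_ae (Filter.Eventually.of_forall fun y => ?_)
  simp only [ContinuousLinearMap.mul_apply', neg_neg, sub_neg_eq_add]
  rw [mul_comm, add_comm]

theorem auto_conj (φ : ℝ → ℂ) (ξ : ℝ) :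
    𝓕 (fun t => (starRingEnd ℂ) (φ (-t))) ξ = (starRingEnd ℂ) (𝓕 φ ξ) := by
  rw [Real.fourier_real_eq_integral_exp_smul, Real.fourier_real_eq_integral_exp_smul,
    ← integral_conj, ← integral_neg_eq_self]
  refine integral_congr_ae (Filter.Eventually.of_forall fun y => ?_)
  simp only [smul_eq_mul, neg_neg, map_mul, ← Complex.exp_conj, Complex.conj_ofReal,
    Complex.conj_I]
  congr 2
  push_cast
  ring

theorem s_auto (h_bes : S_bes) : S_auto := by
  intro φ hφ
  have hψ : Integrable fun t => (starRingEnd ℂ) (φ (-t)) :=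
    (Complex.conjCLE : ℂ →L[ℝ] ℂ).integrable_comp hφ.comp_neg
  have hA : Integrable (A φ) := by
    rw [auto_conv]
    exact hψ.integrable_convolution _ hφ
  refine le_of_eq_of_le ?_ (h_bes _ hA)
  unfold N
  refine lintegral_congr fun ξ => ?_
  rw [auto_conv, Real.fourier_mul_convolution_eq hψ hφ, auto_conj, enorm_mul]
  have e : ‖(starRingEnd ℂ) (𝓕 φ ξ)‖ₑ = ‖𝓕 φ ξ‖ₑ := by
    rw [← ofReal_norm_eq_enorm, ← ofReal_norm_eq_enorm, Complex.norm_conj]
  rw [e, ← sq, ← ENNReal.rpow_natCast, ← ENNReal.rpow_mul]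
  norm_num

end Vale.Agent.P117
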