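import Vale.Agent.P117.Stm

namespace Vale.Agent.P117

open MeasureTheory Set FourierTransform SchwartzMap
open scoped ENNReal ContDiff

theorem bes_swap {f g : ℝ → ℂ} (hf : Integrable f) (hg : Integrable g) :
    ∫ x, 𝓕 f x • g x = ∫ x, f x • 𝓕 g x := by
  have h := VectorFourier.integral_fourierIntegral_smul_eq_flip (L := innerₗ ℝ)
    Real.continuous_fourierChar continuous_inner hf hg
  rw [flip_innerₗ] at h
  exact h

theorem bes_cont {f : ℝ → ℂ} (hf : Integrable f) : Continuous (𝓕 f) :=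
  VectorFourier.fourierIntegral_continuous Real.continuous_fourierChar continuous_inner hf

theorem bes_sq (f : ℝ → ℂ) : eLpNorm f 2 volume ^ 2 = ∫⁻ x, ‖f x‖ₑ ^ 2 := by
  have := eLpNorm_nnreal_pow_eq_lintegral (f := f) (μ := volume) (p := 2) two_ne_zero
  simpa using this

theorem bes_pl {G : ℝ → ℂ} (h1 : Integrable G) (h2 : ∫⁻ x, ‖G x‖ₑ ^ 2 ≠ ⊤) :
    ∫⁻ x, ‖𝓕 G x‖ₑ ^ 2 = ∫⁻ x, ‖G x‖ₑ ^ 2 := by
  have hm : MemLp G 2 volume := by
    refine ⟨h1.1, lt_top_iff_ne_top.2 fun h => h2 ?_⟩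
    rw [← bes_sq, h]
    simp
  have e1 : eLpNorm (𝓕 (hm.toLp G) : Lp ℂ 2 (volume : Measure ℝ)) 2 volume =
      eLpNorm (hm.toLp G) 2 volume :=
    (ENNReal.toReal_eq_toReal_iff' (Lp.eLpNorm_ne_top _) (Lp.eLpNorm_ne_top _)).1
      (Lp.norm_fourier_eq (hm.toLp G))
  have e2 : ((𝓕 (hm.toLp G) : Lp ℂ 2 (volume : Measure ℝ)) : ℝ → ℂ) =ᵐ[volume] 𝓕 G := by
    refine ae_eq_of_integral_contDiff_smul_eq ((Lp.memLp _).locallyIntegrable one_le_two)
      (bes_cont h1).locallyIntegrable fun g g1 g2 => ?_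
    have hg₁ : HasCompactSupport (Complex.ofRealCLM ∘ g) := g2.comp_left rfl
    have hg₂ : ContDiff ℝ ∞ (Complex.ofRealCLM ∘ g) := by fun_prop
    have a1 := Lp.toTemperedDistribution_apply (𝓕 (hm.toLp G) : Lp ℂ 2 (volume : Measure ℝ))
      (hg₁.toSchwartzMap hg₂)
    rw [← Lp.fourier_toTemperedDistribution_eq, TemperedDistribution.fourier_apply,
      Lp.toTemperedDistribution_apply] at a1
    have a2 : ∫ x, (𝓕 (hg₁.toSchwartzMap hg₂)) x • (hm.toLp G) x =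
        ∫ x, 𝓕 (hg₁.toSchwartzMap hg₂ : ℝ → ℂ) x • G x := by
      refine integral_congr_ae ?_
      filter_upwards [hm.coeFn_toLp] with x hx
      rw [hx, SchwartzMap.fourier_coe]
    rw [a2, bes_swap (hg₁.toSchwartzMap hg₂).integrable h1] at a1
    exact a1.symm
  rw [← bes_sq, ← bes_sq, ← eLpNorm_congr_ae e2, e1, eLpNorm_congr_ae hm.coeFn_toLp]

theorem s_bes : S_bes := by
  intro g hg
  simp only [N, ENNReal.rpow_two]
  by_cases h : ∫⁻ x, ‖g x‖ₑ ^ 2 = ⊤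
  · rw [h]; exact le_top
  · exact (bes_pl hg h).le

end Vale.Agent.P117
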