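import Vale.Agent.P117.Stm

/-! The estimate on one dyadic block of times. -/

namespace Vale.Agent.P117

open MeasureTheory FourierTransform Set
open scoped ENNReal

theorem blk_meas (T : ℝ) : MeasurableSet (D T) :=
  (measurableSet_le measurable_const measurable_abs).inter
    (measurableSet_le measurable_abs measurable_const)

theorem blk_vol (T : ℝ) : volume (D T) ≤ ENNReal.ofReal (4 * T) := by
  have h : D T ⊆ Icc (-(2 * T)) (2 * T) := fun t ht => abs_le.1 ht.2
  refine (measure_mono h).trans (le_of_eq ?_)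
  rw [Real.volume_Icc]
  refine congrArg _ ?_
  ring

theorem blk_good {g : ℝ → ℂ} (hg : Good g) (L : ℝ) (m : ℤ) : Good (blk L m g) := by
  obtain ⟨h1, h2, M, hM⟩ := hg
  exact ⟨h1.indicator measurableSet_Ico, h2.indicator measurableSet_Ico, M, fun y =>
    (norm_indicator_le_norm_self _ _).trans (hM y)⟩

theorem blk_supp (g : ℝ → ℂ) (L : ℝ) (m : ℤ) : Supp (blk L m g) (((m : ℝ) - 1) * L) (3 * L) := by
  intro y hy
  refine indicator_of_notMem (fun h => hy ⟨h.1, ?_⟩) _
  have := h.2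
  linarith

theorem blk_real {ε T : ℝ} (h0 : 0 < ε) (h1 : ε < 1) (hT : 1 ≤ T) :
    24 * (4 * T * (2 / ε * ((3 * (17 * T ^ 2)) ^ 2 / T) ^ ε)) + 32 * T ≤
      (24 * 4 * (2 / ε) * 2601 + 32) * T ^ (1 + 3 * ε) := by
  have hT0 : 0 < T := by linarith
  have e1 : (3 * (17 * T ^ 2)) ^ 2 / T = 2601 * T ^ (3 : ℝ) := by
    rw [show (3 : ℝ) = ((3 : ℕ) : ℝ) by norm_num, Real.rpow_natCast]
    field_simp
    ring
  have e2 : (2601 * T ^ (3 : ℝ)) ^ ε ≤ 2601 * T ^ (3 * ε) := by
    rw [Real.mul_rpow (by norm_num) (by positivity), ← Real.rpow_mul hT0.le]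
    refine mul_le_mul_of_nonneg_right ?_ (by positivity)
    exact Real.rpow_le_self_of_one_le (by norm_num) h1.le
  have e3 : T ^ (1 + 3 * ε) = T * T ^ (3 * ε) := by rw [Real.rpow_add hT0, Real.rpow_one]
  have e4 : 1 ≤ T ^ (3 * ε) := Real.one_le_rpow hT (by positivity)
  have e5 : T ≤ T * T ^ (3 * ε) := le_mul_of_one_le_right hT0.le e4
  have e6 := mul_le_mul_of_nonneg_left e2 (by positivity : 0 ≤ T * (2 / ε))
  rw [e1, e3]
  linarith

theorem s_blk (h_kmeas : S_kmeas) (h_near : S_near) (h_loc : S_loc) (h_ovl : S_ovl) : S_blk := by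
  intro ε h0 h1
  refine ⟨24 * 4 * (2 / ε) * 2601 + 32, by positivity, fun T hT g hg => ?_⟩
  have hT0 : 0 < T := by linarith
  have hm : ∀ m : ℤ, Measurable fun t => N 4 (U t (blk (17 * T ^ 2) m g)) := fun m =>
    h_kmeas.2.2.2.1 _ (blk_good hg _ m).1 4
  have a1 : ∫⁻ t in D T, N 4 (U t g) ≤
      ∫⁻ t in D T, (8 * ∑' m : ℤ, N 4 (U t (blk (17 * T ^ 2) m g)) + 8 * N 4 g) := by
    refine setLIntegral_mono' (blk_meas T) fun t ht => h_loc t _ g hg ?_
    have b1 : |t| ^ 2 ≤ (2 * T) ^ 2 := pow_le_pow_left₀ (abs_nonneg t) ht.2 2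
    rw [sq_abs] at b1
    nlinarith
  rw [lintegral_add_right _ measurable_const, lintegral_const_mul' _ _ (by norm_num),
    lintegral_tsum fun m => (hm m).aemeasurable, setLIntegral_const] at a1
  have a2 : ∑' m : ℤ, ∫⁻ t in D T, N 4 (U t (blk (17 * T ^ 2) m g)) ≤
      ENNReal.ofReal (4 * T * (2 / ε * ((3 * (17 * T ^ 2)) ^ 2 / T) ^ ε)) * (3 * N 4 g) := by
    refine (ENNReal.tsum_le_tsum fun m => h_near ε _ _ T _ h0 h1 (by positivity) hT0
      (blk_good hg _ m) (blk_supp g _ m)).trans ?_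
    rw [ENNReal.tsum_mul_left]
    exact mul_le_mul_right (h_ovl _ g hg.1 (by positivity)) _
  refine (a1.trans (add_le_add (mul_le_mul_right a2 _) (mul_le_mul_right (blk_vol T) _))).trans ?_
  refine le_trans (le_of_eq ?_) (mul_le_mul_left (ENNReal.ofReal_le_ofReal (blk_real h0 h1 hT)) _)
  rw [ENNReal.ofReal_add (by positivity) (by positivity), show 32 * T = 8 * (4 * T) by ring,
    ENNReal.ofReal_mul (p := 24) (by norm_num), ENNReal.ofReal_mul (p := 8) (by norm_num),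
    ENNReal.ofReal_ofNat, ENNReal.ofReal_ofNat]
  ring

end Vale.Agent.P117
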