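import Vale.Agent.P117.Stm

/-! Chebyshev inequality for a sum of two functions. -/

namespace Vale.Agent.P117

open MeasureTheory FourierTransform Set
open scoped ENNReal

theorem cheb_one (ν : Measure (ℝ × ℝ)) (G : ℝ × ℝ → ℂ) (s q : ℝ) (hs : 0 < s) (hq : 0 < q)
    (hG : Measurable G) :
    ν {z | s ≤ ‖G z‖} ≤ ENNReal.ofReal (s ^ (-q)) * ∫⁻ z, ‖G z‖ₑ ^ q ∂ν := by
  have hm : AEMeasurable (fun z => ‖G z‖ₑ ^ q) ν := (hG.enorm.pow_const q).aemeasurable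
  have hp : 0 < s ^ q := Real.rpow_pos_of_pos hs q
  have h1 := meas_ge_le_lintegral_div hm (ε := ENNReal.ofReal (s ^ q)) (by simpa using hp)
    ENNReal.ofReal_ne_top
  refine le_trans (measure_mono fun z hz => ?_) (h1.trans (le_of_eq ?_))
  · show ENNReal.ofReal (s ^ q) ≤ ‖G z‖ₑ ^ q
    rw [← ofReal_norm, ENNReal.ofReal_rpow_of_nonneg (norm_nonneg _) hq.le]
    exact ENNReal.ofReal_le_ofReal (Real.rpow_le_rpow hs.le hz hq.le)
  · rw [Real.rpow_neg hs.le, ENNReal.ofReal_inv_of_pos hp, ENNReal.div_eq_inv_mul]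

theorem s_cheb : S_cheb := by
  intro ν F F₁ F₂ l hl h1 h2 hF
  have hs : {z | l < ‖F z‖} ⊆ {z | l / 2 ≤ ‖F₁ z‖} ∪ {z | l / 2 ≤ ‖F₂ z‖} := by
    intro z hz
    have h3 : l < ‖F z‖ := hz
    have h4 := norm_add_le (F₁ z) (F₂ z)
    rw [← hF z] at h4
    by_contra h
    simp only [mem_union, mem_ofPred_eq, not_or, not_le] at h
    linarith [h.1, h.2]
  have e2 : (l / 2) ^ (-2 : ℝ) = 4 * l ^ (-2 : ℝ) := by
    rw [Real.div_rpow hl.le (by norm_num), Real.rpow_neg (by norm_num : (0 : ℝ) ≤ 2)]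
    norm_num
    ring
  have e4 : (l / 2) ^ (-4 : ℝ) = 16 * l ^ (-4 : ℝ) := by
    rw [Real.div_rpow hl.le (by norm_num), Real.rpow_neg (by norm_num : (0 : ℝ) ≤ 2)]
    norm_num
    ring
  rw [← e2, ← e4]
  exact (measure_mono hs).trans ((measure_union_le _ _).trans (add_le_add
    (cheb_one ν F₁ (l / 2) 2 (half_pos hl) (by norm_num) h1)
    (cheb_one ν F₂ (l / 2) 4 (half_pos hl) (by norm_num) h2)))

end Vale.Agent.P117
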