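import Vale.Agent.P117.Stm

/-! The averaged fourth moment of the Fourier transform of a chirp times a compactly supported
function. -/

namespace Vale.Agent.P117

open MeasureTheory FourierTransform Set
open scoped ENNReal

theorem core_min {u v ε : ℝ} (hu : 0 < u) (hv : 0 < v) (h0 : 0 < ε) (h1 : ε < 1) :
    min u v ≤ u ^ ε * v ^ (1 - ε) := by
  have hm : 0 < min u v := lt_min hu hv
  have h2 : min u v = min u v ^ ε * min u v ^ (1 - ε) := by
    rw [← Real.rpow_add hm, add_sub_cancel, Real.rpow_one]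
  rw [h2]
  exact mul_le_mul (Real.rpow_le_rpow hm.le (min_le_left _ _) h0.le)
    (Real.rpow_le_rpow hm.le (min_le_right _ _) (sub_pos.2 h1).le)
    (Real.rpow_nonneg hm.le _) (Real.rpow_nonneg hu.le _)

theorem core_int {g : ℝ → ℂ} (hg : Integrable g) (β : ℝ) :
    Integrable fun y => ch β y * g y := by
  refine hg.bdd_mul (c := 1) ?_ (Filter.Eventually.of_forall fun y => ?_)
  · unfold ch
    exact Continuous.aestronglyMeasurable (by fun_prop)
  · have : (Real.pi : ℂ) * Complex.I * β * (y : ℂ) ^ 2 =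
        ((Real.pi * β * y ^ 2 : ℝ) : ℂ) * Complex.I := by
      push_cast
      ring
    rw [ch, this, Complex.norm_exp_ofReal_mul_I]

theorem core_pt (h_Ah : S_Ah) (h_A0 : S_A0) {ε a Λ B h : ℝ} {g : ℝ → ℂ} (h0 : 0 < ε)
    (h1 : ε < 1) (hΛ : 0 < Λ) (hB : 0 < B) (hg : Good g) (hs : Supp g a Λ) (hh : h ≠ 0) :
    ∫⁻ β in Icc (-B) B, ‖A (fun y => ch β y * g y) h‖ₑ ^ (2 : ℝ) ≤
      (Icc (-Λ) Λ).indicator (fun h : ℝ => (ENNReal.ofReal ((2 * B * Λ) ^ ε) * N 4 g) *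
        ENNReal.ofReal (|h| ^ (ε - 1))) h := by
  by_cases hm : h ∈ Icc (-Λ) Λ
  · rw [indicator_of_mem hm]
    have hp : 0 < |h| := abs_pos.2 hh
    have hu : 0 < 2 * B * Λ := by positivity
    have e1 : ∫⁻ β in Icc (-B) B, ‖A (fun y => ch β y * g y) h‖ₑ ^ (2 : ℝ) ≤
        ENNReal.ofReal (2 * B * Λ) * N 4 g := by
      refine (lintegral_mono fun β => (h_A0 g a Λ β h hg.1 hs hΛ).1).trans (le_of_eq ?_)
      rw [setLIntegral_const, Real.volume_Icc, ENNReal.ofReal_mul (by positivity : 0 ≤ 2 * B),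
        show B - -B = 2 * B by ring]
      ring
    have e2 : ∫⁻ β in Icc (-B) B, ‖A (fun y => ch β y * g y) h‖ₑ ^ (2 : ℝ) ≤
        ENNReal.ofReal (1 / |h|) * N 4 g :=
      (setLIntegral_le_lintegral _ _).trans (h_Ah g h hg hh)
    have e3 : ∫⁻ β in Icc (-B) B, ‖A (fun y => ch β y * g y) h‖ₑ ^ (2 : ℝ) ≤
        ENNReal.ofReal (min (2 * B * Λ) (1 / |h|)) * N 4 g := by
      rcases min_choice (2 * B * Λ) (1 / |h|) with h | h
      · rw [h]
        exact e1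
      · rw [h]
        exact e2
    have e4 := core_min hu (one_div_pos.2 hp) h0 h1
    have e5 : (1 / |h|) ^ (1 - ε) = |h| ^ (ε - 1) := by
      rw [one_div, Real.inv_rpow hp.le, ← Real.rpow_neg hp.le, neg_sub]
    rw [e5] at e4
    refine e3.trans ?_
    rw [mul_right_comm _ (N 4 g), ← ENNReal.ofReal_mul (Real.rpow_nonneg hu.le _)]
    exact mul_le_mul_left (ENNReal.ofReal_le_ofReal e4) _
  · have hl : Λ < |h| := by
      by_contra hc
      exact hm (abs_le.1 (not_lt.1 hc))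
    refine le_of_eq_of_le ?_ zero_le
    have : ∀ β : ℝ, ‖A (fun y => ch β y * g y) h‖ₑ ^ (2 : ℝ) = 0 := fun β => by
      rw [(h_A0 g a Λ β h hg.1 hs hΛ).2 hl]
      simp
    simp only [this, lintegral_zero]

theorem s_core (h_auto : S_auto) (h_Ah : S_Ah) (h_A0 : S_A0) (h_Ameas : S_Ameas)
    (h_hint : S_hint) : S_core := by
  intro ε a Λ B g h0 h1 hΛ hB hg hs
  have hme : Measurable fun z : ℝ × ℝ => ‖A (fun y => ch z.1 y * g y) z.2‖ₑ ^ (2 : ℝ) :=
    (h_Ameas g hg.1).1.enorm.pow_const _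
  have hne : ∀ᵐ h : ℝ, h ≠ 0 := by
    rw [ae_iff]
    simp
  have hu : 0 < 2 * B * Λ := by positivity
  calc ∫⁻ β in Icc (-B) B, N 4 (𝓕 (fun y => ch β y * g y))
      ≤ ∫⁻ β in Icc (-B) B, ∫⁻ h, ‖A (fun y => ch β y * g y) h‖ₑ ^ (2 : ℝ) :=
        lintegral_mono fun β => h_auto _ (core_int hg.2.1 β)
    _ = ∫⁻ h, ∫⁻ β in Icc (-B) B, ‖A (fun y => ch β y * g y) h‖ₑ ^ (2 : ℝ) :=
        lintegral_lintegral_swap hme.aemeasurable
    _ ≤ ∫⁻ h, (Icc (-Λ) Λ).indicator (fun h : ℝ =>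
          (ENNReal.ofReal ((2 * B * Λ) ^ ε) * N 4 g) * ENNReal.ofReal (|h| ^ (ε - 1))) h :=
        lintegral_mono_ae (hne.mono fun h hh => core_pt h_Ah h_A0 h0 h1 hΛ hB hg hs hh)
    _ = (ENNReal.ofReal ((2 * B * Λ) ^ ε) * N 4 g) *
          ∫⁻ h in Icc (-Λ) Λ, ENNReal.ofReal (|h| ^ (ε - 1)) := by
        rw [lintegral_indicator measurableSet_Icc, lintegral_const_mul]
        exact (measurable_abs.pow_const _).ennreal_ofReal
    _ ≤ (ENNReal.ofReal ((2 * B * Λ) ^ ε) * N 4 g) * ENNReal.ofReal (2 / ε * Λ ^ ε) :=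
        mul_le_mul_right (h_hint ε Λ h0 hΛ) _
    _ = ENNReal.ofReal (2 / ε * (2 * B * Λ ^ 2) ^ ε) * N 4 g := by
        rw [mul_right_comm _ (N 4 g), ← ENNReal.ofReal_mul (Real.rpow_nonneg hu.le _),
          show 2 * B * Λ ^ 2 = 2 * B * Λ * Λ by ring, Real.mul_rpow hu.le hΛ.le]
        congr 2
        ring

end Vale.Agent.P117
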