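import Vale.Agent.P117.Stm

namespace Vale.Agent.P117

open MeasureTheory FourierTransform Set
open scoped ENNReal

theorem cov_der {t : ℝ} (ht : t ≠ 0) :
    HasDerivAt (fun t : ℝ => 1 / (2 * t)) (-(1 / (2 * t ^ 2))) t := by
  have h := ((hasDerivAt_id t).const_mul 2).inv (mul_ne_zero two_ne_zero ht)
  have e : -(1 / (2 * t ^ 2)) = -(2 * 1) / (2 * id t) ^ 2 := by
    simp only [id]
    field_simp
  rw [e]
  exact h.congr_of_eventuallyEq (Filter.Eventually.of_forall fun x => by simp)

theorem s_cov : S_cov := by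
  intro F T _ hT
  have hm : MeasurableSet (D T) :=
    (measurableSet_le measurable_const measurable_id.abs).inter
      (measurableSet_le measurable_id.abs measurable_const)
  have h0 : ∀ t ∈ D T, t ≠ 0 := fun t ht => abs_pos.1 (hT.trans_le ht.1)
  have hi : InjOn (fun t : ℝ => 1 / (2 * t)) (D T) := fun a _ b _ e => by
    simp only [one_div, inv_inj] at e
    linarith
  have e := lintegral_image_eq_lintegral_abs_deriv_mul hm
    (fun t ht => (cov_der (h0 t ht)).hasDerivWithinAt) hi F
  have hs : (fun t : ℝ => 1 / (2 * t)) '' D T ⊆ Icc (-(1 / (2 * T))) (1 / (2 * T)) := by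
    rintro _ ⟨t, ht, rfl⟩
    refine abs_le.1 ?_
    rw [abs_div, abs_one, abs_mul, abs_two]
    exact one_div_le_one_div_of_le (by positivity) (by linarith [ht.1])
  refine le_trans ?_ (mul_le_mul_right (lintegral_mono_set hs) _)
  rw [e, ← lintegral_const_mul' _ _ ENNReal.ofReal_ne_top]
  refine setLIntegral_mono' hm fun t ht => ?_
  rw [← mul_assoc, ← ENNReal.ofReal_mul (by positivity)]
  refine le_mul_of_one_le_left' (ENNReal.one_le_ofReal.2 ?_)
  have h1 : 0 < t ^ 2 := sq_pos_of_ne_zero (h0 t ht)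
  have h2 : t ^ 2 ≤ (2 * T) ^ 2 := by
    rw [← sq_abs]
    exact pow_le_pow_left₀ (abs_nonneg t) ht.2 2
  rw [abs_neg, abs_of_pos (by positivity), mul_one_div, one_le_div (by positivity)]
  linarith

end Vale.Agent.P117
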