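import Vale.Agent.P117.Stm

namespace Vale.Agent.P117

open MeasureTheory FourierTransform Set
open scoped ENNReal

theorem s_cs : S_cs := by
  intro g h hg
  have m : Measurable fun y => ‖g y‖ₑ ^ (2 : ℝ) := hg.enorm.pow_const _
  have k := ENNReal.lintegral_mul_le_Lp_mul_Lq volume Real.HolderConjugate.two_two
    (m.comp (measurable_add_const h)).aemeasurable m.aemeasurable
  have e : ∀ z : ℂ, (‖z‖ₑ ^ (2 : ℝ)) ^ (2 : ℝ) = ‖z‖ₑ ^ (4 : ℝ) := fun z => by
    rw [← ENNReal.rpow_mul]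
    norm_num
  simp only [Function.comp, Pi.mul_apply, e] at k
  rw [lintegral_add_right_eq_self (fun y => ‖g y‖ₑ ^ (4 : ℝ)) h,
    ← ENNReal.rpow_add_of_nonneg _ _ (by norm_num) (by norm_num), add_halves,
    ENNReal.rpow_one] at k
  refine le_trans (le_of_eq (lintegral_congr fun y => ?_)) k
  rw [enorm_mul, RCLike.enorm_conj, ENNReal.mul_rpow_of_nonneg _ _ (by norm_num)]

end Vale.Agent.P117
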