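import Vale.Agent.P117.Stm

/-! The kernel is a Gaussian average of a chirp. -/

namespace Vale.Agent.P117

open MeasureTheory FourierTransform Set
open scoped ENNReal

theorem fac_ne (t : ℝ) : bb t ≠ 0 := fun h => by
  have := congrArg Complex.re h
  simp [bb] at this

theorem fac_sq (w : ℂ) : ‖w ^ (1 / 2 : ℂ)‖ ^ 2 = ‖w‖ := by
  have e : (1 / 2 : ℂ) = ((1 / 2 : ℝ) : ℂ) := by push_cast; rfl
  rw [e, Complex.norm_cpow_real, ← Real.rpow_natCast, ← Real.rpow_mul (norm_nonneg _)]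
  norm_num

theorem fac_b {t : ℝ} (ht : t ≠ 0) :
    (-Real.pi + Real.pi * Complex.I * ((1 / (2 * t) : ℝ) : ℂ) : ℂ) =
      -(Real.pi * bb t / (2 * Complex.I * t)) := by
  have h1 : (t : ℂ) ≠ 0 := Complex.ofReal_ne_zero.2 ht
  have h2 := Complex.I_ne_zero
  unfold bb
  push_cast
  field_simp
  linear_combination Complex.I_sq

theorem s_fac : S_fac := by
  intro t ht
  have h1 : (t : ℂ) ≠ 0 := Complex.ofReal_ne_zero.2 ht
  have h2 := Complex.I_ne_zero
  have h3 := fac_ne t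
  have h4 : (Real.pi : ℂ) ≠ 0 := Complex.ofReal_ne_zero.2 Real.pi_ne_zero
  have hre : (-Real.pi + Real.pi * Complex.I * ((1 / (2 * t) : ℝ) : ℂ) : ℂ).re < 0 := by
    generalize 1 / (2 * t) = s
    simpa using Real.pi_pos
  have e1 : (Real.pi : ℂ) / -(-Real.pi + Real.pi * Complex.I * ((1 / (2 * t) : ℝ) : ℂ)) =
      2 * Complex.I * t / bb t := by
    rw [fac_b ht]
    field_simp
  have n1 : (2 * Complex.I * t / bb t) ^ (1 / 2 : ℂ) ≠ 0 :=
    Complex.cpow_ne_zero_iff.2 (Or.inl (div_ne_zero (mul_ne_zero (mul_ne_zero two_ne_zero h2) h1) h3))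
  refine ⟨1 / bb t ^ (1 / 2 : ℂ) / (2 * Complex.I * t / bb t) ^ (1 / 2 : ℂ), ?_, fun z => ?_⟩
  · have n2 : ‖bb t‖ ≠ 0 := norm_ne_zero_iff.2 h3
    have n3 : |t| ≠ 0 := abs_ne_zero.2 ht
    rw [norm_div, norm_div, div_pow, div_pow, fac_sq, fac_sq, norm_div, norm_mul, norm_mul,
      Complex.norm_I, Complex.norm_real, Real.norm_eq_abs, norm_one, Complex.norm_ofNat]
    field_simp
  · have e2 : ∀ w : ℝ, Complex.exp (-Real.pi * ((z : ℂ) - w) ^ 2) * ch (1 / (2 * t)) w =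
        Complex.exp ((-Real.pi + Real.pi * Complex.I * ((1 / (2 * t) : ℝ) : ℂ)) * (w : ℂ) ^ 2 +
          2 * Real.pi * z * w + -(Real.pi * (z : ℂ) ^ 2)) := fun w => by
      rw [ch, ← Complex.exp_add]
      exact congrArg _ (by ring)
    have e3 : -(Real.pi * (z : ℂ) ^ 2) - (2 * Real.pi * z) ^ 2 /
        (4 * (-Real.pi + Real.pi * Complex.I * ((1 / (2 * t) : ℝ) : ℂ))) =
        -Real.pi / bb t * (z : ℂ) ^ 2 := by
      rw [fac_b ht]
      field_simp
      unfold bb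
      ring
    simp_rw [e2]
    rw [integral_cexp_quadratic hre, e1, e3, k, ← mul_assoc, div_mul_cancel₀ _ n1]

end Vale.Agent.P117
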