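import Vale.Agent.P117.Stm

namespace Vale.Agent.P117

open MeasureTheory Set FourierTransform
open scoped ENNReal

theorem fin_good (g : SchwartzMap ℝ ℂ) : Good g :=
  ⟨g.continuous.measurable, g.integrable, ⟨SchwartzMap.seminorm ℝ 0 0 g, fun y => by
    simpa using SchwartzMap.norm_le_seminorm ℝ g y⟩⟩

theorem s_fin (h_lprod : S_lprod) (h_kmeas : S_kmeas) (h_w1 : S_w1) (h_wp : S_wp)
    (h_hold : S_hold) (h_pt : S_pt) : S_fin := by
  intro δ p hδ hp3 hp4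
  obtain ⟨C, hC, hpt⟩ := h_pt δ hδ
  obtain ⟨K, hK, hw⟩ := h_wp δ p hδ (by linarith) hp4
  obtain ⟨hwm, hw1⟩ := h_w1 δ hδ
  have hp0 : 0 ≤ p := by linarith
  have hB : C ^ p * (∫⁻ t, wt δ t) ^ (p - 3) ≠ ⊤ :=
    ENNReal.mul_ne_top (ENNReal.rpow_ne_top_of_nonneg hp0 hC)
      (ENNReal.rpow_ne_top_of_nonneg (by linarith) hw1)
  refine ⟨C ^ p * (∫⁻ t, wt δ t) ^ (p - 3) * K ^ 3,
    ENNReal.mul_ne_top hB (ENNReal.pow_ne_top hK), fun g => ?_⟩
  have hU : ∀ j, Measurable (fun z : ℝ × ℝ => U z.1 (g j) z.2) :=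
    fun j => h_kmeas.2.2.1 _ (fin_good (g j)).1
  have hJ : ∀ j, Measurable (fun z : ℝ × ℝ => wt δ z.1 * ‖U z.1 (g j) z.2‖ₑ ^ p) :=
    fun j => (hwm.comp measurable_fst).mul ((hU j).enorm.pow_const p)
  set H : Fin 3 → ℝ → ℝ≥0∞ := fun j y => ∫⁻ t, wt δ t * ‖U t (g j) y‖ₑ ^ p with hH
  have hHm : ∀ j, Measurable (H j) := fun j => (hJ j).lintegral_prod_left'
  have h1 : ∀ x : E3, ‖BR δ (tens g) x‖ₑ ^ p ≤
      C ^ p * (∫⁻ t, wt δ t) ^ (p - 3) * ∏ j, H j (x j) := by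
    intro x
    calc ‖BR δ (tens g) x‖ₑ ^ p
        ≤ (C * ∫⁻ t, wt δ t * ∏ j, ‖U t (g j) (x j)‖ₑ) ^ p :=
          ENNReal.rpow_le_rpow (hpt g x) hp0
      _ = C ^ p * (∫⁻ t, wt δ t * ∏ j, ‖U t (g j) (x j)‖ₑ) ^ p :=
          ENNReal.mul_rpow_of_nonneg _ _ hp0
      _ ≤ C ^ p * ((∫⁻ t, wt δ t) ^ (p - 3) * ∏ j, H j (x j)) := by
          gcongr
          exact h_hold p (wt δ) (fun j t => ‖U t (g j) (x j)‖ₑ) hp3 hwm
            (fun j => ((hU j).comp (measurable_prodMk_right (y := x j))).enorm)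
      _ = _ := (mul_assoc _ _ _).symm
  have h2 : ∀ j, ∫⁻ y, H j y ≤ K * N p (g j) := by
    intro j
    refine le_trans (le_of_eq ?_) (hw (g j) (fin_good (g j)))
    simp only [hH]
    rw [lintegral_lintegral_swap (f := fun y t => wt δ t * ‖U t (g j) y‖ₑ ^ p)
      ((hJ j).comp measurable_swap).aemeasurable]
    refine lintegral_congr fun t => ?_
    rw [N, lintegral_const_mul]
    exact ((hU j).comp (measurable_prodMk_left (x := t))).enorm.pow_const p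
  calc ∫⁻ x, ‖BR δ (tens g) x‖ₑ ^ p
      ≤ ∫⁻ x : E3, C ^ p * (∫⁻ t, wt δ t) ^ (p - 3) * ∏ j, H j (x j) := lintegral_mono h1
    _ = C ^ p * (∫⁻ t, wt δ t) ^ (p - 3) * ∏ j, ∫⁻ y, H j y := by
        rw [lintegral_const_mul' _ _ hB, h_lprod H hHm]
    _ ≤ C ^ p * (∫⁻ t, wt δ t) ^ (p - 3) * ∏ j, (K * N p (g j)) := by
        gcongr with j
        exact h2 j
    _ = _ := by
        rw [Finset.prod_mul_distrib, Finset.prod_const, Finset.card_univ, Fintype.card_fin,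
          ← mul_assoc]

theorem fin_lp (h_lprod : S_lprod) (h_fin : S_fin) (δ p : ℝ) (hδ : 0 < δ) (hp3 : 3 ≤ p)
    (hp4 : p < 4) : ∃ C : NNReal, ∀ g : Fin 3 → SchwartzMap ℝ ℂ,
      eLpNorm (BR δ (tens g)) (ENNReal.ofReal p) volume ≤
        C * eLpNorm (tens g) (ENNReal.ofReal p) volume := by
  obtain ⟨C, hC, h⟩ := h_fin δ p hδ hp3 hp4
  have hp0 : 0 < p := by linarith
  have hi : 0 ≤ 1 / p := by positivity
  refine ⟨(C ^ (1 / p)).toNNReal, fun g => ?_⟩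
  have e0 : ENNReal.ofReal p ≠ 0 := by simpa using hp0
  rw [ENNReal.coe_toNNReal (ENNReal.rpow_ne_top_of_nonneg hi hC),
    eLpNorm_eq_lintegral_rpow_enorm_toReal e0 ENNReal.ofReal_ne_top,
    eLpNorm_eq_lintegral_rpow_enorm_toReal e0 ENNReal.ofReal_ne_top,
    ENNReal.toReal_ofReal hp0.le, ← ENNReal.mul_rpow_of_nonneg _ _ hi]
  refine ENNReal.rpow_le_rpow ((h g).trans (le_of_eq ?_)) hi
  congr 1
  simp only [N]
  rw [← h_lprod (fun j y => ‖g j y‖ₑ ^ p)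
    (fun j => (g j).continuous.measurable.enorm.pow_const p)]
  refine lintegral_congr fun x => ?_
  simp only [tens, Fin.prod_univ_three, enorm_mul, ENNReal.mul_rpow_of_nonneg _ _ hp0.le]

end Vale.Agent.P117
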