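import Vale.Agent.P117.Stm

namespace Vale.Agent.P117

open MeasureTheory FourierTransform Set
open scoped ENNReal

theorem s_ften (h_prod : S_prod) : S_ften := by
  intro g ξ
  simp only [Real.fourier_real_eq_integral_exp_smul]
  rw [Real.fourier_eq', ← h_prod fun j y =>
    Complex.exp (↑(-2 * Real.pi * y * ξ j) * Complex.I) • g j y]
  refine integral_congr_ae (ae_of_all _ fun v => ?_)
  simp only [smul_eq_mul, tens, Finset.prod_mul_distrib, ← Complex.exp_sum, PiLp.inner_apply,
    Fin.sum_univ_three, RCLike.inner_apply, conj_trivial]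
  congr 2
  push_cast
  ring

end Vale.Agent.P117
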