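import Vale.Agent.P117.Stm

namespace Vale.Agent.P117

open MeasureTheory FourierTransform Set
open scoped ENNReal

theorem hint_half (ε Λ : ℝ) (hε : 0 < ε) (hΛ : 0 < Λ) :
    ∫⁻ h in Icc 0 Λ, ENNReal.ofReal (|h| ^ (ε - 1)) = ENNReal.ofReal (Λ ^ ε / ε) := by
  have hi : IntegrableOn (fun h : ℝ => h ^ (ε - 1)) (Icc 0 Λ) := by
    rw [integrableOn_Icc_iff_integrableOn_Ioc]
    exact (intervalIntegral.intervalIntegrable_rpow' (a := 0) (b := Λ) (by linarith)).1
  have e1 : ∫⁻ h in Icc 0 Λ, ENNReal.ofReal (|h| ^ (ε - 1)) =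
      ∫⁻ h in Icc 0 Λ, ENNReal.ofReal (h ^ (ε - 1)) :=
    setLIntegral_congr_fun measurableSet_Icc fun h hh => by
      simp only [abs_of_nonneg hh.1]
  rw [e1, ← ofReal_integral_eq_lintegral_ofReal hi
    ((ae_restrict_iff' measurableSet_Icc).2 (Filter.Eventually.of_forall fun h hh =>
      Real.rpow_nonneg hh.1 _)), integral_Icc_eq_integral_Ioc,
    ← intervalIntegral.integral_of_le hΛ.le, integral_rpow (Or.inl (by linarith)),
    sub_add_cancel, Real.zero_rpow hε.ne', sub_zero]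

theorem hint_neg (F : ℝ → ℝ≥0∞) (Λ : ℝ) :
    ∫⁻ h in Icc (-Λ) 0, F |h| = ∫⁻ h in Icc 0 Λ, F |h| := by
  rw [← lintegral_indicator measurableSet_Icc, ← lintegral_indicator measurableSet_Icc,
    ← lintegral_neg_eq_self]
  refine lintegral_congr fun h => ?_
  by_cases hh : h ∈ Icc 0 Λ
  · rw [indicator_of_mem hh, indicator_of_mem (show -h ∈ Icc (-Λ) 0 from
      ⟨by linarith [hh.2], by linarith [hh.1]⟩), abs_neg]
  · rw [indicator_of_notMem hh, indicator_of_notMem fun k : -h ∈ Icc (-Λ) 0 =>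
      hh ⟨by linarith [k.2], by linarith [k.1]⟩]

theorem s_hint : S_hint := by
  intro ε Λ hε hΛ
  rw [← Icc_union_Icc_eq_Icc (show -Λ ≤ 0 by linarith) hΛ.le]
  refine (lintegral_union_le _ _ _).trans (le_of_eq ?_)
  rw [hint_neg (fun x => ENNReal.ofReal (x ^ (ε - 1))) Λ, hint_half ε Λ hε hΛ,
    ← ENNReal.ofReal_add (by positivity) (by positivity)]
  congr 1
  ring

end Vale.Agent.P117
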