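import Vale.Agent.P117.Stm

/-! The weighted Hoelder inequality for three factors. -/

namespace Vale.Agent.P117

open MeasureTheory FourierTransform Set
open scoped ENNReal

theorem hold_pt {p : ℝ} (hp : 3 ≤ p) (w : ℝ≥0∞) (F : Fin 3 → ℝ≥0∞) :
    w ^ (1 - 3 / p) * ∏ j, (w * F j ^ p) ^ (1 / p) = w * ∏ j, F j := by
  have p0 : 0 < p := by linarith
  have i0 : 0 ≤ 1 / p := by positivity
  have q0 : 0 ≤ 1 - 3 / p := sub_nonneg.2 ((div_le_one p0).2 hp)
  have e : ∀ j, (w * F j ^ p) ^ (1 / p) = w ^ (1 / p) * F j := fun j => by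
    rw [ENNReal.mul_rpow_of_nonneg _ _ i0, ← ENNReal.rpow_mul, mul_one_div_cancel p0.ne',
      ENNReal.rpow_one]
  have e2 : w ^ (1 - 3 / p) * (w ^ (1 / p) * w ^ (1 / p) * w ^ (1 / p)) = w := by
    rw [← ENNReal.rpow_add_of_nonneg _ _ i0 i0,
      ← ENNReal.rpow_add_of_nonneg _ _ (add_nonneg i0 i0) i0,
      ← ENNReal.rpow_add_of_nonneg _ _ q0 (add_nonneg (add_nonneg i0 i0) i0),
      show 1 - 3 / p + (1 / p + 1 / p + 1 / p) = 1 by ring, ENNReal.rpow_one]
  simp only [e]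
  rw [Finset.prod_mul_distrib, Fin.prod_univ_three fun _ => w ^ (1 / p), ← mul_assoc, e2]

theorem s_hold : S_hold := by
  intro p w F hp hw hF
  have p0 : 0 < p := by linarith
  have i0 : 0 ≤ 1 / p := by positivity
  have q0 : 0 ≤ 1 - 3 / p := sub_nonneg.2 ((div_le_one p0).2 hp)
  have h := ENNReal.lintegral_mul_prod_norm_pow_le (μ := (volume : Measure ℝ)) Finset.univ
    (g := w) (f := fun j t => w t * F j t ^ p) hw.aemeasurable
    (fun j _ => (hw.mul ((hF j).pow_const p)).aemeasurable) (1 - 3 / p) (p := fun _ => 1 / p)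
    (by rw [Fin.sum_univ_three]; ring) q0 fun _ _ => i0
  simp only [hold_pt hp] at h
  refine (ENNReal.rpow_le_rpow h p0.le).trans (le_of_eq ?_)
  rw [ENNReal.mul_rpow_of_nonneg _ _ p0.le, ← ENNReal.rpow_mul,
    show (1 - 3 / p) * p = p - 3 by field_simp, ← ENNReal.prod_rpow_of_nonneg p0.le]
  refine congrArg _ (Finset.prod_congr rfl fun j _ => ?_)
  rw [← ENNReal.rpow_mul, one_div_mul_cancel p0.ne', ENNReal.rpow_one]

end Vale.Agent.P117
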