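import Vale.Agent.P117.Stm

namespace Vale.Agent.P117

open MeasureTheory FourierTransform Set
open scoped ENNReal

theorem s_kl1 (h_knorm : S_knorm) : S_kl1 := by
  intro t ht
  set s : ℝ := 1 + 4 * t ^ 2 with hs
  have ht2 : t ^ 2 ≤ 1 := by
    rw [← sq_abs]
    nlinarith [abs_nonneg t]
  have hs1 : 1 ≤ s := by nlinarith [sq_nonneg t]
  have hs0 : 0 < s := by linarith
  have hb : 0 < Real.pi / s := div_pos Real.pi_pos hs0
  have hc : 0 ≤ s ^ (-(1 / 4) : ℝ) := Real.rpow_nonneg hs0.le _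
  have e : ∀ z : ℝ, ‖k t z‖ₑ =
      ENNReal.ofReal (s ^ (-(1 / 4) : ℝ) * Real.exp (-(Real.pi / s) * z ^ 2)) := by
    intro z
    rw [← ofReal_norm_eq_enorm, h_knorm t z]
    congr 3
    ring
  simp only [e]
  rw [← ofReal_integral_eq_lintegral_ofReal ((integrable_exp_neg_mul_sq hb).const_mul _)
    (Filter.Eventually.of_forall fun z => mul_nonneg hc (Real.exp_pos _).le),
    integral_const_mul, integral_gaussian]
  have h1 : Real.pi / (Real.pi / s) = s := by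
    have := Real.pi_pos
    field_simp
  rw [h1, Real.sqrt_eq_rpow, ← Real.rpow_add hs0]
  have h2 : s ^ (-(1 / 4) + 1 / 2 : ℝ) ≤ 2 := by
    have h3 : (-(1 / 4) + 1 / 2 : ℝ) = ((4 : ℕ) : ℝ)⁻¹ := by norm_num
    have h4 : s ≤ 2 ^ 4 := by nlinarith
    calc s ^ (-(1 / 4) + 1 / 2 : ℝ) ≤ ((2 : ℝ) ^ 4) ^ (-(1 / 4) + 1 / 2 : ℝ) :=
          Real.rpow_le_rpow hs0.le h4 (by norm_num)
      _ = 2 := by rw [h3, Real.pow_rpow_inv_natCast (by norm_num) (by norm_num)]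
  calc _ ≤ ENNReal.ofReal 2 := ENNReal.ofReal_le_ofReal h2
    _ = 2 := by simp

end Vale.Agent.P117
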