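import Vale.Agent.P117.Stm

namespace Vale.Agent.P117

open MeasureTheory FourierTransform Set
open scoped ENNReal

theorem knorm_sq (t : ℝ) : Complex.normSq (bb t) = 1 + 4 * t ^ 2 := by
  simp [bb, Complex.normSq_apply]
  ring

theorem knorm_bb (t : ℝ) : ‖bb t‖ = (1 + 4 * t ^ 2) ^ (1 / 2 : ℝ) := by
  rw [← Real.sqrt_eq_rpow, ← knorm_sq]
  rfl

theorem knorm_re (t z : ℝ) :
    (-(Real.pi : ℂ) / bb t * (z : ℂ) ^ 2).re = -(Real.pi * z ^ 2 / (1 + 4 * t ^ 2)) := by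
  have h : -(Real.pi : ℂ) / bb t * (z : ℂ) ^ 2 = ((-(Real.pi * z ^ 2) : ℝ) : ℂ) / bb t := by
    push_cast
    ring
  have h1 : (bb t).re = 1 := by simp [bb]
  rw [h, Complex.div_re, knorm_sq, Complex.ofReal_re, Complex.ofReal_im, h1]
  ring

theorem s_knorm  : S_knorm := by
  intro t z
  have h0 : (0 : ℝ) ≤ 1 + 4 * t ^ 2 := by positivity
  have h1 : (1 / 2 : ℂ) = ((1 / 2 : ℝ) : ℂ) := by push_cast; rfl
  rw [k, norm_mul, norm_div, Complex.norm_exp, knorm_re, h1, Complex.norm_cpow_real, knorm_bb,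
    ← Real.rpow_mul h0, Real.rpow_neg h0, norm_one, one_div]
  norm_num

end Vale.Agent.P117
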