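import Vale.Agent.P117.Stm

namespace Vale.Agent.P117

open MeasureTheory FourierTransform Set
open scoped ENNReal

theorem ktail_pt (h_knorm : S_knorm) (t L z : ℝ) (hL : 1 + 4 * t ^ 2 ≤ L) (hz : L ≤ |z|) :
    ‖k t z‖ ≤ Real.pi⁻¹ * (1 + z ^ 2)⁻¹ := by
  have hq : 1 ≤ 1 + 4 * t ^ 2 := by nlinarith [sq_nonneg t]
  have hq0 : 0 < 1 + 4 * t ^ 2 := by linarith
  have hz1 : 1 ≤ |z| := hq.trans (hL.trans hz)
  have hpi := Real.pi_pos
  have hpi2 : 2 ≤ Real.pi := Real.two_le_pi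
  have h1 : (1 + 4 * t ^ 2) ^ (-(1 / 4) : ℝ) ≤ 1 :=
    Real.rpow_le_one_of_one_le_of_nonpos hq (by norm_num)
  have h2 : Real.pi * |z| ≤ Real.pi * z ^ 2 / (1 + 4 * t ^ 2) := by
    rw [le_div_iff₀ hq0, ← sq_abs z, mul_assoc, pow_two |z|]
    exact mul_le_mul_of_nonneg_left
      (mul_le_mul_of_nonneg_left (hL.trans hz) (abs_nonneg z)) hpi.le
  have h3 : Real.pi * (1 + z ^ 2) ≤ Real.exp (Real.pi * |z|) := by
    have a1 := Real.quadratic_le_exp_of_nonneg (x := Real.pi * |z|) (by positivity)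
    have a2 : Real.pi ≤ Real.pi * |z| := le_mul_of_one_le_right hpi.le hz1
    have a3 : (Real.pi * |z|) ^ 2 / 2 = Real.pi / 2 * (Real.pi * z ^ 2) := by
      rw [mul_pow, sq_abs]; ring
    have a4 : Real.pi * z ^ 2 ≤ Real.pi / 2 * (Real.pi * z ^ 2) :=
      le_mul_of_one_le_left (by positivity) (by linarith)
    linarith
  have h4 : Real.exp (-(Real.pi * z ^ 2 / (1 + 4 * t ^ 2))) ≤ Real.pi⁻¹ * (1 + z ^ 2)⁻¹ := by
    rw [← mul_inv, Real.exp_neg]
    exact inv_anti₀ (by positivity) (h3.trans (Real.exp_le_exp.2 h2))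
  rw [h_knorm t z]
  exact (mul_le_of_le_one_left (Real.exp_pos _).le h1).trans h4

theorem s_ktail (h_knorm : S_knorm) : S_ktail := by
  intro t L hL
  have hi : Integrable (fun z : ℝ => Real.pi⁻¹ * (1 + z ^ 2)⁻¹) :=
    integrable_inv_one_add_sq.const_mul _
  calc ∫⁻ z, {z : ℝ | L ≤ |z|}.indicator (fun z => ‖k t z‖ₑ) z
      ≤ ∫⁻ z : ℝ, ENNReal.ofReal (Real.pi⁻¹ * (1 + z ^ 2)⁻¹) := by
        refine lintegral_mono fun z => ?_
        by_cases hz : z ∈ {z : ℝ | L ≤ |z|}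
        · rw [Set.indicator_of_mem hz, ← ofReal_norm_eq_enorm]
          exact ENNReal.ofReal_le_ofReal (ktail_pt h_knorm t L z hL hz)
        · rw [Set.indicator_of_notMem hz]
          exact zero_le
    _ = 1 := by
        rw [← ofReal_integral_eq_lintegral_ofReal hi (ae_of_all _ fun z => by positivity),
          integral_const_mul, integral_univ_inv_one_add_sq, inv_mul_cancel₀ Real.pi_pos.ne',
          ENNReal.ofReal_one]

end Vale.Agent.P117
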