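import Vale.Agent.P117.Stm

/-! The uniform square bound. -/

namespace Vale.Agent.P117

open MeasureTheory FourierTransform Set
open scoped ENNReal

theorem L2_norm (β y : ℝ) : ‖ch β y‖ = 1 := by
  have e : ch β y = Complex.exp (((Real.pi * β * y ^ 2 : ℝ) : ℂ) * Complex.I) := by
    unfold ch
    push_cast
    ring_nf
  rw [e, Complex.norm_exp_ofReal_mul_I]

theorem L2_cont (β : ℝ) : Continuous (ch β) := by
  unfold ch
  fun_prop

theorem s_L2 (h_small : S_small) (h_UW : S_UW) (h_WE : S_WE) (h_bes : S_bes) : S_L2 := by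
  intro t g hg
  by_cases ht : |t| ≤ 1
  · refine (h_small t 2 g ht one_le_two hg.1).trans (le_of_eq ?_)
    rw [ENNReal.rpow_two]
    norm_num
  · have ht1 : 0 < |t| := by linarith [not_le.1 ht]
    have ht0 : t ≠ 0 := abs_pos.1 ht1
    have hi : Integrable fun y => ch (1 / (2 * t)) y * g y :=
      hg.2.1.bdd_mul (c := 1) (L2_cont _).aestronglyMeasurable
        (Filter.Eventually.of_forall fun y => (L2_norm _ y).le)
    have e1 : N 2 (fun y => ch (1 / (2 * t)) y * g y) = N 2 g := by
      unfold N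
      refine lintegral_congr fun y => ?_
      rw [enorm_mul, ← ofReal_norm (ch _ y), L2_norm, ENNReal.ofReal_one, one_mul]
    have e2 : (2 * |t|) ^ (-(2 / 2) : ℝ) * (1 / |1 / (2 * t)|) = 1 := by
      rw [show (-(2 / 2) : ℝ) = -1 by norm_num, Real.rpow_neg_one, abs_div, abs_one, abs_mul,
        abs_two, one_div_one_div, inv_mul_cancel₀ (by positivity)]
    refine (h_UW t 2 g ht0 one_le_two hg).trans ?_
    rw [h_WE _ 2 g (by positivity) hg.2.1, ← mul_assoc, ← ENNReal.ofReal_mul (by positivity), e2,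
      ENNReal.ofReal_one, one_mul]
    refine (h_bes _ hi).trans ?_
    rw [e1]
    exact le_mul_of_one_le_left zero_le (by norm_num)

end Vale.Agent.P117
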