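import Vale.Agent.P117.Stm

/-! The Laplace transform of a power at a complex point. -/

namespace Vale.Agent.P117

open MeasureTheory FourierTransform Set
open scoped ENNReal

theorem lap_meas (s : ℝ) (a : ℂ) : AEStronglyMeasurable
    (fun r : ℝ => (r : ℂ) ^ (s : ℂ) * Complex.exp (-(a * r))) (volume.restrict (Ioi 0)) := by
  refine ContinuousOn.aestronglyMeasurable (fun r hr => ?_) measurableSet_Ioi
  exact ((Complex.continuousAt_ofReal_cpow_const r s (Or.inr (ne_of_gt hr))).mul
    (by fun_prop)).continuousWithinAt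

theorem lap_norm (s : ℝ) (a : ℂ) {r : ℝ} (hr : 0 < r) :
    ‖(r : ℂ) ^ (s : ℂ) * Complex.exp (-(a * r))‖ = r ^ s * Real.exp (-a.re * r ^ (1 : ℝ)) := by
  rw [norm_mul, Complex.norm_cpow_eq_rpow_re_of_pos hr, Complex.norm_exp, Real.rpow_one]
  simp

theorem lap_diff {δ : ℝ} (hδ : 0 < δ) {a : ℂ} (ha : 0 < a.re) : DifferentiableAt ℂ
    (fun z : ℂ => ∫ r in Ioi (0 : ℝ), (r : ℂ) ^ (δ : ℂ) * Complex.exp (-(z * r))) a := by
  have hs : {z : ℂ | a.re / 2 < z.re} ∈ nhds a :=
    (isOpen_lt continuous_const Complex.continuous_re).mem_nhds (by simpa using ha)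
  have e : ∀ (z : ℂ) (r : ℝ), 0 < r →
      (r : ℂ) ^ (δ : ℂ) * (Complex.exp (-(z * r)) * -(1 * (r : ℂ))) =
        -((r : ℂ) ^ ((δ + 1 : ℝ) : ℂ) * Complex.exp (-(z * r))) := fun z r hr => by
    rw [Complex.ofReal_add, Complex.ofReal_one,
      Complex.cpow_add _ _ (Complex.ofReal_ne_zero.2 hr.ne'), Complex.cpow_one]
    ring
  refine (hasDerivAt_integral_of_dominated_loc_of_deriv_le
    (F := fun (z : ℂ) (r : ℝ) => (r : ℂ) ^ (δ : ℂ) * Complex.exp (-(z * r)))
    (F' := fun (z : ℂ) (r : ℝ) => -((r : ℂ) ^ ((δ + 1 : ℝ) : ℂ) * Complex.exp (-(z * r))))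
    (bound := fun r => r ^ (δ + 1) * Real.exp (-(a.re / 2) * r ^ (1 : ℝ))) hs
    (Filter.Eventually.of_forall fun z => lap_meas δ z) ?_ (lap_meas _ a).neg ?_
    (integrableOn_rpow_mul_exp_neg_mul_rpow (by linarith) one_pos (by linarith))
    ?_).2.differentiableAt
  · refine (integrableOn_rpow_mul_exp_neg_mul_rpow (s := δ) (by linarith) one_pos ha).mono'
      (lap_meas δ a) ?_
    filter_upwards [ae_restrict_mem measurableSet_Ioi] with r hr
    exact (lap_norm δ a hr).le
  · filter_upwards [ae_restrict_mem measurableSet_Ioi] with r hr z hz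
    rw [norm_neg, lap_norm _ z hr]
    refine mul_le_mul_of_nonneg_left (Real.exp_le_exp.2 ?_) (Real.rpow_nonneg (le_of_lt hr) _)
    exact mul_le_mul_of_nonneg_right (neg_le_neg (le_of_lt hz)) (Real.rpow_nonneg (le_of_lt hr) _)
  · filter_upwards [ae_restrict_mem measurableSet_Ioi] with r hr z _
    rw [← e z r hr]
    exact (((hasDerivAt_id z).mul_const (r : ℂ)).neg.cexp).const_mul _

theorem s_lap : S_lap := by
  intro δ hδ a ha
  have ho : IsOpen {z : ℂ | 0 < z.re} := isOpen_lt continuous_const Complex.continuous_re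
  have h1 : AnalyticOnNhd ℂ
      (fun z : ℂ => ∫ r in Ioi (0 : ℝ), (r : ℂ) ^ (δ : ℂ) * Complex.exp (-(z * r)))
      {z : ℂ | 0 < z.re} :=
    DifferentiableOn.analyticOnNhd (fun z hz => (lap_diff hδ hz).differentiableWithinAt) ho
  have h2 : AnalyticOnNhd ℂ (fun z : ℂ => (1 / z) ^ ((δ : ℂ) + 1) * Complex.Gamma ((δ : ℂ) + 1))
      {z : ℂ | 0 < z.re} := by
    refine DifferentiableOn.analyticOnNhd (fun z hz => DifferentiableAt.differentiableWithinAt
      (DifferentiableAt.mul_const (DifferentiableAt.cpow_const ?_ (Or.inl ?_)) _)) ho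
    · refine (differentiableAt_const _).div differentiableAt_id fun h => ?_
      have h' : z = 0 := h
      simp [h'] at hz
    · have h0 : z ≠ 0 := fun h => by simp [h] at hz
      rw [one_div, Complex.inv_re]
      exact div_pos hz (Complex.normSq_pos.2 h0)
  refine h1.eqOn_of_preconnected_of_frequently_eq h2 (convex_halfSpace_re_gt 0).isPreconnected
    (z₀ := 1) (by simp) ?_ ha
  have ht : Filter.Tendsto (fun x : ℝ => (x : ℂ)) (nhdsWithin 1 (Ioi 1)) (nhdsWithin 1 {1}ᶜ) := by
    refine tendsto_nhdsWithin_iff.2 ⟨?_, ?_⟩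
    · exact (Complex.continuous_ofReal.tendsto 1).mono_left nhdsWithin_le_nhds
    · filter_upwards [self_mem_nhdsWithin] with x hx
      intro h
      have h' : (x : ℂ) = 1 := h
      exact (ne_of_gt (show (1 : ℝ) < x from hx)) (by exact_mod_cast h')
  refine ht.frequently (Filter.Eventually.frequently ?_)
  filter_upwards [self_mem_nhdsWithin] with x hx
  have := Complex.integral_cpow_mul_exp_neg_mul_Ioi (a := (δ : ℂ) + 1) (r := x)
    (by simpa using by linarith) (lt_trans one_pos hx)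
  rwa [add_sub_cancel_right] at this

end Vale.Agent.P117
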