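import Vale.Agent.P117.Stm

/-! Localization at the scale `L`. -/

namespace Vale.Agent.P117

open MeasureTheory FourierTransform Set
open scoped ENNReal

theorem loc_pt (h_kmeas : S_kmeas) (t L : ℝ) (g : ℝ → ℂ) (hg : Integrable g) (hL : 0 < L) (x : ℝ) :
    ‖U t g x‖ₑ ≤ ‖U t (blk L ⌊x / L⌋ g) x‖ₑ +
      ∫⁻ y, {z : ℝ | L ≤ |z|}.indicator (fun z => ‖k t z‖ₑ) (x - y) * ‖g y‖ₑ := by
  have h1 : (⌊x / L⌋ : ℝ) * L ≤ x := (le_div_iff₀ hL).1 (Int.floor_le _)
  have h2 : x < ((⌊x / L⌋ : ℝ) + 1) * L := (div_lt_iff₀ hL).1 (Int.lt_floor_add_one _)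
  generalize ⌊x / L⌋ = m at h1 h2 ⊢
  have ib : Integrable (blk L m g) := hg.indicator measurableSet_Ico
  have e : U t g x = U t (blk L m g) x + ∫ y, (k t (x - y) * g y - k t (x - y) * blk L m g y) := by
    unfold U
    rw [integral_sub (h_kmeas.2.2.2.2 g t x hg) (h_kmeas.2.2.2.2 _ t x ib)]
    ring
  rw [e]
  refine (enorm_add_le _ _).trans (add_le_add le_rfl
    ((enorm_integral_le_lintegral_enorm _).trans (lintegral_mono fun y => ?_)))
  unfold blk
  by_cases hy : y ∈ Ico (((m : ℝ) - 1) * L) (((m : ℝ) + 2) * L)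
  · simp only [indicator_of_mem hy, sub_self, enorm_zero, zero_le]
  · have h3 : x - y ∈ {z : ℝ | L ≤ |z|} := not_lt.1 fun h : |x - y| < L =>
      hy ⟨by linarith [(abs_lt.1 h).2], by linarith [(abs_lt.1 h).1]⟩
    simp only [indicator_of_notMem hy, indicator_of_mem h3, mul_zero, sub_zero, enorm_mul, le_refl]

theorem s_loc (h_young : S_young) (h_ktail : S_ktail) (h_kmeas : S_kmeas) : S_loc := by
  intro t L g hg hL
  have L0 : 0 < L := by linarith [sq_nonneg t]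
  have mK : Measurable ({z : ℝ | L ≤ |z|}.indicator fun z => ‖k t z‖ₑ) :=
    (h_kmeas.1 t).measurable.enorm.indicator (measurableSet_le measurable_const measurable_id.abs)
  have mB : ∀ m : ℤ, Measurable fun x => ‖U t (blk L m g) x‖ₑ ^ (4 : ℝ) := fun m =>
    ((h_kmeas.2.2.1 _ (hg.1.indicator measurableSet_Ico)).comp
      (measurable_prodMk_left (x := t))).enorm.pow_const _
  have e8 : (2 : ℝ≥0∞) ^ ((4 : ℝ) - 1) = 8 := by
    rw [show (4 : ℝ) - 1 = ((3 : ℕ) : ℝ) by norm_num, ENNReal.rpow_natCast]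
    norm_num
  have pt : ∀ x, ‖U t g x‖ₑ ^ (4 : ℝ) ≤ 8 * ∑' m : ℤ, ‖U t (blk L m g) x‖ₑ ^ (4 : ℝ) +
      8 * (∫⁻ y, {z : ℝ | L ≤ |z|}.indicator (fun z => ‖k t z‖ₑ) (x - y) * ‖g y‖ₑ) ^ (4 : ℝ) := by
    intro x
    refine (ENNReal.rpow_le_rpow (loc_pt h_kmeas t L g hg.2.1 L0 x) (by norm_num)).trans ?_
    refine (ENNReal.rpow_add_le_mul_rpow_add_rpow _ _ (by norm_num)).trans ?_
    rw [e8, mul_add]
    exact add_le_add (mul_le_mul_right
      (ENNReal.le_tsum (f := fun m : ℤ => ‖U t (blk L m g) x‖ₑ ^ (4 : ℝ)) _) _) le_rfl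
  refine (lintegral_mono pt).trans ?_
  rw [lintegral_add_left ((Measurable.tsum mB).const_mul _),
    lintegral_const_mul' _ _ (by norm_num), lintegral_const_mul' _ _ (by norm_num),
    lintegral_tsum fun m => (mB m).aemeasurable]
  refine add_le_add le_rfl (mul_le_mul_right ?_ _)
  refine (h_young _ (fun y => ‖g y‖ₑ) 4 mK hg.1.enorm (by norm_num)).trans ?_
  exact mul_le_of_le_one_left' (ENNReal.rpow_le_one (h_ktail t L hL) (by norm_num))

end Vale.Agent.P117
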