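import Vale.Agent.P117.Stm

namespace Vale.Agent.P117

open MeasureTheory FourierTransform Set
open scoped ENNReal

theorem lprod_pi (n : ℕ) (F : Fin n → ℝ → ℝ≥0∞) (hF : ∀ j, Measurable (F j)) :
    ∫⁻ x : Fin n → ℝ, ∏ j, F j (x j) = ∏ j, ∫⁻ y, F j y := by
  induction n with
  | zero => simp [volume_pi]
  | succ n ih =>
    have hm : Measurable fun x : Fin n → ℝ => ∏ j, F j.succ (x j) :=
      Finset.measurable_prod _ fun j _ => (hF _).comp (measurable_pi_apply j)
    have h := (volume_preserving_piFinSuccAbove (fun _ : Fin (n + 1) => ℝ) 0).lintegral_comp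
      (f := fun p : ℝ × (Fin n → ℝ) => F 0 p.1 * ∏ j, F j.succ (p.2 j))
      (((hF 0).comp measurable_fst).mul (hm.comp measurable_snd))
    rw [Fin.prod_univ_succ, ← ih (fun j => F j.succ) (fun j => hF _),
      ← lintegral_prod_mul (hF 0).aemeasurable hm.aemeasurable, ← Measure.volume_eq_prod, ← h]
    refine lintegral_congr fun x => ?_
    rw [Fin.prod_univ_succ]
    rfl

theorem s_lprod : S_lprod := by
  intro F hF
  have hm : Measurable fun x : Fin 3 → ℝ => ∏ j, F j (x j) :=
    Finset.measurable_prod _ fun j _ => (hF _).comp (measurable_pi_apply j)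
  rw [← lprod_pi 3 F hF, ← (PiLp.volume_preserving_ofLp (Fin 3)).lintegral_comp hm]

end Vale.Agent.P117
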