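import Vale.Agent.P117.Stm

namespace Vale.Agent.P117

open MeasureTheory FourierTransform Set
open scoped ENNReal

theorem m2_one (p u : ℝ) (hp : 2 < p) (hu : 0 ≤ u) :
    ∫⁻ l in Ioi (0 : ℝ), (Iio u).indicator (fun l : ℝ => ENNReal.ofReal (l ^ (p - 3))) l =
      ENNReal.ofReal (u ^ (p - 2) / (p - 2)) := by
  have h3 : -1 < p - 3 := by linarith
  have hset : Iio u ∩ Ioi 0 = Ioo 0 u := by
    ext x
    simp only [mem_inter_iff, mem_Iio, mem_Ioi, mem_Ioo]
    exact and_comm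
  rw [lintegral_indicator measurableSet_Iio, Measure.restrict_restrict measurableSet_Iio, hset]
  have hi : IntegrableOn (fun l : ℝ => l ^ (p - 3)) (Ioo 0 u) :=
    ((intervalIntegral.intervalIntegrable_rpow' (a := 0) (b := u) h3).1).mono_set
      Ioo_subset_Ioc_self
  rw [← ofReal_integral_eq_lintegral_ofReal hi]
  · congr 1
    rw [← integral_Ioc_eq_integral_Ioo, ← intervalIntegral.integral_of_le hu,
      integral_rpow (Or.inl h3), show p - 3 + 1 = p - 2 by ring,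
      Real.zero_rpow (by linarith), sub_zero]
  · filter_upwards [ae_restrict_mem measurableSet_Ioo] with l hl
    exact Real.rpow_nonneg hl.1.le _

theorem m2_pt (p : ℝ) (z : ℂ) (hp : 2 < p) :
    ENNReal.ofReal (‖z‖ ^ (p - 2) / (p - 2)) * ‖z‖ₑ ^ (2 : ℝ) =
      ENNReal.ofReal (1 / (p - 2)) * ‖z‖ₑ ^ p := by
  have h2 : 0 ≤ p - 2 := by linarith
  rw [div_eq_mul_one_div, mul_comm (‖z‖ ^ (p - 2)), ENNReal.ofReal_mul (by positivity),
    ← ENNReal.ofReal_rpow_of_nonneg (norm_nonneg z) h2, ofReal_norm, mul_assoc,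
    ← ENNReal.rpow_add_of_nonneg _ _ h2 (by norm_num), sub_add_cancel]

theorem s_m2 : S_m2 := by
  intro p g hp hg
  have hH : Measurable fun z : ℝ × ℝ => {z : ℝ × ℝ | z.1 < ‖g z.2‖}.indicator
      (fun z : ℝ × ℝ => ENNReal.ofReal (z.1 ^ (p - 3)) * ‖g z.2‖ₑ ^ (2 : ℝ)) z := by
    refine Measurable.indicator ?_ (measurableSet_lt measurable_fst (hg.comp measurable_snd).norm)
    exact ((measurable_fst.pow_const _).ennreal_ofReal).mul
      ((hg.comp measurable_snd).enorm.pow_const _)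
  have h1 : ∀ l : ℝ, ENNReal.ofReal (l ^ (p - 3)) * N 2 ({y | l < ‖g y‖}.indicator g) =
      ∫⁻ y, {z : ℝ × ℝ | z.1 < ‖g z.2‖}.indicator
        (fun z : ℝ × ℝ => ENNReal.ofReal (z.1 ^ (p - 3)) * ‖g z.2‖ₑ ^ (2 : ℝ)) (l, y) := by
    intro l
    unfold N
    rw [← lintegral_const_mul' _ _ ENNReal.ofReal_ne_top]
    refine lintegral_congr fun y => ?_
    by_cases h : l < ‖g y‖
    · rw [indicator_of_mem (show y ∈ {y | l < ‖g y‖} from h),
        indicator_of_mem (show (l, y) ∈ {z : ℝ × ℝ | z.1 < ‖g z.2‖} from h)]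
    · rw [indicator_of_notMem (show y ∉ {y | l < ‖g y‖} from h),
        indicator_of_notMem (show (l, y) ∉ {z : ℝ × ℝ | z.1 < ‖g z.2‖} from h)]
      simp
  have h2 : ∀ y : ℝ, ∫⁻ l in Ioi (0 : ℝ), {z : ℝ × ℝ | z.1 < ‖g z.2‖}.indicator
        (fun z : ℝ × ℝ => ENNReal.ofReal (z.1 ^ (p - 3)) * ‖g z.2‖ₑ ^ (2 : ℝ)) (l, y) =
      ENNReal.ofReal (1 / (p - 2)) * ‖g y‖ₑ ^ p := by
    intro y
    rw [← m2_pt p (g y) hp, ← m2_one p ‖g y‖ hp (norm_nonneg _),
      ← lintegral_mul_const' _ _ (ENNReal.rpow_ne_top_of_nonneg (by norm_num) enorm_ne_top)]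
    refine lintegral_congr fun l => ?_
    by_cases h : l < ‖g y‖
    · rw [indicator_of_mem (show l ∈ Iio ‖g y‖ from h),
        indicator_of_mem (show (l, y) ∈ {z : ℝ × ℝ | z.1 < ‖g z.2‖} from h)]
    · rw [indicator_of_notMem (show l ∉ Iio ‖g y‖ from h),
        indicator_of_notMem (show (l, y) ∉ {z : ℝ × ℝ | z.1 < ‖g z.2‖} from h), zero_mul]
  simp_rw [h1]
  rw [lintegral_lintegral_swap hH.aemeasurable]
  simp_rw [h2]
  unfold N
  rw [lintegral_const_mul' _ _ ENNReal.ofReal_ne_top]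

end Vale.Agent.P117
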