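import Vale.Agent.P117.Stm

/-! The small values in the interpolation argument. -/

namespace Vale.Agent.P117

open MeasureTheory FourierTransform Set
open scoped ENNReal

theorem m3_one {p : ℝ} (h0 : 0 < p) (h4 : p < 4) (a : ℂ) :
    ∫⁻ l in Ioi (0 : ℝ), ENNReal.ofReal (l ^ (p - 5)) *
      ‖if ‖a‖ ≤ l then a else 0‖ₑ ^ (4 : ℝ) ≤ ENNReal.ofReal (1 / (4 - p)) * ‖a‖ₑ ^ p := by
  rcases eq_or_ne a 0 with rfl | ha
  · simp
  have u : 0 < ‖a‖ := norm_pos_iff.2 ha
  have e : ∀ l : ℝ, ENNReal.ofReal (l ^ (p - 5)) * ‖if ‖a‖ ≤ l then a else 0‖ₑ ^ (4 : ℝ) =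
      (Ici ‖a‖).indicator (fun l => ENNReal.ofReal (l ^ (p - 5)) * ‖a‖ₑ ^ (4 : ℝ)) l := fun l => by
    by_cases h : ‖a‖ ≤ l
    · rw [if_pos h, indicator_of_mem (mem_Ici.2 h)]
    · rw [if_neg h, indicator_of_notMem (fun g => h (mem_Ici.1 g))]
      simp
  simp only [e]
  refine (setLIntegral_le_lintegral _ _).trans ?_
  rw [lintegral_indicator measurableSet_Ici, lintegral_mul_const' _ _
    (ENNReal.rpow_ne_top_of_nonneg (by norm_num) enorm_ne_top), ← setLIntegral_congr Ioi_ae_eq_Ici,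
    ← ofReal_integral_eq_lintegral_ofReal (integrableOn_Ioi_rpow_of_lt (by linarith) u)
      ((ae_restrict_mem measurableSet_Ioi).mono fun l hl => Real.rpow_nonneg (u.trans hl).le _),
    integral_Ioi_rpow_of_lt (by linarith) u, ← ofReal_norm, ENNReal.ofReal_rpow_of_pos u,
    ENNReal.ofReal_rpow_of_pos u, ← ENNReal.ofReal_mul' (Real.rpow_nonneg u.le _),
    ← ENNReal.ofReal_mul' (Real.rpow_nonneg u.le _)]
  refine ENNReal.ofReal_le_ofReal (le_of_eq ?_)
  have f : ‖a‖ ^ p = ‖a‖ ^ (p - 5 + 1) * ‖a‖ ^ (4 : ℝ) := by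
    rw [← Real.rpow_add u]
    congr 1
    ring
  have n : 4 - p ≠ 0 := by linarith
  have n' : p - 5 + 1 ≠ 0 := by linarith
  rw [f]
  field_simp
  ring

theorem s_m3 : S_m3 := by
  intro p g h0 h4 hg
  have e : ∀ l : ℝ, ENNReal.ofReal (l ^ (p - 5)) * N 4 ({y | ‖g y‖ ≤ l}.indicator g) =
      ∫⁻ y, ENNReal.ofReal (l ^ (p - 5)) * ‖if ‖g y‖ ≤ l then g y else 0‖ₑ ^ (4 : ℝ) := fun l => by
    rw [N, ← lintegral_const_mul' _ _ ENNReal.ofReal_ne_top]
    refine lintegral_congr fun y => ?_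
    simp only [indicator, mem_setOf_eq]
  simp only [e]
  rw [lintegral_lintegral_swap, N, ← lintegral_const_mul' _ _ ENNReal.ofReal_ne_top]
  · exact lintegral_mono fun y => m3_one h0 h4 (g y)
  · refine Measurable.aemeasurable (Measurable.mul
      (measurable_fst.pow_const _).ennreal_ofReal (Measurable.pow_const (Measurable.enorm ?_) _))
    exact Measurable.ite (measurableSet_le (hg.comp measurable_snd).norm measurable_fst)
      (hg.comp measurable_snd) measurable_const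

end Vale.Agent.P117
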