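import Vale.Agent.P117.Stm

/-! Interpolation between the exponents two and four. -/

namespace Vale.Agent.P117

open MeasureTheory FourierTransform Set
open scoped ENNReal

theorem marc_anti (g : ℝ → ℂ) : Antitone fun l : ℝ => N 2 ({y | l < ‖g y‖}.indicator g) :=
  fun a b hab => lintegral_mono fun y => by
    by_cases h : b < ‖g y‖
    · have h' : a < ‖g y‖ := hab.trans_lt h
      simp [indicator, h, h']
    · simp [indicator, h]

theorem marc_mono (g : ℝ → ℂ) : Monotone fun l : ℝ => N 4 ({y | ‖g y‖ ≤ l}.indicator g) :=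
  fun a b hab => lintegral_mono fun y => by
    by_cases h : ‖g y‖ ≤ a
    · have h' : ‖g y‖ ≤ b := h.trans hab
      simp [indicator, h, h']
    · simp [indicator, h]

theorem marc_pow (c : ℕ) {l : ℝ} (hl : 0 < l) (a b d : ℝ) (h : d = a + b) :
    ENNReal.ofReal (c * l ^ a) * ENNReal.ofReal (l ^ b) = c * ENNReal.ofReal (l ^ d) := by
  rw [← ENNReal.ofReal_mul (by positivity), mul_assoc, ← Real.rpow_add hl, ← h,
    ENNReal.ofReal_mul (Nat.cast_nonneg c), ENNReal.ofReal_natCast]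

theorem s_marc (h_cheb : S_cheb) (h_m2 : S_m2) (h_m3 : S_m3) : S_marc := by
  intro p h2 h4
  have hp : 0 < p := by linarith
  refine ⟨ENNReal.ofReal p * (4 * ENNReal.ofReal (1 / (p - 2)) +
    16 * ENNReal.ofReal (1 / (4 - p))), by finiteness, fun ν F g K hF hg h => ?_⟩
  have e1 : ∀ z, ‖F z‖ₑ ^ p = ENNReal.ofReal (‖F z‖ ^ p) := fun z => by
    rw [← ofReal_norm_eq_enorm, ENNReal.ofReal_rpow_of_nonneg (norm_nonneg _) hp.le]
  simp only [e1]
  rw [lintegral_rpow_eq_lintegral_meas_lt_mul ν (f := fun z => ‖F z‖)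
    (Filter.Eventually.of_forall fun z => norm_nonneg _) hF.norm.aemeasurable hp]
  have m2 : Measurable fun l : ℝ =>
      ENNReal.ofReal (l ^ (p - 3)) * N 2 ({y | l < ‖g y‖}.indicator g) :=
    (measurable_id.pow_const (p - 3)).ennreal_ofReal.mul (marc_anti g).measurable
  have m4 : Measurable fun l : ℝ =>
      ENNReal.ofReal (l ^ (p - 5)) * N 4 ({y | ‖g y‖ ≤ l}.indicator g) :=
    (measurable_id.pow_const (p - 5)).ennreal_ofReal.mul (marc_mono g).measurable
  have key : ∫⁻ l in Ioi (0 : ℝ), ν {z | l < ‖F z‖} * ENNReal.ofReal (l ^ (p - 1)) ≤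
      ∫⁻ l in Ioi (0 : ℝ),
        (K * 4 * (ENNReal.ofReal (l ^ (p - 3)) * N 2 ({y | l < ‖g y‖}.indicator g)) +
          K * 16 * (ENNReal.ofReal (l ^ (p - 5)) * N 4 ({y | ‖g y‖ ≤ l}.indicator g))) := by
    refine setLIntegral_mono' measurableSet_Ioi fun l hl => ?_
    have hl0 : 0 < l := hl
    obtain ⟨F₁, F₂, a1, a2, a3, a4, a5⟩ := h l hl0
    have c1 := h_cheb ν F F₁ F₂ l hl0 a1 a2 a3
    have p1 := marc_pow 4 hl0 (-2) (p - 1) (p - 3) (by ring)
    have p2 := marc_pow 16 hl0 (-4) (p - 1) (p - 5) (by ring)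
    simp only [Nat.cast_ofNat] at p1 p2
    calc ν {z | l < ‖F z‖} * ENNReal.ofReal (l ^ (p - 1))
        ≤ (ENNReal.ofReal (4 * l ^ (-2 : ℝ)) * (K * N 2 ({y | l < ‖g y‖}.indicator g)) +
            ENNReal.ofReal (16 * l ^ (-4 : ℝ)) * (K * N 4 ({y | ‖g y‖ ≤ l}.indicator g))) *
            ENNReal.ofReal (l ^ (p - 1)) := by
          refine mul_le_mul_left (c1.trans ?_) _
          gcongr
      _ = ENNReal.ofReal (4 * l ^ (-2 : ℝ)) * ENNReal.ofReal (l ^ (p - 1)) *
            (K * N 2 ({y | l < ‖g y‖}.indicator g)) +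
          ENNReal.ofReal (16 * l ^ (-4 : ℝ)) * ENNReal.ofReal (l ^ (p - 1)) *
            (K * N 4 ({y | ‖g y‖ ≤ l}.indicator g)) := by ring
      _ = _ := by rw [p1, p2]; ring
  rw [lintegral_add_left (m2.const_mul _), lintegral_const_mul _ m2,
    lintegral_const_mul _ m4] at key
  have b2 := h_m2 p g h2 hg
  have b4 := h_m3 p g hp h4 hg
  calc _ ≤ ENNReal.ofReal p * (K * 4 * (ENNReal.ofReal (1 / (p - 2)) * N p g) +
        K * 16 * (ENNReal.ofReal (1 / (4 - p)) * N p g)) := by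
        refine mul_le_mul_right (key.trans ?_) _
        gcongr
    _ = _ := by ring

end Vale.Agent.P117
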