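import Vale.Agent.P117.Stm

namespace Vale.Agent.P117

open MeasureTheory FourierTransform Set
open scoped ENNReal

theorem mu_cont (δ : ℝ) (hδ : 0 < δ) : Continuous (mu δ) := by
  unfold mu
  refine Complex.continuous_ofReal.comp (Continuous.mul ?_ (by fun_prop))
  exact (continuous_id.max continuous_const).rpow_const fun _ => Or.inr hδ.le

theorem mu_int (δ : ℝ) (hδ : 0 < δ) : Integrable (mu δ) := by
  have h1 := integrableOn_rpow_mul_exp_neg_mul_rpow (s := δ) (p := 1) (b := Real.pi)
    (by linarith) one_pos Real.pi_pos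
  have h2 : IntegrableOn (mu δ) (Ioi 0) := by
    refine IntegrableOn.congr_fun (f := fun x : ℝ =>
      ((x ^ δ * Real.exp (-Real.pi * x ^ (1 : ℝ)) : ℝ) : ℂ)) h1.ofReal (fun x hx => ?_)
      measurableSet_Ioi
    simp only [mu, Real.rpow_one, max_eq_left (le_of_lt (mem_Ioi.1 hx))]
  refine (integrableOn_iff_integrable_of_support_subset fun x hx => ?_).1 h2
  by_contra hx'
  apply hx
  have h0 : x ≤ 0 := not_lt.1 fun h => hx' (mem_Ioi.2 h)
  simp only [mu, max_eq_right h0, Real.zero_rpow hδ.ne', zero_mul, Complex.ofReal_zero]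

theorem s_mu (h_rho : S_rho) : S_mu := by
  intro δ hδ
  have hc : Continuous (𝓕 (mu δ)) :=
    VectorFourier.fourierIntegral_continuous Real.continuous_fourierChar continuous_inner
      (mu_int δ hδ)
  refine ⟨mu_cont δ hδ, mu_int δ hδ, hc, ?_⟩
  obtain ⟨C, hC⟩ := h_rho δ hδ
  have h1 : Integrable (fun t : ℝ => (1 + ‖t‖) ^ (-(1 + δ))) :=
    integrable_one_add_norm (by simp [hδ])
  exact (h1.const_mul C).mono' hc.aestronglyMeasurable (Filter.Eventually.of_forall hC)

end Vale.Agent.P117
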