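import Vale.Agent.P117.Stm

/-! The multiplier as a superposition of complex Gaussians. -/

namespace Vale.Agent.P117

open MeasureTheory FourierTransform Set
open scoped ENNReal

theorem s_mul (h_mu : S_mu) : S_mul := by
  intro δ hδ s
  obtain ⟨h1, h2, -, h4⟩ := h_mu δ hδ
  have h := h2.fourierInv_fourier_eq h4 (v := 1 - s) h1.continuousAt
  rw [Real.fourierInv_eq'] at h
  have e : ∀ t : ℝ, 𝓕 (mu δ) t * Complex.exp (2 * Real.pi * Complex.I * t) *
      Complex.exp (-Real.pi * bb t * s) = Complex.exp (-Real.pi * s) *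
        (Complex.exp (((2 * Real.pi * inner ℝ t (1 - s) : ℝ) : ℂ) * Complex.I) • 𝓕 (mu δ) t) := by
    intro t
    have e1 : inner ℝ t (1 - s) = (1 - s) * t := by simp
    rw [e1, smul_eq_mul, mul_assoc, ← Complex.exp_add, ← mul_assoc, ← Complex.exp_add, mul_comm]
    congr 2
    unfold bb
    push_cast
    ring
  simp only [e]
  rw [integral_const_mul, h]
  unfold mu
  have e2 : Complex.exp Real.pi * (Complex.exp (-Real.pi * s) *
      ((Real.exp (-Real.pi * (1 - s)) : ℝ) : ℂ)) = 1 := by
    rw [Complex.ofReal_exp, ← Complex.exp_add, ← Complex.exp_add, ← Complex.exp_zero]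
    congr 1
    push_cast
    ring
  rw [Complex.ofReal_mul]
  linear_combination (-(((max (1 - s) 0) ^ δ : ℝ) : ℂ)) * e2

end Vale.Agent.P117
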