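import Vale.Agent.P117.Stm

/-! The estimate for one block of times and functions with bounded support. -/

namespace Vale.Agent.P117

open MeasureTheory FourierTransform Set
open scoped ENNReal

theorem near_meas (T : ℝ) : MeasurableSet (D T) := by
  have h1 : MeasurableSet {t : ℝ | T ≤ |t|} :=
    measurableSet_le measurable_const continuous_abs.measurable
  have h2 : MeasurableSet {t : ℝ | |t| ≤ 2 * T} :=
    measurableSet_le continuous_abs.measurable measurable_const
  exact h1.inter h2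

theorem near_coef (t T : ℝ) (hT : 0 < T) (ht : T ≤ |t|) :
    (2 * |t|) ^ (-((4 : ℝ) / 2)) * (1 / |1 / (2 * t)|) ≤ 1 / (2 * T) := by
  have hpos : 0 < |t| := lt_of_lt_of_le hT ht
  have h1 : (2 * |t|) ^ (-((4 : ℝ) / 2)) = 1 / (2 * |t|) ^ 2 := by
    have : (-((4 : ℝ) / 2)) = -((2 : ℕ) : ℝ) := by norm_num
    rw [this, Real.rpow_neg (by positivity), Real.rpow_natCast, one_div]
  have h2 : |1 / (2 * t)| = 1 / (2 * |t|) := by
    rw [abs_div, abs_one, abs_mul, abs_two]
  rw [h1, h2]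
  have h3 : 1 / (2 * |t|) ^ 2 * (1 / (1 / (2 * |t|))) = 1 / (2 * |t|) := by
    field_simp
  rw [h3]
  exact one_div_le_one_div_of_le (by positivity) (by linarith)

theorem s_near (h_UW : S_UW) (h_WE : S_WE) (h_Ameas : S_Ameas) (h_core : S_core)
    (h_cov : S_cov) : S_near := by
  intro ε a Λ T g hε hε1 hΛ hT hg hs
  have hF : Measurable (fun β => N 4 (𝓕 (fun y => ch β y * g y))) := (h_Ameas g hg.1).2
  have hB : 0 < 1 / (2 * T) := by positivity
  have hpt : ∀ t ∈ D T, N 4 (U t g) ≤ ENNReal.ofReal (1 / (2 * T)) *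
      N 4 (𝓕 (fun y => ch (1 / (2 * t)) y * g y)) := by
    intro t ht
    have ht1 : T ≤ |t| := ht.1
    have ht0 : t ≠ 0 := by
      intro h0
      rw [h0, abs_zero] at ht1
      linarith
    have hβ : (1 / (2 * t)) ≠ 0 := by positivity
    have e1 := h_UW t 4 g ht0 (by norm_num) hg
    rw [h_WE (1 / (2 * t)) 4 g hβ hg.2.1, ← mul_assoc,
      ← ENNReal.ofReal_mul (by positivity)] at e1
    refine e1.trans ?_
    exact mul_le_mul_left (ENNReal.ofReal_le_ofReal (near_coef t T hT ht1)) _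
  have hc := h_cov _ T hF hT
  have hk := h_core ε a Λ (1 / (2 * T)) g hε hε1 hΛ hB hg hs
  have e2 : 2 * (1 / (2 * T)) * Λ ^ 2 = Λ ^ 2 / T := by field_simp
  rw [e2] at hk
  calc ∫⁻ t in D T, N 4 (U t g)
      ≤ ∫⁻ t in D T, ENNReal.ofReal (1 / (2 * T)) *
          N 4 (𝓕 (fun y => ch (1 / (2 * t)) y * g y)) :=
        setLIntegral_mono' (near_meas T) hpt
    _ = ENNReal.ofReal (1 / (2 * T)) *
          ∫⁻ t in D T, N 4 (𝓕 (fun y => ch (1 / (2 * t)) y * g y)) :=
        lintegral_const_mul' _ _ ENNReal.ofReal_ne_top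
    _ ≤ ENNReal.ofReal (1 / (2 * T)) * (ENNReal.ofReal (8 * T ^ 2) *
          (ENNReal.ofReal (2 / ε * (Λ ^ 2 / T) ^ ε) * N 4 g)) :=
        mul_le_mul_right (hc.trans (mul_le_mul_right hk _)) _
    _ = ENNReal.ofReal (4 * T * (2 / ε * (Λ ^ 2 / T) ^ ε)) * N 4 g := by
        have e3 : 4 * T = 1 / (2 * T) * (8 * T ^ 2) := by field_simp; ring
        rw [ENNReal.ofReal_mul (by positivity : (0 : ℝ) ≤ 4 * T), e3,
          ENNReal.ofReal_mul hB.le]
        ring

end Vale.Agent.P117
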