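import Vale.Agent.P117.Stm

namespace Vale.Agent.P117

open MeasureTheory FourierTransform Set
open scoped ENNReal

theorem s_one : S_one := by
  intro g hg t x
  have hb : 0 < (bb t).re := by simp [bb]
  have hn : (-(Real.pi : ℂ) * bb t).re < 0 := by
    simpa only [neg_mul, Complex.neg_re, Complex.re_ofReal_mul, neg_lt_zero] using
      mul_pos Real.pi_pos hb
  have hG : Integrable fun ξ : ℝ =>
      Complex.exp (-Real.pi * bb t * (ξ : ℂ) ^ 2 + 2 * Real.pi * (Complex.I * x) * ξ) := by
    simpa only [add_zero] using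
      integrable_cexp_quadratic' hn (2 * Real.pi * (Complex.I * x)) 0
  have h := VectorFourier.integral_fourierIntegral_smul_eq_flip (L := innerₗ ℝ)
    Real.continuous_fourierChar continuous_inner hg hG
  rw [flip_innerₗ] at h
  have h' : ∫ ξ : ℝ, 𝓕 g ξ • Complex.exp (-Real.pi * bb t * (ξ : ℂ) ^ 2 +
      2 * Real.pi * (Complex.I * x) * ξ) = ∫ y, g y • 𝓕 (fun ξ : ℝ => Complex.exp
        (-Real.pi * bb t * (ξ : ℂ) ^ 2 + 2 * Real.pi * (Complex.I * x) * ξ)) y := h
  rw [fourier_gaussian_pi' hb] at h'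
  refine (integral_congr_ae (.of_forall fun ξ => ?_)).trans
    (h'.trans (integral_congr_ae (.of_forall fun y => ?_)))
  · beta_reduce
    rw [smul_eq_mul, Complex.exp_add, show 2 * (Real.pi : ℂ) * (Complex.I * x) * ξ =
      2 * Real.pi * Complex.I * (x * ξ) by ring]
    ring
  · beta_reduce
    rw [smul_eq_mul, k, mul_comm, ← mul_assoc Complex.I, Complex.I_mul_I,
      show ((y : ℂ) + -1 * x) ^ 2 = ((x - y : ℝ) : ℂ) ^ 2 by push_cast; ring]

end Vale.Agent.P117
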