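import Vale.Agent.P117.Stm

/-! Bounded overlap of the blocks. -/

namespace Vale.Agent.P117

open MeasureTheory FourierTransform Set
open scoped ENNReal

theorem ovl_pt {L : ℝ} (hL : 0 < L) (g : ℝ → ℂ) (y : ℝ) :
    ∑' m : ℤ, ‖blk L m g y‖ₑ ^ (4 : ℝ) ≤ 3 * ‖g y‖ₑ ^ (4 : ℝ) := by
  rw [tsum_eq_sum (s := Finset.Icc (⌊y / L⌋ - 1) (⌊y / L⌋ + 1))]
  · refine (Finset.sum_le_card_nsmul _ _ (‖g y‖ₑ ^ (4 : ℝ)) fun m _ => ?_).trans (le_of_eq ?_)
    · exact ENNReal.rpow_le_rpow (enorm_indicator_le_enorm_self g y) (by norm_num)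
    · rw [Int.card_Icc, show (⌊y / L⌋ + 1 + 1 - (⌊y / L⌋ - 1)).toNat = 3 by omega, nsmul_eq_mul]
      rfl
  · intro m hm
    rw [blk, indicator_of_notMem, enorm_zero, ENNReal.zero_rpow_of_pos (by norm_num)]
    rintro ⟨h1, h2⟩
    rw [← le_div_iff₀ hL] at h1
    rw [← div_lt_iff₀ hL] at h2
    have h3 : m - 1 ≤ ⌊y / L⌋ := Int.le_floor.2 (by exact_mod_cast h1)
    have h4 : ⌊y / L⌋ < m + 2 := Int.floor_lt.2 (by exact_mod_cast h2)
    exact hm (Finset.mem_Icc.2 ⟨by omega, by omega⟩)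

theorem s_ovl : S_ovl := by
  intro L g hg hL
  have hb : ∀ m, Measurable (blk L m g) := fun m => hg.indicator measurableSet_Ico
  unfold N
  rw [← lintegral_tsum fun m => ((hb m).enorm.pow_const (4 : ℝ)).aemeasurable,
    ← lintegral_const_mul _ (hg.enorm.pow_const (4 : ℝ))]
  exact lintegral_mono fun y => ovl_pt hL g y

end Vale.Agent.P117
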