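import Vale.Agent.P117.Stm

/-! The pointwise bound. -/

namespace Vale.Agent.P117

open MeasureTheory FourierTransform Set
open scoped ENNReal

theorem pt_exp (t : ℝ) : ‖Complex.exp (2 * Real.pi * Complex.I * t)‖ₑ = 1 := by
  have e : (2 * Real.pi * Complex.I * t : ℂ) = ((2 * Real.pi * t : ℝ) : ℂ) * Complex.I := by
    push_cast
    ring
  rw [e, ← ofReal_norm, Complex.norm_exp_ofReal_mul_I, ENNReal.ofReal_one]

theorem s_pt (h_rho : S_rho) (h_rep : S_rep) : S_pt := by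
  intro δ hδ
  obtain ⟨C, hC⟩ := h_rho δ hδ
  refine ⟨‖Complex.exp Real.pi‖ₑ * ENNReal.ofReal C,
    ENNReal.mul_ne_top enorm_ne_top ENNReal.ofReal_ne_top, fun g x => ?_⟩
  rw [h_rep δ hδ g x, enorm_mul, mul_assoc _ (ENNReal.ofReal C)]
  refine mul_le_mul_right ?_ _
  refine (enorm_integral_le_lintegral_enorm _).trans ?_
  rw [← lintegral_const_mul' _ _ ENNReal.ofReal_ne_top]
  refine lintegral_mono fun t => ?_
  have h1 : ‖𝓕 (mu δ) t‖ₑ ≤ ENNReal.ofReal C * wt δ t := by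
    rw [← ofReal_norm, wt, ← ENNReal.ofReal_mul' (by positivity)]
    exact ENNReal.ofReal_le_ofReal (hC t)
  simp only [Fin.prod_univ_three, enorm_mul, pt_exp, mul_one]
  rw [← mul_assoc (ENNReal.ofReal C)]
  exact mul_le_mul_left h1 _

end Vale.Agent.P117
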