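import Vale.Agent.P117.Stm

/-! The representation of the Bochner-Riesz mean of a tensor product. -/

namespace Vale.Agent.P117

open MeasureTheory FourierTransform Set
open scoped ENNReal

theorem rep_cont (g : SchwartzMap ℝ ℂ) : Continuous (𝓕 (g : ℝ → ℂ)) := by
  rw [← SchwartzMap.fourier_coe]
  exact (𝓕 g).continuous

theorem rep_int (g : SchwartzMap ℝ ℂ) : Integrable (𝓕 (g : ℝ → ℂ)) := by
  rw [← SchwartzMap.fourier_coe]
  exact (𝓕 g).integrable

theorem rep_n1 (t y : ℝ) : ‖Complex.exp (-Real.pi * bb t * (y : ℂ) ^ 2)‖ ≤ 1 := by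
  rw [Complex.norm_exp, Real.exp_le_one_iff]
  have : (-Real.pi * bb t * (y : ℂ) ^ 2).re = -(Real.pi * y ^ 2) := by
    simp [bb, pow_two]
  rw [this]
  have := Real.pi_pos
  exact neg_nonpos.2 (by positivity)

theorem rep_n2 (a b : ℝ) :
    ‖Complex.exp (2 * Real.pi * Complex.I * ((a : ℂ) * b))‖ = 1 := by
  rw [Complex.norm_exp]
  simp

theorem rep_n3 (a : ℝ) : ‖Complex.exp (2 * Real.pi * Complex.I * (a : ℂ))‖ = 1 := by
  rw [Complex.norm_exp]
  simp

theorem rep_pt (G : Fin 3 → ℝ → ℂ) (x ξ : E3) (t : ℝ) :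
    Complex.exp (-Real.pi * bb t * ((‖ξ‖ ^ 2 : ℝ) : ℂ)) * ((∏ j, G j (ξ j)) *
      Complex.exp (2 * Real.pi * Complex.I * (inner ℝ x ξ : ℝ))) =
    ∏ j, (Complex.exp (-Real.pi * bb t * ((ξ j : ℝ) : ℂ) ^ 2) * G j (ξ j) *
      Complex.exp (2 * Real.pi * Complex.I * (((x j : ℝ) : ℂ) * (ξ j : ℝ)))) := by
  have e : (inner ℝ x ξ : ℝ) = ∑ j, x j * ξ j := by
    rw [PiLp.inner_apply]
    exact Finset.sum_congr rfl fun j _ => by simp [mul_comm]
  rw [Finset.prod_mul_distrib, Finset.prod_mul_distrib, ← Complex.exp_sum, ← Complex.exp_sum,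
    ← Finset.mul_sum, ← Finset.mul_sum, EuclideanSpace.real_norm_sq_eq, e]
  push_cast
  ring

theorem s_rep (h_mu : S_mu) (h_mul : S_mul) (h_prod : S_prod) (h_iprod : S_iprod)
    (h_ften : S_ften) (h_one : S_one) : S_rep := by
  intro δ hδ g x
  obtain ⟨-, -, cρ, iρ⟩ := h_mu δ hδ
  let Φ : E3 → ℝ → ℂ := fun ξ t => 𝓕 (mu δ) t * Complex.exp (2 * Real.pi * Complex.I * t) *
    ∏ j, (Complex.exp (-Real.pi * bb t * ((ξ j : ℝ) : ℂ) ^ 2) * 𝓕 (g j : ℝ → ℂ) (ξ j) *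
      Complex.exp (2 * Real.pi * Complex.I * (((x j : ℝ) : ℂ) * (ξ j : ℝ))))
  have h1 : ∀ ξ : E3, (((max (1 - ‖ξ‖ ^ 2) 0) ^ δ : ℝ) : ℂ) * 𝓕 (tens g) ξ *
      Complex.exp (2 * Real.pi * Complex.I * (inner ℝ x ξ : ℝ)) =
      Complex.exp Real.pi * ∫ t : ℝ, Φ ξ t := by
    intro ξ
    rw [h_mul δ hδ, h_ften, mul_assoc, mul_assoc, ← integral_mul_const]
    congr 2
    funext t
    rw [mul_assoc, rep_pt (fun j => 𝓕 (g j : ℝ → ℂ))]
  have hc : Continuous (Function.uncurry Φ) := by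
    have := fun j => rep_cont (g j)
    show Continuous fun z : E3 × ℝ => Φ z.1 z.2
    unfold Φ bb
    fun_prop
  have hi : Integrable (Function.uncurry Φ) ((volume : Measure E3).prod volume) := by
    refine Integrable.mono' ((h_iprod (fun j y => ‖𝓕 (g j : ℝ → ℂ) y‖)
      fun j => (rep_int (g j)).norm).mul_prod iρ.norm) hc.aestronglyMeasurable
      (Filter.Eventually.of_forall fun z => ?_)
    show ‖Φ z.1 z.2‖ ≤ _
    unfold Φ
    rw [norm_mul, norm_mul, rep_n3, mul_one, mul_comm, norm_prod]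
    refine mul_le_mul_of_nonneg_right (Finset.prod_le_prod (fun j _ => norm_nonneg _)
      fun j _ => ?_) (norm_nonneg _)
    rw [norm_mul, norm_mul, rep_n2, mul_one]
    exact mul_le_of_le_one_left (norm_nonneg _) (rep_n1 _ _)
  unfold BR
  simp_rw [h1]
  rw [integral_const_mul, integral_integral_swap hi]
  congr 2
  funext t
  unfold Φ
  rw [integral_const_mul, h_prod fun j y => Complex.exp (-Real.pi * bb t * (y : ℂ) ^ 2) *
    𝓕 (g j : ℝ → ℂ) y * Complex.exp (2 * Real.pi * Complex.I * (((x j : ℝ) : ℂ) * y))]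
  congr 1
  exact Finset.prod_congr rfl fun j _ => h_one _ (g j).integrable t (x j)

end Vale.Agent.P117
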