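import Vale.Agent.P117.Stm

namespace Vale.Agent.P117

open MeasureTheory FourierTransform Set
open scoped ENNReal

theorem s_small (h_young : S_young) (h_kl1 : S_kl1) (h_kmeas : S_kmeas) : S_small := by
  intro t p g ht hp hg
  have hp0 : 0 ≤ p := zero_le_one.trans hp
  have h1 : ∀ x, ‖U t g x‖ₑ ≤ ∫⁻ y, ‖k t (x - y)‖ₑ * ‖g y‖ₑ := fun x =>
    (enorm_integral_le_lintegral_enorm _).trans (le_of_eq (lintegral_congr fun y => enorm_mul _ _))
  have h2 := h_young (fun z => ‖k t z‖ₑ) (fun y => ‖g y‖ₑ) p (h_kmeas.1 t).measurable.enorm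
    hg.enorm hp
  exact ((lintegral_mono fun x => ENNReal.rpow_le_rpow (h1 x) hp0).trans h2).trans
    (mul_le_mul_left (ENNReal.rpow_le_rpow (h_kl1 t ht) hp0) _)

end Vale.Agent.P117
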