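import Vale.Agent.P117.Stm

/-! The smoothed propagator is dominated by the chirp transform. -/

namespace Vale.Agent.P117

open MeasureTheory FourierTransform Set
open scoped ENNReal

noncomputable def UW_g (z : ℝ) : ℂ := Complex.exp (-Real.pi * (z : ℂ) ^ 2)

theorem UW_int : Integrable UW_g :=
  integrable_cexp_neg_mul_sq (b := (Real.pi : ℂ)) (by simpa using Real.pi_pos)

theorem UW_cont : Continuous UW_g := by
  unfold UW_g
  fun_prop

theorem UW_chc (β : ℝ) : Continuous (ch β) := by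
  unfold ch
  fun_prop

theorem UW_chn (β y : ℝ) : ‖ch β y‖ = 1 := by
  have : ch β y = Complex.exp (((Real.pi * β * y ^ 2 : ℝ) : ℂ) * Complex.I) := by
    unfold ch
    congr 1
    push_cast
    ring
  rw [this, Complex.norm_exp_ofReal_mul_I]

theorem UW_norm (z : ℝ) : ‖UW_g z‖ = Real.exp (-Real.pi * z ^ 2) := by
  have : UW_g z = ((Real.exp (-Real.pi * z ^ 2) : ℝ) : ℂ) := by
    unfold UW_g
    push_cast
    rfl
  rw [this, Complex.norm_real, Real.norm_of_nonneg (Real.exp_pos _).le]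

theorem UW_one : ∫⁻ z, ‖UW_g z‖ₑ = 1 := by
  rw [← ofReal_integral_norm_eq_lintegral_enorm UW_int]
  simp only [UW_norm]
  rw [integral_gaussian, div_self Real.pi_ne_zero, Real.sqrt_one, ENNReal.ofReal_one]

theorem UW_sub (β x y : ℝ) :
    ∫ w : ℝ, Complex.exp (-Real.pi * (((x - y : ℝ) : ℂ) - w) ^ 2) * ch β w =
      ∫ w : ℝ, UW_g (x - w) * ch β (w - y) := by
  rw [← integral_sub_right_eq_self _ y]
  refine integral_congr_ae (Filter.Eventually.of_forall fun w => ?_)
  have : ((x - y : ℝ) : ℂ) - ((w - y : ℝ) : ℂ) = ((x - w : ℝ) : ℂ) := by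
    push_cast
    ring
  show Complex.exp (-Real.pi * (((x - y : ℝ) : ℂ) - ((w - y : ℝ) : ℂ)) ^ 2) * ch β (w - y) = _
  rw [this]
  rfl

theorem UW_swap (β x : ℝ) {g : ℝ → ℂ} (hm : Measurable g) (hi : Integrable g) :
    ∫ y, (∫ w : ℝ, UW_g (x - w) * ch β (w - y)) * g y = ∫ w, UW_g (x - w) * W β g w := by
  have h1 : Integrable (fun z : ℝ × ℝ => g z.1 * UW_g (x - z.2)) (volume.prod volume) :=
    hi.mul_prod (UW_int.comp_sub_left x)
  have h2 : Measurable fun z : ℝ × ℝ => UW_g (x - z.2) * ch β (z.2 - z.1) * g z.1 :=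
    ((UW_cont.measurable.comp (measurable_const.sub measurable_snd)).mul
      ((UW_chc β).measurable.comp (measurable_snd.sub measurable_fst))).mul (hm.comp measurable_fst)
  have h3 : Integrable (Function.uncurry fun y w : ℝ => UW_g (x - w) * ch β (w - y) * g y)
      (volume.prod volume) := by
    refine h1.mono h2.aestronglyMeasurable (Filter.Eventually.of_forall fun z => le_of_eq ?_)
    show ‖UW_g (x - z.2) * ch β (z.2 - z.1) * g z.1‖ = _
    rw [norm_mul, norm_mul, norm_mul, UW_chn, mul_one, mul_comm]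
  simp only [← integral_mul_const]
  rw [integral_integral_swap h3]
  refine integral_congr_ae (Filter.Eventually.of_forall fun w => ?_)
  show ∫ y, UW_g (x - w) * ch β (w - y) * g y = UW_g (x - w) * W β g w
  unfold W
  rw [← integral_const_mul]
  simp only [mul_assoc]

theorem UW_meas (β : ℝ) {g : ℝ → ℂ} (hm : Measurable g) : Measurable (W β g) := by
  have h2 : Measurable fun z : ℝ × ℝ => ch β (z.1 - z.2) * g z.2 :=
    ((UW_chc β).measurable.comp (measurable_fst.sub measurable_snd)).mul (hm.comp measurable_snd)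
  exact (h2.stronglyMeasurable.integral_prod_right' (ν := volume)).measurable

theorem UW_kap {κ : ℂ} {t p : ℝ} (ht : t ≠ 0) (hp : 0 ≤ p) (h : ‖κ‖ ^ 2 = 1 / (2 * |t|)) :
    ‖κ‖ₑ ^ p = ENNReal.ofReal ((2 * |t|) ^ (-(p / 2))) := by
  have h0 : 0 < 2 * |t| := by positivity
  rw [← ofReal_norm_eq_enorm, ENNReal.ofReal_rpow_of_nonneg (norm_nonneg _) hp]
  congr 1
  rw [Real.rpow_neg h0.le, ← Real.inv_rpow h0.le, ← one_div, ← h, ← Real.rpow_natCast,
    ← Real.rpow_mul (norm_nonneg _)]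
  congr 1
  push_cast
  ring

theorem s_UW (h_young : S_young) (h_fac : S_fac) : S_UW := by
  intro t p g ht hp hg
  obtain ⟨hm, hi, -⟩ := hg
  obtain ⟨κ, hκ, hk⟩ := h_fac t ht
  have hp0 : 0 ≤ p := zero_le_one.trans hp
  generalize 1 / (2 * t) = β at hk ⊢
  have e : ∀ x, U t g x = κ * ∫ w, UW_g (x - w) * W β g w := fun x => by
    rw [← UW_swap β x hm hi, ← integral_const_mul]
    unfold U
    refine integral_congr_ae (Filter.Eventually.of_forall fun y => ?_)
    show k t (x - y) * g y = κ * ((∫ w : ℝ, UW_g (x - w) * ch β (w - y)) * g y)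
    rw [hk, UW_sub, mul_assoc]
  have b : ∀ x, ‖U t g x‖ₑ ^ p ≤
      ‖κ‖ₑ ^ p * (∫⁻ w, ‖UW_g (x - w)‖ₑ * ‖W β g w‖ₑ) ^ p := fun x => by
    rw [← ENNReal.mul_rpow_of_nonneg _ _ hp0, e, enorm_mul]
    refine ENNReal.rpow_le_rpow (mul_le_mul_right ?_ _) hp0
    refine (enorm_integral_le_lintegral_enorm _).trans (le_of_eq ?_)
    simp only [enorm_mul]
  have y := h_young (fun z => ‖UW_g z‖ₑ) (fun w => ‖W β g w‖ₑ) p UW_cont.measurable.enorm
    (UW_meas β hm).enorm hp
  rw [UW_one, ENNReal.one_rpow, one_mul] at y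
  unfold N
  refine (lintegral_mono b).trans ?_
  rw [UW_kap ht hp0 hκ, lintegral_const_mul' _ _ ENNReal.ofReal_ne_top]
  exact mul_le_mul_right y _

end Vale.Agent.P117
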