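import Vale.Agent.P117.Stm

namespace Vale.Agent.P117

open MeasureTheory FourierTransform Set
open scoped ENNReal

theorem s_w1 : S_w1 := by
  intro η hη
  refine ⟨ENNReal.measurable_ofReal.comp (by fun_prop), ?_⟩
  have h := integrable_one_add_norm (E := ℝ) (μ := volume) (r := 1 + η) (by simpa using hη)
  exact h.lintegral_lt_top.ne

end Vale.Agent.P117
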