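import Vale.Agent.P117.Stm

/-! Summation of the dyadic pieces. -/

namespace Vale.Agent.P117

open MeasureTheory FourierTransform Set
open scoped ENNReal

theorem w4_meas (T : ℝ) : MeasurableSet (D T) :=
  (measurableSet_le measurable_const continuous_abs.measurable).inter
    (measurableSet_le continuous_abs.measurable measurable_const)

theorem w4_cover : (univ : Set ℝ) ⊆ Icc (-1) 1 ∪ ⋃ j : ℕ, D (2 ^ j) := by
  intro t _
  by_cases h : |t| ≤ 1
  · exact Or.inl (abs_le.1 h)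
  · obtain ⟨j, h1, h2⟩ := exists_nat_pow_near (le_of_lt (not_le.1 h)) (one_lt_two (α := ℝ))
    refine Or.inr (mem_iUnion.2 ⟨j, h1, ?_⟩)
    rw [pow_succ] at h2
    linarith

theorem w4_piece (η ε C : ℝ) (hη : 0 < η) (hε : 3 * ε ≤ η / 2) (hC : 0 ≤ C) (j : ℕ)
    (F : ℝ → ℝ≥0∞) (M : ℝ≥0∞)
    (h : ∫⁻ t in D (2 ^ j), F t ≤ ENNReal.ofReal (C * ((2 : ℝ) ^ j) ^ (1 + 3 * ε)) * M) :
    ∫⁻ t in D (2 ^ j), wt η t * F t ≤
      ENNReal.ofReal C * M * ENNReal.ofReal ((2 : ℝ) ^ (-(η / 2))) ^ j := by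
  have h0 : (0 : ℝ) < 2 ^ j := by positivity
  have h1 : (1 : ℝ) ≤ 2 ^ j := one_le_pow₀ one_le_two
  calc ∫⁻ t in D (2 ^ j), wt η t * F t
      ≤ ∫⁻ t in D (2 ^ j), ENNReal.ofReal (((2 : ℝ) ^ j) ^ (-(1 + η))) * F t := by
        refine setLIntegral_mono' (w4_meas _) fun t ht => mul_le_mul_left ?_ _
        exact ENNReal.ofReal_le_ofReal
          (Real.rpow_le_rpow_of_nonpos h0 (by linarith [ht.1]) (by linarith))
    _ ≤ ENNReal.ofReal (((2 : ℝ) ^ j) ^ (-(1 + η))) *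
        (ENNReal.ofReal (C * ((2 : ℝ) ^ j) ^ (1 + 3 * ε)) * M) := by
        rw [lintegral_const_mul' _ _ ENNReal.ofReal_ne_top]
        exact mul_le_mul_right h _
    _ ≤ _ := by
        rw [← mul_assoc, mul_right_comm (ENNReal.ofReal C), ← ENNReal.ofReal_mul (by positivity),
          ← ENNReal.ofReal_pow (by positivity), ← ENNReal.ofReal_mul hC,
          Real.rpow_pow_comm zero_le_two, mul_left_comm, ← Real.rpow_add h0]
        refine mul_le_mul_left (ENNReal.ofReal_le_ofReal (mul_le_mul_of_nonneg_left ?_ hC)) _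
        exact Real.rpow_le_rpow_of_exponent_le h1 (by linarith)

theorem s_w4 (h_small : S_small) (h_blk : S_blk) (_h_kmeas : S_kmeas) : S_w4 := by
  intro η hη
  obtain ⟨C, hC, hb⟩ := h_blk (min (η / 6) (1 / 2)) (by positivity)
    ((min_le_right _ _).trans_lt (by norm_num))
  have hε : 3 * min (η / 6) (1 / 2) ≤ η / 2 := by linarith [min_le_left (η / 6) (1 / 2)]
  have hr : ENNReal.ofReal ((2 : ℝ) ^ (-(η / 2))) < 1 :=
    ENNReal.ofReal_lt_one.2 (Real.rpow_lt_one_of_one_lt_of_neg one_lt_two (by linarith))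
  refine ⟨2 ^ (4 : ℝ) * 2 + ENNReal.ofReal C * (1 - ENNReal.ofReal ((2 : ℝ) ^ (-(η / 2))))⁻¹,
    ENNReal.add_ne_top.2 ⟨ENNReal.mul_ne_top
      (ENNReal.rpow_ne_top_of_nonneg (by norm_num) ENNReal.ofNat_ne_top) ENNReal.ofNat_ne_top,
      ENNReal.mul_ne_top ENNReal.ofReal_ne_top (ENNReal.inv_ne_top.2 (tsub_pos_of_lt hr).ne')⟩,
    fun g hg => ?_⟩
  rw [← setLIntegral_univ, add_mul]
  refine (lintegral_mono_set w4_cover).trans ((lintegral_union_le _ _ _).trans
    (add_le_add ?_ ((lintegral_iUnion_le _ _).trans ?_)))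
  · refine (setLIntegral_mono' (g := fun _ => 2 ^ (4 : ℝ) * N 4 g) measurableSet_Icc
      fun t ht => ?_).trans (le_of_eq ?_)
    · refine (mul_le_of_le_one_left' ?_).trans (h_small t 4 g (abs_le.2 ht) (by norm_num) hg.1)
      exact ENNReal.ofReal_le_one.2 (Real.rpow_le_one_of_one_le_of_nonpos
        (by linarith [abs_nonneg t]) (by linarith))
    · rw [setLIntegral_const, Real.volume_Icc, mul_right_comm]
      norm_num
  · refine (ENNReal.tsum_le_tsum fun j => w4_piece η _ C hη hε hC j _ _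
      (hb _ (one_le_pow₀ one_le_two) g hg)).trans (le_of_eq ?_)
    rw [ENNReal.tsum_mul_left, ENNReal.tsum_geometric, mul_right_comm]

end Vale.Agent.P117
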