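import Vale.Agent.P117.Stm

namespace Vale.Agent.P117

open MeasureTheory FourierTransform Set
open scoped ENNReal

theorem WE_norm (β y : ℝ) : ‖ch β y‖ = 1 := by
  have e : ch β y = Complex.exp (((Real.pi * β * y ^ 2 : ℝ) : ℂ) * Complex.I) := by
    unfold ch
    refine congrArg _ ?_
    push_cast
    ring
  rw [e, Complex.norm_exp_ofReal_mul_I]

theorem WE_cont (β : ℝ) : Continuous (ch β) := by
  unfold ch
  fun_prop

theorem WE_eq (β : ℝ) (g : ℝ → ℂ) (w : ℝ) :
    W β g w = ch β w * 𝓕 (fun y => ch β y * g y) (β * w) := by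
  rw [Real.fourier_real_eq_integral_exp_smul, ← integral_const_mul]
  refine integral_congr_ae (Filter.Eventually.of_forall fun y => ?_)
  simp only [smul_eq_mul, ch]
  rw [← mul_assoc, ← mul_assoc, ← Complex.exp_add, ← Complex.exp_add]
  refine congrArg (· * g y) (congrArg _ ?_)
  push_cast
  ring

theorem s_WE : S_WE := by
  intro β p g hβ hg
  have hi : Integrable fun y => ch β y * g y :=
    hg.bdd_mul (c := 1) (WE_cont β).aestronglyMeasurable
      (Filter.Eventually.of_forall fun y => (WE_norm β y).le)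
  have hc : Continuous (𝓕 fun y => ch β y * g y) :=
    VectorFourier.fourierIntegral_continuous Real.continuous_fourierChar
      (innerSL ℝ).continuous₂ hi
  have hm : Measurable fun ξ : ℝ => ‖(𝓕 fun y => ch β y * g y) ξ‖ₑ ^ p :=
    hc.measurable.enorm.pow_const p
  have e : ∀ w, ‖W β g w‖ₑ = ‖(𝓕 fun y => ch β y * g y) (β * w)‖ₑ := fun w => by
    rw [WE_eq, enorm_mul, ← ofReal_norm (ch β w), WE_norm, ENNReal.ofReal_one, one_mul]
  unfold N
  simp only [e]
  rw [← lintegral_map hm (measurable_const_mul β), Real.map_volume_mul_left hβ,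
    lintegral_smul_measure, smul_eq_mul, abs_inv, one_div]

end Vale.Agent.P117
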