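import Vale.Agent.P117.Stm

namespace Vale.Agent.P117

open MeasureTheory FourierTransform Set
open scoped ENNReal

theorem wp_int (h_kmeas : S_kmeas) {w : ℝ → ℝ≥0∞} (hw : Measurable w) {h : ℝ → ℂ}
    (hh : Measurable h) (q : ℝ) :
    ∫⁻ z : ℝ × ℝ, ‖U z.1 h z.2‖ₑ ^ q ∂((volume.withDensity w).prod volume) =
      ∫⁻ t, w t * N q (U t h) := by
  rw [lintegral_prod _ ((h_kmeas.2.2.1 h hh).enorm.pow_const q).aemeasurable]
  exact lintegral_withDensity_eq_lintegral_mul volume hw (h_kmeas.2.2.2.1 h hh q)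

theorem wp_good {g : ℝ → ℂ} (hg : Good g) {s : Set ℝ} (hs : MeasurableSet s) :
    Good (s.indicator g) := by
  obtain ⟨h1, h2, M, h3⟩ := hg
  exact ⟨h1.indicator hs, h2.indicator hs, M, fun y => (norm_indicator_le_norm_self _ _).trans (h3 y)⟩

theorem s_wp (h_kmeas : S_kmeas) (h_L2 : S_L2) (h_w1 : S_w1) (h_w4 : S_w4) (h_marc : S_marc) :
    S_wp := by
  intro η p hη hp2 hp4
  obtain ⟨C, hC, hm⟩ := h_marc p hp2 hp4
  obtain ⟨C4, hC4, h4⟩ := h_w4 η hη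
  obtain ⟨hw, hw1⟩ := h_w1 η hη
  refine ⟨C * ((∫⁻ t, wt η t) * 4 + C4), ENNReal.mul_ne_top hC
    (ENNReal.add_ne_top.2 ⟨ENNReal.mul_ne_top hw1 (by norm_num), hC4⟩), fun g hg => ?_⟩
  rw [← wp_int h_kmeas hw hg.1 p]
  refine hm _ (fun z => U z.1 g z.2) g _ (h_kmeas.2.2.1 g hg.1) hg.1 fun l _ => ?_
  have g1 : Good ({y | l < ‖g y‖}.indicator g) :=
    wp_good hg (measurableSet_lt measurable_const hg.1.norm)
  have g2 : Good ({y | ‖g y‖ ≤ l}.indicator g) :=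
    wp_good hg (measurableSet_le hg.1.norm measurable_const)
  refine ⟨fun z => U z.1 ({y | l < ‖g y‖}.indicator g) z.2,
    fun z => U z.1 ({y | ‖g y‖ ≤ l}.indicator g) z.2, h_kmeas.2.2.1 _ g1.1, h_kmeas.2.2.1 _ g2.1,
    fun z => ?_, ?_, ?_⟩
  · unfold U
    rw [← integral_add (h_kmeas.2.2.2.2 _ _ _ g1.2.1) (h_kmeas.2.2.2.2 _ _ _ g2.2.1)]
    refine integral_congr_ae (Filter.Eventually.of_forall fun y => ?_)
    by_cases h : l < ‖g y‖
    · have h1 : y ∈ {y | l < ‖g y‖} := h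
      have h2 : y ∉ {y | ‖g y‖ ≤ l} := not_le.2 h
      simp only [indicator_of_mem h1, indicator_of_notMem h2, mul_zero, add_zero]
    · have h1 : y ∉ {y | l < ‖g y‖} := h
      have h2 : y ∈ {y | ‖g y‖ ≤ l} := not_lt.1 h
      simp only [indicator_of_mem h2, indicator_of_notMem h1, mul_zero, zero_add]
  · rw [wp_int h_kmeas hw g1.1]
    calc _ ≤ ∫⁻ t, wt η t * (4 * N 2 ({y | l < ‖g y‖}.indicator g)) :=
          lintegral_mono fun t => mul_le_mul_right (h_L2 t _ g1) _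
      _ = (∫⁻ t, wt η t) * 4 * N 2 ({y | l < ‖g y‖}.indicator g) := by
          rw [lintegral_mul_const _ hw, mul_assoc]
      _ ≤ _ := mul_le_mul_left le_self_add _
  · rw [wp_int h_kmeas hw g2.1]
    exact (h4 _ g2).trans (mul_le_mul_left le_add_self _)

end Vale.Agent.P117
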