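import Vale.Agent.P117.Stm

/-! Young inequality for nonnegative functions on the line. -/

namespace Vale.Agent.P117

open MeasureTheory FourierTransform Set
open scoped ENNReal

theorem young_pt {K F : ℝ → ℝ≥0∞} {p : ℝ} (hK : Measurable K) (hF : Measurable F) (hp : 1 ≤ p)
    (x : ℝ) : (∫⁻ y, K (x - y) * F y) ^ p ≤ (∫⁻ z, K z) ^ (p - 1) * ∫⁻ y, K (x - y) * F y ^ p := by
  have p0 : 0 < p := by linarith
  have a0 : 0 ≤ 1 / p := by positivity
  have a1 : 0 ≤ 1 - 1 / p := sub_nonneg.2 ((div_le_one p0).2 hp)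
  have hm : Measurable fun y => K (x - y) := hK.comp (measurable_const.sub measurable_id)
  have h := ENNReal.lintegral_mul_norm_pow_le (μ := volume) hm.aemeasurable
    (hm.mul (hF.pow_const p)).aemeasurable a1 a0 (sub_add_cancel _ _)
  have e : ∀ y, K (x - y) ^ (1 - 1 / p) * (K (x - y) * F y ^ p) ^ (1 / p) = K (x - y) * F y := by
    intro y
    rw [ENNReal.mul_rpow_of_nonneg _ _ a0, ← ENNReal.rpow_mul, mul_one_div_cancel p0.ne',
      ENNReal.rpow_one, ← mul_assoc, ← ENNReal.rpow_add_of_nonneg _ _ a1 a0, sub_add_cancel,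
      ENNReal.rpow_one]
  simp only [Pi.mul_apply, e] at h
  rw [lintegral_sub_left_eq_self K x] at h
  refine (ENNReal.rpow_le_rpow h p0.le).trans (le_of_eq ?_)
  rw [ENNReal.mul_rpow_of_nonneg _ _ p0.le, ← ENNReal.rpow_mul, ← ENNReal.rpow_mul,
    one_div_mul_cancel p0.ne', ENNReal.rpow_one, sub_mul, one_div_mul_cancel p0.ne', one_mul]

theorem s_young : S_young := by
  intro K F p hK hF hp
  have hm : Measurable fun q : ℝ × ℝ => K (q.1 - q.2) * F q.2 ^ p :=
    (hK.comp (measurable_fst.sub measurable_snd)).mul ((hF.comp measurable_snd).pow_const p)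
  refine (lintegral_mono (young_pt hK hF hp)).trans (le_of_eq ?_)
  rw [lintegral_const_mul _ hm.lintegral_prod_right',
    lintegral_lintegral_swap (f := fun x y => K (x - y) * F y ^ p) hm.aemeasurable]
  have e : ∀ y, ∫⁻ x, K (x - y) * F y ^ p = (∫⁻ z, K z) * F y ^ p := fun y => by
    rw [lintegral_mul_const _ (show Measurable fun x => K (x - y) from
      hK.comp (measurable_id.sub measurable_const)), lintegral_sub_right_eq_self K y]
  simp only [e]
  rw [lintegral_const_mul _ (hF.pow_const p), ← mul_assoc]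
  congr 1
  conv_rhs => rw [← sub_add_cancel p 1, ENNReal.rpow_add_of_nonneg _ _ (sub_nonneg.2 hp) zero_le_one,
    ENNReal.rpow_one]

end Vale.Agent.P117
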