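import Vale.Agent.P117.SA0
import Vale.Agent.P117.SAh
import Vale.Agent.P117.SAmeas
import Vale.Agent.P117.SAuto
import Vale.Agent.P117.SBes
import Vale.Agent.P117.SBlk
import Vale.Agent.P117.SCheb
import Vale.Agent.P117.SCore
import Vale.Agent.P117.SCov
import Vale.Agent.P117.SCs
import Vale.Agent.P117.SFac
import Vale.Agent.P117.SFin
import Vale.Agent.P117.SFten
import Vale.Agent.P117.SHint
import Vale.Agent.P117.SHold
import Vale.Agent.P117.SIprod
import Vale.Agent.P117.SKl1
import Vale.Agent.P117.SKmeas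
import Vale.Agent.P117.SKnorm
import Vale.Agent.P117.SKtail
import Vale.Agent.P117.SL2
import Vale.Agent.P117.SLap
import Vale.Agent.P117.SLoc
import Vale.Agent.P117.SLprod
import Vale.Agent.P117.SM2
import Vale.Agent.P117.SM3
import Vale.Agent.P117.SMarc
import Vale.Agent.P117.SMu
import Vale.Agent.P117.SMul
import Vale.Agent.P117.SNear
import Vale.Agent.P117.SOne
import Vale.Agent.P117.SOvl
import Vale.Agent.P117.SProd
import Vale.Agent.P117.SPt
import Vale.Agent.P117.SRep
import Vale.Agent.P117.SRho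
import Vale.Agent.P117.SSmall
import Vale.Agent.P117.SUW
import Vale.Agent.P117.SW1
import Vale.Agent.P117.SW4
import Vale.Agent.P117.SWE
import Vale.Agent.P117.SWp
import Vale.Agent.P117.SYoung

namespace Vale.Agent.P117

theorem a_kmeas : S_kmeas := s_kmeas s_knorm
theorem a_rho : S_rho := s_rho s_lap
theorem a_mu : S_mu := s_mu a_rho
theorem a_rep : S_rep := s_rep a_mu (s_mul a_mu) s_prod s_iprod (s_ften s_prod) s_one
theorem a_pt : S_pt := s_pt a_rho a_rep
theorem a_small : S_small := s_small s_young (s_kl1 s_knorm) a_kmeas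
theorem a_UW : S_UW := s_UW s_young s_fac
theorem a_L2 : S_L2 := s_L2 a_small a_UW s_WE s_bes
theorem a_core : S_core := s_core (s_auto s_bes) (s_Ah s_bes s_cs) (s_A0 s_cs) s_Ameas s_hint
theorem a_near : S_near := s_near a_UW s_WE s_Ameas a_core s_cov
theorem a_blk : S_blk := s_blk a_kmeas a_near (s_loc s_young (s_ktail s_knorm) a_kmeas) s_ovl
theorem a_w4 : S_w4 := s_w4 a_small a_blk a_kmeas
theorem a_wp : S_wp := s_wp a_kmeas a_L2 s_w1 a_w4 (s_marc s_cheb s_m2 s_m3)
theorem a_fin : S_fin := s_fin s_lprod a_kmeas s_w1 a_wp s_hold a_pt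

end Vale.Agent.P117
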