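import Vale.Agent.P117.Stm2
import Vale.Agent.P117.SFin

namespace Vale.Agent.P117

open MeasureTheory Set FourierTransform
open scoped ENNReal

theorem tfin_pow {a : ℝ≥0∞} (ha : 1 ≤ a) {p : ℝ} (hp2 : 2 ≤ p) (hp4 : p ≤ 4) :
    a ^ (1 - p) * (a ^ ((p - 2) / 2)) ^ 3 ≤ 1 := by
  by_cases hT : a = ⊤
  · rw [hT, ENNReal.top_rpow_of_neg (by linarith : 1 - p < 0), zero_mul]; exact zero_le_one
  have h0 : a ≠ 0 := (lt_of_lt_of_le zero_lt_one ha).ne'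
  rw [← ENNReal.rpow_natCast, ← ENNReal.rpow_mul, ← ENNReal.rpow_add _ _ h0 hT]
  refine (ENNReal.rpow_le_rpow_of_exponent_le ha (z := 0) (by push_cast; linarith)).trans ?_
  rw [ENNReal.rpow_zero]

theorem t_fin (h_lprod : S_lprod) (h_kmeas : S_kmeas) (h_w1 : S_w1) (h_hold : S_hold2)
    (h_pt : S_pt) (δ p : ℝ) (hδ : 0 < δ) (hp2 : 2 ≤ p) (hp4 : p ≤ 4) (hphi : Phi δ p) :
    ∃ C : ℝ≥0∞, C ≠ ⊤ ∧ ∀ g : Fin 3 → SchwartzMap ℝ ℂ,
      ∫⁻ x, ‖BR δ (tens g) x‖ₑ ^ p ≤ C * ∏ j, N p (g j) := by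
  obtain ⟨C, hC, hpt⟩ := h_pt δ hδ
  obtain ⟨K, hK, hw⟩ := hphi
  obtain ⟨hwm, hw1⟩ := h_w1 δ hδ
  have hp0 : 0 ≤ p := by linarith
  have h3K : 3 * K ≠ ⊤ := ENNReal.mul_ne_top (by simp) hK
  have hB : C ^ p * (3 * K) ^ (p - 1) ≠ ⊤ :=
    ENNReal.mul_ne_top (ENNReal.rpow_ne_top_of_nonneg hp0 hC)
      (ENNReal.rpow_ne_top_of_nonneg (by linarith) h3K)
  refine ⟨C ^ p * (3 * K) ^ (p - 1) * ((∫⁻ t, wt δ t) * K ^ 3),
    ENNReal.mul_ne_top hB (ENNReal.mul_ne_top hw1 (ENNReal.pow_ne_top hK)), fun g => ?_⟩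
  choose φ hφm hφ1 hφi hφ using fun j => hw (g j) (fin_good (g j))
  set a : ℝ → ℝ≥0∞ := fun t => ∑ j, φ j t with ha
  have ham : Measurable a := Finset.measurable_sum _ fun j _ => hφm j
  have hle : ∀ j t, φ j t ≤ a t := fun j t =>
    Finset.single_le_sum (f := fun j => φ j t) (fun _ _ => zero_le) (Finset.mem_univ j)
  have ha1 : ∀ t, 1 ≤ a t := fun t => (hφ1 0 t).trans (hle 0 t)
  have hai : ∫⁻ t, wt δ t * a t ≤ 3 * K := by
    simp only [ha, Finset.mul_sum]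
    rw [lintegral_finsetSum (f := fun j t => wt δ t * φ j t) _ fun j _ => hwm.mul (hφm j)]
    calc ∑ j, ∫⁻ t, wt δ t * φ j t ≤ ∑ _j : Fin 3, K := Finset.sum_le_sum fun j _ => hφi j
      _ = 3 * K := by simp
  have hU : ∀ j, Measurable (fun z : ℝ × ℝ => U z.1 (g j) z.2) :=
    fun j => h_kmeas.2.2.1 _ (fin_good (g j)).1
  have hUx : ∀ j, Measurable (fun z : E3 × ℝ => ‖U z.2 (g j) (z.1 j)‖ₑ) := fun j =>
    ((hU j).comp (measurable_snd.prodMk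
      ((by fun_prop : Measurable fun x : E3 => x j).comp measurable_fst))).enorm
  have hJ : Measurable (fun z : E3 × ℝ =>
      wt δ z.2 * (a z.2 ^ (1 - p) * (∏ j, ‖U z.2 (g j) (z.1 j)‖ₑ) ^ p)) :=
    (hwm.comp measurable_snd).mul (((ham.comp measurable_snd).pow_const _).mul
      ((Finset.measurable_prod _ fun j _ => hUx j).pow_const p))
  have h1 : ∀ x : E3, ‖BR δ (tens g) x‖ₑ ^ p ≤ C ^ p * (3 * K) ^ (p - 1) *
      ∫⁻ t, wt δ t * (a t ^ (1 - p) * (∏ j, ‖U t (g j) (x j)‖ₑ) ^ p) := by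
    intro x
    calc ‖BR δ (tens g) x‖ₑ ^ p
        ≤ (C * ∫⁻ t, wt δ t * ∏ j, ‖U t (g j) (x j)‖ₑ) ^ p :=
          ENNReal.rpow_le_rpow (hpt g x) hp0
      _ = C ^ p * (∫⁻ t, wt δ t * ∏ j, ‖U t (g j) (x j)‖ₑ) ^ p :=
          ENNReal.mul_rpow_of_nonneg _ _ hp0
      _ ≤ C ^ p * ((3 * K) ^ (p - 1) *
          ∫⁻ t, wt δ t * (a t ^ (1 - p) * (∏ j, ‖U t (g j) (x j)‖ₑ) ^ p)) := by
          gcongr
          refine (h_hold p (wt δ) a (fun t => ∏ j, ‖U t (g j) (x j)‖ₑ) (by linarith) hwm ham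
            (Finset.measurable_prod _ fun j _ =>
              ((hU j).comp (measurable_prodMk_right (y := x j))).enorm) ha1
            (ne_top_of_le_ne_top h3K hai)).trans ?_
          gcongr
          linarith
      _ = _ := (mul_assoc _ _ _).symm
  have h2 : ∀ t, ∫⁻ x : E3, wt δ t * (a t ^ (1 - p) * (∏ j, ‖U t (g j) (x j)‖ₑ) ^ p) ≤
      wt δ t * (K ^ 3 * ∏ j, N p (g j)) := by
    intro t
    have hm : ∀ j, Measurable fun y => ‖U t (g j) y‖ₑ ^ p := fun j =>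
      ((hU j).comp (measurable_prodMk_left (x := t))).enorm.pow_const p
    have hx : Measurable fun x : E3 => (∏ j, ‖U t (g j) (x j)‖ₑ) ^ p :=
      (Finset.measurable_prod _ fun j _ =>
        (hUx j).comp (measurable_prodMk_right (y := t))).pow_const p
    rw [lintegral_const_mul _ (hx.const_mul _), lintegral_const_mul _ hx]
    refine mul_le_mul_right ?_ _
    have e : ∫⁻ x : E3, (∏ j, ‖U t (g j) (x j)‖ₑ) ^ p = ∏ j, N p (U t (g j)) := by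
      simp only [N]
      rw [← h_lprod (fun j y => ‖U t (g j) y‖ₑ ^ p) hm]
      refine lintegral_congr fun x => ?_
      simp only [Fin.prod_univ_three, ENNReal.mul_rpow_of_nonneg _ _ hp0]
    rw [e]
    calc a t ^ (1 - p) * ∏ j, N p (U t (g j))
        ≤ a t ^ (1 - p) * ∏ j, (K * a t ^ ((p - 2) / 2) * N p (g j)) := by
          gcongr with j
          refine (hφ j t).trans ?_
          exact mul_le_mul_left (mul_le_mul_right
            (ENNReal.rpow_le_rpow (hle j t) (by linarith)) _) _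
      _ = (a t ^ (1 - p) * (a t ^ ((p - 2) / 2)) ^ 3) * (K ^ 3 * ∏ j, N p (g j)) := by
          simp only [Fin.prod_univ_three]; ring
      _ ≤ 1 * (K ^ 3 * ∏ j, N p (g j)) := by
          gcongr
          exact tfin_pow (ha1 t) hp2 hp4
      _ = _ := one_mul _
  calc ∫⁻ x, ‖BR δ (tens g) x‖ₑ ^ p
      ≤ ∫⁻ x : E3, C ^ p * (3 * K) ^ (p - 1) *
        ∫⁻ t, wt δ t * (a t ^ (1 - p) * (∏ j, ‖U t (g j) (x j)‖ₑ) ^ p) := lintegral_mono h1
    _ = C ^ p * (3 * K) ^ (p - 1) * ∫⁻ t, ∫⁻ x : E3,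
        wt δ t * (a t ^ (1 - p) * (∏ j, ‖U t (g j) (x j)‖ₑ) ^ p) := by
        rw [lintegral_const_mul' _ _ hB, lintegral_lintegral_swap hJ.aemeasurable]
    _ ≤ C ^ p * (3 * K) ^ (p - 1) * ∫⁻ t, wt δ t * (K ^ 3 * ∏ j, N p (g j)) := by
        gcongr with t
        exact h2 t
    _ = _ := by rw [lintegral_mul_const _ hwm]; ring

theorem t_lp (h_lprod : S_lprod) (δ p : ℝ) (hp0 : 0 < p)
    (hf : ∃ C : ℝ≥0∞, C ≠ ⊤ ∧ ∀ g : Fin 3 → SchwartzMap ℝ ℂ,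
      ∫⁻ x, ‖BR δ (tens g) x‖ₑ ^ p ≤ C * ∏ j, N p (g j)) :
    ∃ C : NNReal, ∀ g : Fin 3 → SchwartzMap ℝ ℂ,
      eLpNorm (BR δ (tens g)) (ENNReal.ofReal p) volume ≤
        C * eLpNorm (tens g) (ENNReal.ofReal p) volume := by
  obtain ⟨C, hC, h⟩ := hf
  have hi : 0 ≤ 1 / p := by positivity
  refine ⟨(C ^ (1 / p)).toNNReal, fun g => ?_⟩
  have e0 : ENNReal.ofReal p ≠ 0 := by simpa using hp0
  rw [ENNReal.coe_toNNReal (ENNReal.rpow_ne_top_of_nonneg hi hC),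
    eLpNorm_eq_lintegral_rpow_enorm_toReal e0 ENNReal.ofReal_ne_top,
    eLpNorm_eq_lintegral_rpow_enorm_toReal e0 ENNReal.ofReal_ne_top,
    ENNReal.toReal_ofReal hp0.le, ← ENNReal.mul_rpow_of_nonneg _ _ hi]
  refine ENNReal.rpow_le_rpow ((h g).trans (le_of_eq ?_)) hi
  congr 1
  simp only [N]
  rw [← h_lprod (fun j y => ‖g j y‖ₑ ^ p)
    (fun j => (g j).continuous.measurable.enorm.pow_const p)]
  refine lintegral_congr fun x => ?_
  simp only [tens, Fin.prod_univ_three, enorm_mul, ENNReal.mul_rpow_of_nonneg _ _ hp0.le]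

end Vale.Agent.P117
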