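import Vale.Agent.P117.Stm2

/-! The fixed time estimate. -/

namespace Vale.Agent.P117

open MeasureTheory FourierTransform Set
open scoped ENNReal

theorem fix_pow (c : ℕ) {l : ℝ} (hl : 0 < l) (a b d : ℝ) (h : d = a + b) :
    ENNReal.ofReal (c * l ^ a) * ENNReal.ofReal (l ^ b) = c * ENNReal.ofReal (l ^ d) := by
  rw [← ENNReal.ofReal_mul (by positivity), mul_assoc, ← Real.rpow_add hl, ← h,
    ENNReal.ofReal_mul (Nat.cast_nonneg c), ENNReal.ofReal_natCast]

theorem fix_good {g : ℝ → ℂ} (hg : Good g) {s : Set ℝ} (hs : MeasurableSet s) :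
    Good (s.indicator g) := by
  obtain ⟨h1, h2, M, h3⟩ := hg
  exact ⟨h1.indicator hs, h2.indicator hs, M, fun y => (norm_indicator_le_norm_self _ _).trans (h3 y)⟩

theorem fix_sc {c q : ℝ} (hc : 0 < c) (hq : 0 ≤ q) (G : ℝ → ℂ) :
    N q (fun x => (c : ℂ) * G x) = ENNReal.ofReal (c ^ q) * N q G := by
  unfold N
  rw [← lintegral_const_mul' _ _ ENNReal.ofReal_ne_top]
  refine lintegral_congr fun x => ?_
  rw [enorm_mul, ENNReal.mul_rpow_of_nonneg _ _ hq, ← ofReal_norm (c : ℂ),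
    Complex.norm_real, Real.norm_of_nonneg hc.le, ENNReal.ofReal_rpow_of_pos hc]

theorem fix_add (h_kmeas : S_kmeas) {g : ℝ → ℂ} (hg : Good g) (t l x : ℝ) :
    U t g x = U t ({y | l < ‖g y‖}.indicator g) x + U t ({y | ‖g y‖ ≤ l}.indicator g) x := by
  have g1 := fix_good hg (measurableSet_lt (f := fun _ => l) measurable_const hg.1.norm)
  have g2 := fix_good hg (measurableSet_le (g := fun _ => l) hg.1.norm measurable_const)
  unfold U
  rw [← integral_add (h_kmeas.2.2.2.2 _ _ _ g1.2.1) (h_kmeas.2.2.2.2 _ _ _ g2.2.1)]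
  refine integral_congr_ae (Filter.Eventually.of_forall fun y => ?_)
  by_cases h : l < ‖g y‖
  · have h1 : y ∈ {y | l < ‖g y‖} := h
    have h2 : y ∉ {y | ‖g y‖ ≤ l} := not_le.2 h
    simp only [indicator_of_mem h1, indicator_of_notMem h2, mul_zero, add_zero]
  · have h1 : y ∉ {y | l < ‖g y‖} := h
    have h2 : y ∈ {y | ‖g y‖ ≤ l} := not_lt.1 h
    simp only [indicator_of_mem h2, indicator_of_notMem h1, mul_zero, zero_add]

theorem fix_sl {β : Type} [MeasurableSpace β] {F : ℝ → ℝ → β}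
    (h : Measurable fun z : ℝ × ℝ => F z.1 z.2) (t : ℝ) : Measurable fun x => F t x :=
  h.comp measurable_prodMk_left

theorem fix_mul {c : ℝ} (hc : 0 < c) (a p : ℝ) :
    ENNReal.ofReal (c ^ (-p)) * ENNReal.ofReal (c ^ a) = ENNReal.ofReal (c ^ (a - p)) := by
  rw [← ENNReal.ofReal_mul (by positivity), ← Real.rpow_add hc, neg_add_eq_sub]

theorem s_fix (h_kmeas : S_kmeas) (h_L2 : S_L2) (h_m2 : S_m2) (h_cheb1 : S_cheb1) (h_jm : S_jm) :
    S_fix := by
  intro p h2 h4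
  have hp : 0 < p := by linarith
  refine ⟨ENNReal.ofReal p * (16 * ENNReal.ofReal (1 / (p - 2)) + 16), by finiteness,
    fun t c g hc hg => ?_⟩
  have mU : ∀ h : ℝ → ℂ, Measurable h → Measurable fun x => (c : ℂ) * U t h x := fun h hh =>
    (fix_sl (F := fun t x => U t h x) (h_kmeas.2.2.1 h hh) t).const_mul _
  have e0 : N p (U t g) = ENNReal.ofReal (c ^ (-p)) * N p fun x => (c : ℂ) * U t g x := by
    rw [fix_sc hc hp.le, ← mul_assoc, fix_mul hc, sub_self, Real.rpow_zero, ENNReal.ofReal_one,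
      one_mul]
  have e1 : (N p fun x => (c : ℂ) * U t g x) = ENNReal.ofReal p * ∫⁻ l in Ioi (0 : ℝ),
      volume {x | l < ‖(c : ℂ) * U t g x‖} * ENNReal.ofReal (l ^ (p - 1)) := by
    rw [← lintegral_rpow_eq_lintegral_meas_lt_mul volume (f := fun x => ‖(c : ℂ) * U t g x‖)
      (Filter.Eventually.of_forall fun z => norm_nonneg _) (mU g hg.1).norm.aemeasurable hp]
    refine lintegral_congr fun x => ?_
    rw [← ofReal_norm, ENNReal.ofReal_rpow_of_nonneg (norm_nonneg _) hp.le]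
  have m4 : Measurable fun l : ℝ =>
      ENNReal.ofReal (l ^ (p - 5)) * N 4 (U t ({y | ‖g y‖ ≤ l}.indicator g)) :=
    (measurable_id.pow_const (p - 5)).ennreal_ofReal.mul
      (fix_sl (F := fun t l => N 4 (U t ({y | ‖g y‖ ≤ l}.indicator g))) (h_jm g hg.1) t)
  have key : ∫⁻ l in Ioi (0 : ℝ), volume {x | l < ‖(c : ℂ) * U t g x‖} *
      ENNReal.ofReal (l ^ (p - 1)) ≤ ∫⁻ l in Ioi (0 : ℝ),
        (ENNReal.ofReal (c ^ (2 : ℝ)) * 16 *
          (ENNReal.ofReal (l ^ (p - 3)) * N 2 ({y | l < ‖g y‖}.indicator g)) +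
        ENNReal.ofReal (c ^ (4 : ℝ)) * 16 *
          (ENNReal.ofReal (l ^ (p - 5)) * N 4 (U t ({y | ‖g y‖ ≤ l}.indicator g)))) := by
    refine setLIntegral_mono' measurableSet_Ioi fun l hl => ?_
    have hl0 : 0 < l := hl
    have g1 := fix_good hg (measurableSet_lt (f := fun _ => l) measurable_const hg.1.norm)
    have g2 := fix_good hg (measurableSet_le (g := fun _ => l) hg.1.norm measurable_const)
    have c1 := h_cheb1 (fun x => (c : ℂ) * U t g x) _ _ l hl0 (mU _ g1.1) (mU _ g2.1)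
      fun x => by rw [fix_add h_kmeas hg t l x, mul_add]
    rw [fix_sc hc (by norm_num), fix_sc hc (by norm_num)] at c1
    have a4 := h_L2 t _ g1
    have p1 := fix_pow 4 hl0 (-2) (p - 1) (p - 3) (by ring)
    have p2 := fix_pow 16 hl0 (-4) (p - 1) (p - 5) (by ring)
    simp only [Nat.cast_ofNat] at p1 p2
    calc _ ≤ (ENNReal.ofReal (4 * l ^ (-2 : ℝ)) * (ENNReal.ofReal (c ^ (2 : ℝ)) *
              (4 * N 2 ({y | l < ‖g y‖}.indicator g))) +
            ENNReal.ofReal (16 * l ^ (-4 : ℝ)) * (ENNReal.ofReal (c ^ (4 : ℝ)) *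
              N 4 (U t ({y | ‖g y‖ ≤ l}.indicator g)))) * ENNReal.ofReal (l ^ (p - 1)) := by
          refine mul_le_mul_left (c1.trans ?_) _
          gcongr
      _ = ENNReal.ofReal (4 * l ^ (-2 : ℝ)) * ENNReal.ofReal (l ^ (p - 1)) *
            (ENNReal.ofReal (c ^ (2 : ℝ)) * (4 * N 2 ({y | l < ‖g y‖}.indicator g))) +
          ENNReal.ofReal (16 * l ^ (-4 : ℝ)) * ENNReal.ofReal (l ^ (p - 1)) *
            (ENNReal.ofReal (c ^ (4 : ℝ)) * N 4 (U t ({y | ‖g y‖ ≤ l}.indicator g))) := by ring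
      _ = _ := by rw [p1, p2]; ring
  rw [lintegral_add_right _ (m4.const_mul _), lintegral_const_mul' _ _ (by finiteness),
    lintegral_const_mul _ m4] at key
  have b2 := h_m2 p g h2 hg.1
  rw [e0, e1, ← fix_mul hc 2 p, ← fix_mul hc 4 p]
  calc _ ≤ ENNReal.ofReal (c ^ (-p)) * (ENNReal.ofReal p *
        (ENNReal.ofReal (c ^ (2 : ℝ)) * 16 * (ENNReal.ofReal (1 / (p - 2)) * N p g) +
          ENNReal.ofReal (c ^ (4 : ℝ)) * 16 * Ph p g t)) :=
        mul_le_mul_right (mul_le_mul_right (key.trans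
          (add_le_add (mul_le_mul_right b2 _) le_rfl)) _) _
    _ = ENNReal.ofReal p * (16 * ENNReal.ofReal (1 / (p - 2)) *
          (ENNReal.ofReal (c ^ (-p)) * ENNReal.ofReal (c ^ (2 : ℝ)) * N p g) +
        16 * (ENNReal.ofReal (c ^ (-p)) * ENNReal.ofReal (c ^ (4 : ℝ)) * Ph p g t)) := by ring
    _ ≤ _ := by
        rw [mul_assoc (ENNReal.ofReal p), add_mul]
        exact mul_le_mul_right (add_le_add (mul_le_mul_right le_self_add _)
          (mul_le_mul_right le_add_self _)) _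

end Vale.Agent.P117
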