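import Vale.Agent.P117.Stm2

/-! The inequality of Hoelder with a weight. -/

namespace Vale.Agent.P117

open MeasureTheory FourierTransform Set
open scoped ENNReal

theorem hold2_pt (p : ℝ) (hp : 1 ≤ p) (w a F : ℝ≥0∞) (ha : 1 ≤ a) (h : w * a < ⊤) :
    w * F ≤ (w * a) ^ (1 - 1 / p) * (w * (a ^ (1 - p) * F ^ p)) ^ (1 / p) := by
  rcases eq_or_ne w 0 with rfl | hw
  · simp
  have hp0 : 0 < p := by linarith
  have ha0 : a ≠ 0 := (zero_lt_one.trans_le ha).ne'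
  have ha1 : a ≠ ⊤ := fun k => by simp [k, hw] at h
  have hw1 : w ≠ ⊤ := fun k => by simp [k, ha0] at h
  have h1 : 0 ≤ 1 / p := by positivity
  have h2 : 0 ≤ 1 - 1 / p := sub_nonneg.2 ((div_le_one hp0).2 hp)
  have h3 : w ^ (1 - 1 / p) * w ^ (1 / p) = w := by
    rw [← ENNReal.rpow_add _ _ hw hw1, sub_add_cancel, ENNReal.rpow_one]
  have h4 : a ^ (1 - 1 / p) * a ^ ((1 - p) * (1 / p)) = 1 := by
    rw [← ENNReal.rpow_add _ _ ha0 ha1, show 1 - 1 / p + (1 - p) * (1 / p) = 0 by field_simp; ring,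
      ENNReal.rpow_zero]
  rw [ENNReal.mul_rpow_of_nonneg _ _ h2, ENNReal.mul_rpow_of_nonneg _ _ h1,
    ENNReal.mul_rpow_of_nonneg _ _ h1, ← ENNReal.rpow_mul, ← ENNReal.rpow_mul,
    mul_one_div_cancel hp0.ne', ENNReal.rpow_one, mul_mul_mul_comm, h3, ← mul_assoc (a ^ _), h4,
    one_mul]

theorem s_hold2 : S_hold2 := by
  intro p w a F hp hw ha hF h1 hf
  have hp0 : 0 < p := by linarith
  have h2 : 0 ≤ 1 - 1 / p := sub_nonneg.2 ((div_le_one hp0).2 hp)
  have k : ∫⁻ t, w t * F t ≤ (∫⁻ t, w t * a t) ^ (1 - 1 / p) *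
      (∫⁻ t, w t * (a t ^ (1 - p) * F t ^ p)) ^ (1 / p) := by
    refine (lintegral_mono_ae ?_).trans (ENNReal.lintegral_mul_norm_pow_le
      (f := fun t => w t * a t) (g := fun t => w t * (a t ^ (1 - p) * F t ^ p))
      (hw.mul ha).aemeasurable (hw.mul ((ha.pow_const _).mul (hF.pow_const _))).aemeasurable h2
      (by positivity) (sub_add_cancel _ _))
    filter_upwards [ae_lt_top (hw.mul ha) hf] with t ht
    exact hold2_pt p hp _ _ _ (h1 t) ht
  refine (ENNReal.rpow_le_rpow k hp0.le).trans (le_of_eq ?_)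
  rw [ENNReal.mul_rpow_of_nonneg _ _ hp0.le, ← ENNReal.rpow_mul, ← ENNReal.rpow_mul,
    one_div_mul_cancel hp0.ne', ENNReal.rpow_one, show (1 - 1 / p) * p = p - 1 by field_simp]

end Vale.Agent.P117
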