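import Vale.Agent.P117.Stm

namespace Vale.Agent.P117

open MeasureTheory FourierTransform Set
open scoped ENNReal

theorem kmeas_cont (t : ℝ) : Continuous (k t) := by
  unfold k
  fun_prop

theorem kmeas_le (h_knorm : S_knorm) (t z : ℝ) : ‖k t z‖ ≤ 1 := by
  rw [h_knorm t z]
  have h0 : (1 : ℝ) ≤ 1 + 4 * t ^ 2 := le_add_of_nonneg_right (by positivity)
  have h1 : (1 + 4 * t ^ 2) ^ (-(1 / 4) : ℝ) ≤ 1 :=
    Real.rpow_le_one_of_one_le_of_nonpos h0 (by norm_num)
  have h2 : Real.exp (-(Real.pi * z ^ 2 / (1 + 4 * t ^ 2))) ≤ 1 := by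
    rw [Real.exp_le_one_iff]
    exact neg_nonpos.2 (by positivity)
  exact mul_le_one₀ h1 (Real.exp_pos _).le h2

theorem kmeas_bb : Measurable bb := by
  have : Continuous bb := by
    unfold bb
    fun_prop
  exact this.measurable

theorem kmeas_unc : Measurable (fun p : ℝ × ℝ => k p.1 p.2) := by
  have h1 : Measurable (fun p : ℝ × ℝ => bb p.1) := kmeas_bb.comp measurable_fst
  have h2 : Measurable (fun p : ℝ × ℝ => ((p.2 : ℝ) : ℂ)) :=
    Complex.measurable_ofReal.comp measurable_snd
  unfold k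
  exact (measurable_const.div (h1.pow measurable_const)).mul
    (Complex.measurable_exp.comp ((measurable_const.div h1).mul (h2.pow_const 2)))

theorem kmeas_U (g : ℝ → ℂ) (hg : Measurable g) : Measurable (fun z : ℝ × ℝ => U z.1 g z.2) := by
  have h1 : Measurable (fun p : (ℝ × ℝ) × ℝ => (p.1.1, p.1.2 - p.2)) :=
    (measurable_fst.comp measurable_fst).prodMk
      ((measurable_snd.comp measurable_fst).sub measurable_snd)
  have h2 : Measurable (fun p : (ℝ × ℝ) × ℝ => k p.1.1 (p.1.2 - p.2) * g p.2) :=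
    (kmeas_unc.comp h1).mul (hg.comp measurable_snd)
  exact (h2.stronglyMeasurable.integral_prod_right' (ν := volume)).measurable

theorem s_kmeas (h_knorm : S_knorm) : S_kmeas := by
  refine ⟨kmeas_cont, kmeas_le h_knorm, kmeas_U, ?_, ?_⟩
  · intro g hg q
    exact ((kmeas_U g hg).enorm.pow_const q).lintegral_prod_right' (ν := volume)
  · intro g t x hg
    have hc : Continuous (fun y => k t (x - y)) := (kmeas_cont t).comp (by fun_prop)
    exact hg.bdd_mul (c := 1) hc.aestronglyMeasurable
      (Filter.Eventually.of_forall fun y => kmeas_le h_knorm t _)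

end Vale.Agent.P117
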