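import Vale.Agent.P117.Stm2
import Vale.Agent.P117.SKmeas

namespace Vale.Agent.P117

open MeasureTheory FourierTransform Set
open scoped ENNReal

theorem jm_U (g : ℝ → ℂ) (hg : Measurable g) : Measurable fun p : (ℝ × ℝ) × ℝ =>
    U p.1.1 ({y | ‖g y‖ ≤ p.1.2}.indicator g) p.2 := by
  have h1 : Measurable fun p : ((ℝ × ℝ) × ℝ) × ℝ => (p.1.1.1, p.1.2 - p.2) :=
    measurable_fst.fst.fst.prodMk (measurable_fst.snd.sub measurable_snd)
  have h3 : Measurable fun p : ((ℝ × ℝ) × ℝ) × ℝ => {y | ‖g y‖ ≤ p.1.1.2}.indicator g p.2 := by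
    simp only [indicator_apply, mem_ofPred_eq]
    exact Measurable.ite (measurableSet_le (hg.comp measurable_snd).norm measurable_fst.fst.snd)
      (hg.comp measurable_snd) measurable_const
  have h2 : Measurable fun p : ((ℝ × ℝ) × ℝ) × ℝ =>
      k p.1.1.1 (p.1.2 - p.2) * {y | ‖g y‖ ≤ p.1.1.2}.indicator g p.2 :=
    (kmeas_unc.comp h1).mul h3
  exact (h2.stronglyMeasurable.integral_prod_right' (ν := volume)).measurable

theorem s_jm : S_jm := fun g hg =>
  ((jm_U g hg).enorm.pow_const (4 : ℝ)).lintegral_prod_right' (ν := volume)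

end Vale.Agent.P117
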