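import Vale.Agent.P117.Stm2

/-! The time average of the interpolation weight. -/

namespace Vale.Agent.P117

open MeasureTheory FourierTransform Set
open scoped ENNReal

theorem Ph_good {g : ℝ → ℂ} (hg : Good g) (l : ℝ) : Good ({y | ‖g y‖ ≤ l}.indicator g) := by
  have hm : MeasurableSet {y | ‖g y‖ ≤ l} := measurableSet_le hg.1.norm measurable_const
  obtain ⟨M, hM⟩ := hg.2.2
  exact ⟨hg.1.indicator hm, hg.2.1.indicator hm, M, fun y =>
    (norm_indicator_le_norm_self g y).trans (hM y)⟩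

theorem s_Ph (h_jm : S_jm) (h_w1 : S_w1) (h_w4 : S_w4) (h_m3 : S_m3) : S_Ph := by
  intro η p hη hp2 hp4
  obtain ⟨C, hC, h4⟩ := h_w4 η hη
  refine ⟨C * ENNReal.ofReal (1 / (4 - p)), ENNReal.mul_ne_top hC ENNReal.ofReal_ne_top,
    fun g hg => ?_⟩
  have m0 := h_jm g hg.1
  have m1 : Measurable fun z : ℝ × ℝ => ENNReal.ofReal (z.2 ^ (p - 5)) *
      N 4 (U z.1 ({y | ‖g y‖ ≤ z.2}.indicator g)) :=
    (measurable_snd.pow_const _).ennreal_ofReal.mul m0
  have m2 : Measurable fun z : ℝ × ℝ => wt η z.1 * (ENNReal.ofReal (z.2 ^ (p - 5)) *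
      N 4 (U z.1 ({y | ‖g y‖ ≤ z.2}.indicator g))) := ((h_w1 η hη).1.comp measurable_fst).mul m1
  refine ⟨m1.lintegral_prod_right' (ν := volume.restrict (Ioi (0 : ℝ))), ?_⟩
  have e1 : ∀ t, wt η t * Ph p g t = ∫⁻ l in Ioi (0 : ℝ), wt η t * (ENNReal.ofReal (l ^ (p - 5)) *
      N 4 (U t ({y | ‖g y‖ ≤ l}.indicator g))) := fun t =>
    (lintegral_const_mul' _ _ ENNReal.ofReal_ne_top).symm
  rw [lintegral_congr e1, lintegral_lintegral_swap m2.aemeasurable, mul_assoc]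
  refine le_trans (lintegral_mono fun l => ?_) ((lintegral_const_mul' C _ hC).trans_le
    (mul_le_mul_right (h_m3 p g (by linarith) hp4 hg.1) C))
  simp only [mul_left_comm (wt η _)]
  rw [lintegral_const_mul' _ _ ENNReal.ofReal_ne_top, mul_left_comm]
  exact mul_le_mul_right (h4 _ (Ph_good hg l)) _

end Vale.Agent.P117
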