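import Vale.Agent.P117.Stm2

/-! The weight function at the two end exponents. -/

namespace Vale.Agent.P117

open MeasureTheory FourierTransform Set
open scoped ENNReal

theorem phiE_two (h_L2 : S_L2) (h_w1 : S_w1) (η : ℝ) (hη : 0 < η) : Phi η 2 := by
  obtain ⟨_, hw⟩ := h_w1 η hη
  refine ⟨4 + ∫⁻ t, wt η t, ENNReal.add_ne_top.2 ⟨by norm_num, hw⟩, fun g hg =>
    ⟨fun _ => 1, measurable_const, fun _ => le_rfl, ?_, fun t => ?_⟩⟩
  · simp only [mul_one]
    exact le_add_self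
  · rw [ENNReal.one_rpow, mul_one]
    exact (h_L2 t g hg).trans (mul_le_mul_left le_self_add _)

theorem phiE_four (h_kmeas : S_kmeas) (h_w1 : S_w1) (h_w4 : S_w4) (h_zero : S_zero) (η : ℝ)
    (hη : 0 < η) : Phi η 4 := by
  obtain ⟨hm, hw⟩ := h_w1 η hη
  obtain ⟨C, hC, h4⟩ := h_w4 η hη
  refine ⟨1 + (∫⁻ t, wt η t) + C,
    ENNReal.add_ne_top.2 ⟨ENNReal.add_ne_top.2 ⟨ENNReal.one_ne_top, hw⟩, hC⟩, fun g hg => ?_⟩
  obtain ⟨hn, hz⟩ := h_zero 4 g (by norm_num) hg
  by_cases h0 : N 4 g = 0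
  · refine ⟨fun _ => 1, measurable_const, fun _ => le_rfl, ?_, fun t => ?_⟩
    · simp only [mul_one]
      exact le_add_self.trans le_self_add
    · rw [hz h0 t]
      exact zero_le
  · have hN : Measurable fun t => N 4 (U t g) := h_kmeas.2.2.2.1 g hg.1 4
    refine ⟨fun t => 1 + N 4 (U t g) / N 4 g, (hN.div_const _).const_add _,
      fun _ => le_self_add, ?_, fun t => ?_⟩
    · have e : ∀ t, wt η t * (1 + N 4 (U t g) / N 4 g) =
          wt η t + wt η t * N 4 (U t g) * (N 4 g)⁻¹ := fun t => by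
        rw [mul_add, mul_one, div_eq_mul_inv, mul_assoc]
      simp only [e]
      have hmN : Measurable fun t => wt η t * N 4 (U t g) := hm.mul hN
      rw [lintegral_add_left hm, lintegral_mul_const _ hmN]
      refine add_le_add le_add_self ?_
      refine (mul_le_mul_left (h4 g hg) _).trans (le_of_eq ?_)
      rw [mul_assoc, ENNReal.mul_inv_cancel h0 hn, mul_one]
    · rw [show ((4 : ℝ) - 2) / 2 = 1 by norm_num, ENNReal.rpow_one, mul_assoc]
      calc N 4 (U t g) = 1 * (N 4 (U t g) / N 4 g * N 4 g) := by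
            rw [ENNReal.div_mul_cancel h0 hn, one_mul]
        _ ≤ _ := mul_le_mul' (le_self_add.trans le_self_add) (mul_le_mul_left le_add_self _)

theorem s_phiE (h_kmeas : S_kmeas) (h_L2 : S_L2) (h_w1 : S_w1) (h_w4 : S_w4) (h_zero : S_zero) :
    S_phiE := fun η hη =>
  ⟨phiE_two h_L2 h_w1 η hη, phiE_four h_kmeas h_w1 h_w4 h_zero η hη⟩

end Vale.Agent.P117
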