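import Vale.Agent.P117.Stm2

/-! The weight function for exponents strictly between two and four. -/

namespace Vale.Agent.P117

open MeasureTheory FourierTransform Set
open scoped ENNReal

theorem phiI_pt {p : ℝ} (hp : 2 < p) {C n P X φ : ℝ≥0∞} (h1 : 1 ≤ φ) (ht : φ ≠ ⊤)
    (hP : P ≤ φ * n) (h : ∀ c : ℝ, 0 < c →
      X ≤ C * (ENNReal.ofReal (c ^ (2 - p)) * n + ENNReal.ofReal (c ^ (4 - p)) * P)) :
    X ≤ 2 * C * φ ^ ((p - 2) / 2) * n := by
  have r0 : 0 < φ.toReal := ENNReal.toReal_pos (zero_lt_one.trans_le h1).ne' ht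
  have hφ : φ = ENNReal.ofReal φ.toReal := (ENNReal.ofReal_toReal ht).symm
  generalize φ.toReal = r at r0 hφ
  subst hφ
  have e1 : (r ^ (-(1 / 2) : ℝ)) ^ (2 - p) = r ^ ((p - 2) / 2) := by
    rw [← Real.rpow_mul r0.le]
    exact congrArg _ (by ring)
  have e2 : (r ^ (-(1 / 2) : ℝ)) ^ (4 - p) * r = r ^ ((p - 2) / 2) := by
    rw [← Real.rpow_mul r0.le, ← Real.rpow_add_one r0.ne']
    exact congrArg _ (by ring)
  refine (h _ (Real.rpow_pos_of_pos r0 (-(1 / 2)))).trans ?_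
  rw [ENNReal.ofReal_rpow_of_nonneg r0.le (by linarith), e1]
  have k : ENNReal.ofReal ((r ^ (-(1 / 2) : ℝ)) ^ (4 - p)) * P ≤
      ENNReal.ofReal (r ^ ((p - 2) / 2)) * n := by
    rw [← e2, ENNReal.ofReal_mul (by positivity), mul_assoc]
    exact mul_le_mul' le_rfl hP
  refine (mul_le_mul' le_rfl (add_le_add le_rfl k)).trans (le_of_eq ?_)
  ring

theorem s_phiI (h_w1 : S_w1) (h_zero : S_zero) (h_fix : S_fix) (h_Ph : S_Ph) : S_phiI := by
  intro η p hη h2 h4
  obtain ⟨C₁, c1, hC₁⟩ := h_fix p h2 h4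
  obtain ⟨C₂, c2, hC₂⟩ := h_Ph η p hη h2 h4
  obtain ⟨mw, iw⟩ := h_w1 η hη
  refine ⟨1 + 2 * C₁ + ((∫⁻ t, wt η t) + C₂), ?_, fun g hg => ?_⟩
  · exact ENNReal.add_ne_top.2 ⟨ENNReal.add_ne_top.2 ⟨ENNReal.one_ne_top,
      ENNReal.mul_ne_top ENNReal.ofNat_ne_top c1⟩, ENNReal.add_ne_top.2 ⟨iw, c2⟩⟩
  obtain ⟨nt, nz⟩ := h_zero p g (by linarith) hg
  obtain ⟨mP, iP⟩ := hC₂ g hg
  by_cases n0 : N p g = 0
  · refine ⟨fun _ => 1, measurable_const, fun _ => le_rfl, ?_, fun t => ?_⟩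
    · simp only [mul_one]
      exact le_add_left (le_add_right le_rfl)
    · rw [nz n0 t]
      exact zero_le
  refine ⟨fun t => 1 + Ph p g t / N p g, measurable_const.add (mP.div_const _),
    fun _ => le_add_right le_rfl, ?_, fun t => ?_⟩
  · simp only [mul_add, mul_one, div_eq_mul_inv, ← mul_assoc]
    rw [lintegral_add_left mw,
      lintegral_mul_const _ (f := fun a => wt η a * Ph p g a) (mw.mul mP)]
    refine le_add_left (add_le_add le_rfl ?_)
    refine (mul_le_mul' iP le_rfl).trans (le_of_eq ?_)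
    rw [mul_assoc, ENNReal.mul_inv_cancel n0 nt, mul_one]
  · beta_reduce
    by_cases ht : 1 + Ph p g t / N p g = ⊤
    · rw [ht, ENNReal.top_rpow_of_pos (by linarith), ENNReal.mul_top (by simp), ENNReal.top_mul n0]
      exact le_top
    · refine (phiI_pt h2 (le_add_right le_rfl) ht ?_ fun c hc => hC₁ t c g hc hg).trans ?_
      · rw [add_mul, ENNReal.div_mul_cancel n0 nt]
        exact le_add_left le_rfl
      · exact mul_le_mul' (mul_le_mul' (le_add_right (le_add_left le_rfl)) le_rfl) le_rfl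

end Vale.Agent.P117
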