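import Vale.Agent.P117.Stm2

namespace Vale.Agent.P117

open MeasureTheory FourierTransform Set
open scoped ENNReal

theorem s_zero : S_zero := by
  intro p g hp hg
  obtain ⟨hm, hi, M, hM⟩ := hg
  have hp0 : 0 < p := by linarith
  refine ⟨?_, fun h0 t => ?_⟩
  · have hb : ∀ y, ‖g y‖ₑ ^ p ≤ ENNReal.ofReal M ^ (p - 1) * ‖g y‖ₑ := by
      intro y
      have e : ‖g y‖ₑ ^ p = ‖g y‖ₑ ^ (p - 1) * ‖g y‖ₑ := by
        have e1 := ENNReal.rpow_add_of_nonneg (x := ‖g y‖ₑ) (p - 1) 1 (by linarith) zero_le_one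
        rwa [sub_add_cancel, ENNReal.rpow_one] at e1
      rw [e]
      refine mul_le_mul_left (ENNReal.rpow_le_rpow ?_ (by linarith)) _
      rw [← ofReal_norm_eq_enorm]
      exact ENNReal.ofReal_le_ofReal (hM y)
    have hc : ENNReal.ofReal M ^ (p - 1) ≠ ⊤ :=
      ENNReal.rpow_ne_top_of_nonneg (by linarith) ENNReal.ofReal_ne_top
    refine ne_top_of_le_ne_top ?_ (lintegral_mono hb)
    rw [lintegral_const_mul' _ _ hc]
    exact ENNReal.mul_ne_top hc hi.hasFiniteIntegral.ne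
  · have h1 := (lintegral_eq_zero_iff (hm.enorm.pow_const p)).1 h0
    have h2 : ∀ x, U t g x = 0 := by
      intro x
      refine integral_eq_zero_of_ae (h1.mono fun y hy => ?_)
      have hy' : ‖g y‖ₑ ^ p = 0 := hy
      have h3 : g y = 0 := by
        rcases ENNReal.rpow_eq_zero_iff.1 hy' with h | h
        · exact enorm_eq_zero.1 h.1
        · exact absurd h.1 enorm_ne_top
      simp [h3]
    simp [N, h2, ENNReal.zero_rpow_of_pos hp0]

end Vale.Agent.P117
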