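import Vale.Agent.P117.Main
import Vale.Agent.P117.TCheb1
import Vale.Agent.P117.TFin
import Vale.Agent.P117.TFix
import Vale.Agent.P117.THold2
import Vale.Agent.P117.TJm
import Vale.Agent.P117.TPh
import Vale.Agent.P117.TPhiE
import Vale.Agent.P117.TPhiI
import Vale.Agent.P117.TZero

namespace Vale.Agent.P117

theorem a_phi (η p : ℝ) (hη : 0 < η) (h2 : 2 ≤ p) (h4 : p ≤ 4) : Phi η p := by
  have hE := s_phiE a_kmeas a_L2 s_w1 a_w4 s_zero η hη
  rcases h2.eq_or_lt with rfl | h2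
  · exact hE.1
  rcases h4.eq_or_lt with rfl | h4
  · exact hE.2
  exact s_phiI s_w1 s_zero (s_fix a_kmeas a_L2 s_m2 s_cheb1 s_jm) (s_Ph s_jm s_w1 a_w4 s_m3)
    η p hη h2 h4

end Vale.Agent.P117
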