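import Vale.Agent.P117.Stm4

namespace Vale.Agent.P117

open MeasureTheory FourierTransform Set
open scoped ENNReal

theorem qdy_D (T : ℝ) : MeasurableSet (D T) ∧ volume (D T) ≠ ⊤ := by
  refine ⟨(measurableSet_le measurable_const measurable_abs).inter
    (measurableSet_le measurable_abs measurable_const), ?_⟩
  exact ne_top_of_le_ne_top (measure_Icc_lt_top (a := -(2 * T)) (b := 2 * T)).ne
    (measure_mono fun t ht => abs_le.1 ht.2)

theorem qdy_num {n : ℕ} {p η β C α T : ℝ} (hp : 1 ≤ p) (hn : n ≠ 0) (hC : 0 ≤ C) (hα : 0 ≤ α)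
    (hT : 1 ≤ T) (h : (n : ℝ) ≤ C * T ^ (η / 2)) :
    (n : ℝ≥0∞) ^ (p - 1) * n * ENNReal.ofReal ((α * T * T ^ (β + η / 2)) ^ p) ≤
      ENNReal.ofReal (C ^ p) * ENNReal.ofReal ((α * T * T ^ (β + η)) ^ p) := by
  have T0 : 0 < T := by linarith
  have e1 : (n : ℝ≥0∞) ^ (p - 1) * n = ENNReal.ofReal ((n : ℝ) ^ p) := by
    rw [← ENNReal.ofReal_rpow_of_nonneg n.cast_nonneg (by linarith), ENNReal.ofReal_natCast]
    conv_rhs => rw [← sub_add_cancel p 1, ENNReal.rpow_add _ _ (by exact_mod_cast hn)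
      (ENNReal.natCast_ne_top n), ENNReal.rpow_one]
  rw [e1, ← ENNReal.ofReal_mul (by positivity), ← ENNReal.ofReal_mul (by positivity),
    ← Real.mul_rpow (by positivity) (by positivity),
    ← Real.mul_rpow (by positivity) (by positivity)]
  refine ENNReal.ofReal_le_ofReal (Real.rpow_le_rpow (by positivity) ?_ (by linarith))
  refine (mul_le_mul_of_nonneg_right h (by positivity)).trans (le_of_eq ?_)
  conv_rhs => rw [← add_halves η, ← add_assoc, Real.rpow_add T0]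
  ring

theorem q_dy (h_vm : R_vm) (h_opm : R_opm) (h_piece : Q_piece) (h_tel : R_tel) (h_cnt : R_cnt) :
    Q_dy := by
  intro p η h1 h2 hη
  obtain ⟨C1, n1, k1⟩ := h_piece p (η / 2) h1 h2 (half_pos hη)
  obtain ⟨C2, c0, k2⟩ := h_cnt (η / 2) (half_pos hη)
  refine ⟨C1 * ENNReal.ofReal (C2 ^ p), ENNReal.mul_ne_top n1 ENNReal.ofReal_ne_top,
    fun a α T g ha hα hb hT hg => ?_⟩
  obtain ⟨K, b1, b2, b3⟩ := k2 T hT
  obtain ⟨c, hc⟩ : ∃ c : Fin (K + 1) → ℝ, c = fun k : Fin (K + 1) => (4 : ℝ) ^ (k : ℕ) :=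
    ⟨_, rfl⟩
  obtain ⟨θ, hθ⟩ : ∃ θ : Fin (K + 1) → ℝ,
      θ = fun k : Fin (K + 1) => if (k : ℕ) < K then (1 : ℝ) else 0 := ⟨_, rfl⟩
  have ad : ∀ k, Adm T (c k) (θ k) := fun k => by
    have hk : (k : ℕ) ≤ K := Nat.lt_succ_iff.1 k.2
    subst hc hθ
    refine ⟨one_le_pow₀ (by norm_num), (pow_le_pow_right₀ (by norm_num) hk).trans b1, ?_⟩
    by_cases h : (k : ℕ) < K
    · exact Or.inl (if_pos h)
    · exact Or.inr ⟨if_neg h, by simpa only [le_antisymm hk (not_lt.1 h)] using b2⟩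
  have t1 : ∀ k, |θ k| ≤ 1 := fun k => by
    rcases (ad k).2.2 with h | h
    · rw [h, abs_one]
    · rw [h.1, abs_zero]
      exact zero_le_one
  have e : ∀ x : E3, ∫ t in D T, a t * ∏ j, U t (g j) (x j) =
      ∑ κ : Fin 3 → Fin (K + 1), Op a T (fun j => c (κ j)) (fun j => θ (κ j)) g x := fun x => by
    unfold Op
    rw [← integral_finsetSum _ fun κ _ => ?_]
    · refine integral_congr_ae (ae_of_all _ fun t => ?_)
      simp only [fun j => h_tel K t (x j) (g j) (hg j).2.1, Finset.prod_univ_sum,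
        Fintype.piFinset_univ, Finset.mul_sum, hc, hθ]
    refine Measure.integrableOn_of_bounded (M := α * ∏ j, 2 * ∫ y, ‖g j y‖) (qdy_D T).2
      (ha.mul (Finset.measurable_prod _ fun j _ =>
        ((h_vm _ _ (ad _).1 (t1 _)).2.2.1 _ (hg j).1).comp
          (measurable_id.prodMk measurable_const))).aestronglyMeasurable
      (ae_restrict_of_forall_mem (qdy_D T).1 fun t ht => ?_)
    rw [norm_mul, norm_prod]
    exact mul_le_mul (hb t ht) (Finset.prod_le_prod (fun j _ => norm_nonneg _) fun j _ =>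
      (h_vm _ _ (ad _).1 (t1 _)).2.2.2.2.1 _ t _ (hg j).2.1)
      (Finset.prod_nonneg fun j _ => norm_nonneg _) hα
  have p1 : 1 ≤ p := by linarith
  have hn : (((Finset.univ : Finset (Fin 3 → Fin (K + 1))).card : ℕ) : ℝ) ≤ C2 * T ^ (η / 2) := by
    simpa using b3
  have n0 : (Finset.univ : Finset (Fin 3 → Fin (K + 1))).card ≠ 0 := by simp
  simp only [e]
  refine (lintegral_mono fun x => (ENNReal.rpow_le_rpow (enorm_sum_le _ _) (by linarith)).trans
    (ENNReal.rpow_sum_le_const_mul_sum_rpow _ _ p1)).trans ?_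
  rw [lintegral_const_mul' _ _ (ENNReal.rpow_ne_top_of_nonneg (by linarith)
    (ENNReal.natCast_ne_top _)), lintegral_finsetSum _ fun κ _ =>
      (h_opm a T _ _ g ha (fun j => (ad _).1) (fun j => t1 _) fun j => (hg j).1).enorm.pow_const p]
  refine (mul_le_mul_right (Finset.sum_le_sum fun κ _ =>
    k1 a α T _ _ g ha hα hb hT (fun j => ad _) hg) _).trans ?_
  rw [Finset.sum_const, nsmul_eq_mul]
  refine (le_of_eq ?_).trans ((mul_le_mul_right (qdy_num (β := 3 / p - 2) p1 n0 c0 hα hT hn)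
    (C1 * ∏ j, N p (g j))).trans (le_of_eq ?_)) <;> ring

end Vale.Agent.P117
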