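import Vale.Agent.P117.Stm4

/-! A Gaussian weighted Hölder inequality. -/

namespace Vale.Agent.P117

open MeasureTheory FourierTransform Set
open scoped ENNReal

theorem qhol_one : ∫⁻ ξ : ℝ, ENNReal.ofReal (Real.exp (-(Real.pi * ξ ^ 2))) = 1 := by
  simp_rw [← neg_mul]
  rw [← ofReal_integral_eq_lintegral_ofReal (integrable_exp_neg_mul_sq Real.pi_pos)
    (ae_of_all _ fun ξ => (Real.exp_pos _).le), integral_gaussian, div_self Real.pi_ne_zero,
    Real.sqrt_one, ENNReal.ofReal_one]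

theorem q_hol : Q_hol := by
  intro r h hr hm
  have r0 : 0 < r := by linarith
  have h1 : 0 ≤ 3 / r := by positivity
  have h2 : 3 / r ≤ 1 := (div_le_one r0).2 hr
  have mw : Measurable fun ξ : ℝ => ENNReal.ofReal (Real.exp (-(Real.pi * ξ ^ 2))) := by fun_prop
  have k := ENNReal.lintegral_mul_norm_pow_le (μ := volume) mw.aemeasurable
    (hm.enorm.pow_const r).aemeasurable (sub_nonneg.2 h2) h1 (sub_add_cancel _ _)
  rw [qhol_one, ENNReal.one_rpow, one_mul] at k
  refine le_trans (lintegral_mono fun ξ => ?_) k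
  have e : (‖h ξ‖ₑ ^ r) ^ (3 / r) = ‖h ξ‖ₑ ^ (3 : ℝ) := by
    rw [← ENNReal.rpow_mul, mul_div_cancel₀ _ r0.ne']
  have w1 : ENNReal.ofReal (Real.exp (-(Real.pi * ξ ^ 2))) ≤ 1 :=
    ENNReal.ofReal_le_one.2 (Real.exp_le_one_iff.2 (neg_nonpos.2 (by positivity)))
  have w2 := ENNReal.rpow_le_rpow_of_exponent_ge w1 (sub_le_self 1 h1)
  rw [ENNReal.rpow_one] at w2
  rw [e]
  exact mul_le_mul_left w2 _

end Vale.Agent.P117
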