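import Vale.Agent.P117.Stm4

/-! The near part of one piece for exponents below three halves. -/

namespace Vale.Agent.P117

open MeasureTheory FourierTransform Set
open scoped ENNReal

theorem qnear_one (p T A c : ℝ) (hp : 1 < p) (hT : 1 ≤ T) (hA : 1 ≤ A) (hc : 1 ≤ c) :
    (A * (5 * T / √c)) ^ (1 - p / 2) * (c ^ (1 / p - 1 / 2)) ^ (p / 2) =
      (5 * A) ^ (1 - p / 2) * T ^ (1 - p / 2) := by
  have hc0 : 0 < c := by linarith
  have hs : 0 < √c := Real.sqrt_pos.2 hc0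
  have e1 : (c ^ (1 / p - 1 / 2)) ^ (p / 2) = (√c) ^ (1 - p / 2) := by
    rw [Real.sqrt_eq_rpow, ← Real.rpow_mul hc0.le, ← Real.rpow_mul hc0.le]
    congr 1
    field_simp
  rw [e1, ← Real.mul_rpow (by positivity) hs.le, ← Real.mul_rpow (by positivity) (by positivity)]
  congr 1
  field_simp

theorem qnear_real (p α T A : ℝ) (c : Fin 3 → ℝ) (hp : 1 < p) (hα : 0 ≤ α) (hT : 1 ≤ T)
    (hA : 1 ≤ A) (hc : ∀ j, 1 ≤ c j) :
    (∏ j, A * (5 * T / √(c j))) ^ (1 - p / 2) *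
      (α ^ 2 * (4 * T) * ∏ j, c j ^ (1 / p - 1 / 2)) ^ (p / 2) ≤
      50 ^ p * (α * T * T ^ (3 / p - 2) * A ^ 2) ^ p := by
  have hT0 : 0 < T := by linarith
  have hA0 : 0 < A := by linarith
  have hp0 : 0 < p := by linarith
  have hc0 : ∀ j, 0 < c j := fun j => lt_of_lt_of_le one_pos (hc j)
  have n1 : ∀ j, 0 ≤ A * (5 * T / √(c j)) := fun j => by positivity
  have n2 : ∀ j, 0 ≤ c j ^ (1 / p - 1 / 2) := fun j => Real.rpow_nonneg (hc0 j).le _
  have e1 : (∏ j, A * (5 * T / √(c j))) ^ (1 - p / 2) *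
      (∏ j, c j ^ (1 / p - 1 / 2)) ^ (p / 2) =
      (5 * A) ^ ((1 - p / 2) * 3) * T ^ ((1 - p / 2) * 3) := by
    rw [← Real.finsetProd_rpow _ _ (fun j _ => n1 j), ← Real.finsetProd_rpow _ _ (fun j _ => n2 j),
      ← Finset.prod_mul_distrib,
      Finset.prod_congr rfl (fun j _ => qnear_one p T A (c j) hp hT hA (hc j)),
      Finset.prod_const, Finset.card_univ, Fintype.card_fin, mul_pow,
      Real.rpow_mul (by positivity), Real.rpow_mul hT0.le]
    norm_num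
  have e2 : (α ^ 2 * (4 * T)) ^ (p / 2) = 2 ^ p * α ^ p * T ^ (p / 2) := by
    have : α ^ 2 * (4 * T) = (2 * α) ^ (2 : ℝ) * T := by
      rw [Real.rpow_two]; ring
    rw [this, Real.mul_rpow (by positivity) hT0.le, ← Real.rpow_mul (by positivity),
      show (2 : ℝ) * (p / 2) = p by ring, Real.mul_rpow (by norm_num) hα]
  have e3 : (T * T ^ (3 / p - 2)) ^ p = T ^ ((1 - p / 2) * 3) * T ^ (p / 2) := by
    rw [Real.mul_rpow hT0.le (by positivity), ← Real.rpow_mul hT0.le, ← Real.rpow_add hT0,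
      ← Real.rpow_add hT0]
    congr 1
    field_simp
    ring
  have e4 : (5 * A) ^ ((1 - p / 2) * 3) ≤ 25 ^ p * (A ^ 2) ^ p := by
    rw [← Real.mul_rpow (by norm_num) (by positivity),
      show 25 * A ^ 2 = (5 * A) ^ (2 : ℝ) by rw [Real.rpow_two]; ring,
      ← Real.rpow_mul (by positivity)]
    exact Real.rpow_le_rpow_of_exponent_le (by linarith) (by linarith)
  have e5 : (50 : ℝ) ^ p = 2 ^ p * 25 ^ p := by
    rw [← Real.mul_rpow (by norm_num) (by norm_num)]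
    norm_num
  have e6 : (α * T * T ^ (3 / p - 2) * A ^ 2) ^ p =
      α ^ p * (T ^ ((1 - p / 2) * 3) * T ^ (p / 2)) * (A ^ 2) ^ p := by
    rw [mul_assoc α, Real.mul_rpow (by positivity) (by positivity),
      Real.mul_rpow hα (by positivity), e3]
  rw [Real.mul_rpow (by positivity) (Finset.prod_nonneg fun j _ => n2 j), e2, e5, e6]
  calc (∏ j, A * (5 * T / √(c j))) ^ (1 - p / 2) * (2 ^ p * α ^ p * T ^ (p / 2) *
        (∏ j, c j ^ (1 / p - 1 / 2)) ^ (p / 2))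
      = ((∏ j, A * (5 * T / √(c j))) ^ (1 - p / 2) * (∏ j, c j ^ (1 / p - 1 / 2)) ^ (p / 2)) *
        (2 ^ p * α ^ p * T ^ (p / 2)) := by ring
    _ = (5 * A) ^ ((1 - p / 2) * 3) *
        (T ^ ((1 - p / 2) * 3) * (2 ^ p * α ^ p * T ^ (p / 2))) := by rw [e1]; ring
    _ ≤ 25 ^ p * (A ^ 2) ^ p * (T ^ ((1 - p / 2) * 3) * (2 ^ p * α ^ p * T ^ (p / 2))) :=
        mul_le_mul_of_nonneg_right e4 (by positivity)
    _ = _ := by ring

theorem q_near (h_ip : R_ip) (h_L2 : R_L2) (h_tt : R_tt) (h_nu1 : Q_nu1) (h_nu0 : Q_nu0) :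
    Q_near := by
  intro p hp hp2
  obtain ⟨C₁, hC₁, H₁⟩ := h_nu1 p hp hp2
  obtain ⟨C₂, hC₂, H₂⟩ := h_nu0 p hp hp2
  have hp0 : 0 < p := by linarith
  have hq : 0 ≤ p / 2 := by linarith
  have hC : C₁ + C₂ ≠ ⊤ := ENNReal.add_ne_top.2 ⟨hC₁, hC₂⟩
  refine ⟨((C₁ + C₂) ^ 3) ^ (p / 2) * ENNReal.ofReal (50 ^ p),
    ENNReal.mul_ne_top (ENNReal.rpow_ne_top_of_nonneg hq (ENNReal.pow_ne_top hC))
      ENNReal.ofReal_ne_top, ?_⟩
  intro a α T A c θ g ha hα haα hT hA hadm hg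
  have hT0 : 0 < T := by linarith
  have hc : ∀ j, 1 ≤ c j := fun j => (hadm j).1
  have hθ : ∀ j, |θ j| ≤ 1 := fun j => by
    rcases (hadm j).2.2 with h | ⟨h, -⟩ <;> rw [h] <;> norm_num
  have n2 : ∀ j, 0 ≤ c j ^ (1 / p - 1 / 2) := fun j =>
    Real.rpow_nonneg (le_trans zero_le_one (hc j)) _
  have hI : ∀ j, I3 T (nu (c j) (θ j) (g j)) ≤
      (C₁ + C₂) * ENNReal.ofReal (c j ^ (1 / p - 1 / 2)) * N p (g j) ^ (2 / p) := by
    intro j
    rcases (hadm j).2.2 with h | ⟨h, h4⟩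
    · rw [h]
      exact (H₁ T (c j) (g j) hT (hc j) (hg j)).trans
        (mul_le_mul_left (mul_le_mul_left le_self_add _) _)
    · rw [h]
      exact (H₂ T (c j) (g j) hT (hc j) h4 (hg j)).trans
        (mul_le_mul_left (mul_le_mul_left le_add_self _) _)
  have h1 := h_L2 a α T c θ g ha hα haα hT hc hθ hg
  have h2 := h_tt T (fun j => nu (c j) (θ j) (g j)) hT
    (fun j => (h_ip (c j) (θ j) (g j) (hc j) (hθ j) (hg j)).2.1.measurable)
  simp only [lintegral_const_mul' _ _ ENNReal.ofReal_ne_top] at h1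
  have h3 : ∫⁻ x, ‖Op a T c θ g x‖ₑ ^ (2 : ℝ) ≤
      ENNReal.ofReal (α ^ 2 * (4 * T) * ∏ j, c j ^ (1 / p - 1 / 2)) *
        ((C₁ + C₂) ^ 3 * ∏ j, N p (g j) ^ (2 / p)) := by
    refine h1.trans ((mul_le_mul_right (h2.trans (mul_le_mul_right
      (Finset.prod_le_prod' fun j _ => hI j) _)) _).trans (le_of_eq ?_))
    rw [Finset.prod_mul_distrib, Finset.prod_mul_distrib, Finset.prod_const, Finset.card_univ,
      Fintype.card_fin, ENNReal.ofReal_mul (by positivity : 0 ≤ α ^ 2 * (4 * T)),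
      ENNReal.ofReal_mul (by positivity : 0 ≤ α ^ 2),
      ENNReal.ofReal_prod_of_nonneg (fun j _ => n2 j)]
    ring
  have h4 : (∏ j, N p (g j) ^ (2 / p)) ^ (p / 2) = ∏ j, N p (g j) := by
    rw [← ENNReal.prod_rpow_of_nonneg hq]
    refine Finset.prod_congr rfl fun j _ => ?_
    rw [← ENNReal.rpow_mul, show 2 / p * (p / 2) = 1 by field_simp, ENNReal.rpow_one]
  have n3 : 0 ≤ α ^ 2 * (4 * T) * ∏ j, c j ^ (1 / p - 1 / 2) :=
    mul_nonneg (by positivity) (Finset.prod_nonneg fun j _ => n2 j)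
  have n4 : 0 ≤ (∏ j, A * (5 * T / √(c j))) ^ (1 - p / 2) :=
    Real.rpow_nonneg (Finset.prod_nonneg fun j _ => by positivity) _
  have h5 := ENNReal.rpow_le_rpow h3 hq
  rw [ENNReal.mul_rpow_of_nonneg _ _ hq, ENNReal.mul_rpow_of_nonneg _ _ hq, h4,
    ENNReal.ofReal_rpow_of_nonneg n3 hq] at h5
  have h6 := ENNReal.ofReal_le_ofReal (qnear_real p α T A c hp hα hT hA hc)
  rw [ENNReal.ofReal_mul n4, ENNReal.ofReal_mul (by positivity : (0 : ℝ) ≤ 50 ^ p)] at h6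
  refine (mul_le_mul_right h5 _).trans ?_
  rw [← mul_assoc]
  refine (mul_le_mul_left h6 _).trans (le_of_eq ?_)
  ring

end Vale.Agent.P117
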