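import Vale.Agent.P117.Stm3

namespace Vale.Agent.P117

open MeasureTheory FourierTransform Set
open scoped ENNReal

theorem rnu0_pt (c τ : ℝ) (g : ℝ → ℂ) : ‖nu c 0 g τ‖ₑ ≤
    ∫⁻ ξ : ℝ, ENNReal.ofReal (Real.exp (-(2 * Real.pi * c) * ξ ^ 2)) * ‖𝓕 g ξ‖ₑ ^ (2 : ℝ) := by
  unfold nu
  refine (enorm_integral_le_lintegral_enorm _).trans (le_of_eq (lintegral_congr fun ξ => ?_))
  have h1 : (-(2 * Real.pi * Complex.I * τ * (ξ : ℂ) ^ 2) : ℂ) =
      ((-(2 * Real.pi * τ * ξ ^ 2) : ℝ) : ℂ) * Complex.I := by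
    push_cast; ring
  have h2 : (ps c 0 ξ * ‖𝓕 g ξ‖) ^ 2 =
      Real.exp (-(2 * Real.pi * c) * ξ ^ 2) * ‖𝓕 g ξ‖ ^ (2 : ℝ) := by
    unfold ps
    rw [zero_mul, sub_zero, mul_pow, ← Real.exp_nat_mul, Real.rpow_two]
    congr 2
    push_cast; ring
  rw [← ofReal_norm, norm_mul, h1, Complex.norm_exp_ofReal_mul_I, mul_one, Complex.norm_real,
    Real.norm_of_nonneg (sq_nonneg _), h2, ENNReal.ofReal_mul (Real.exp_pos _).le,
    ← ENNReal.ofReal_rpow_of_nonneg (norm_nonneg _) (by norm_num), ofReal_norm]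

theorem rnu0_gauss (c r : ℝ) (hc : 1 ≤ c) (hr : 1 ≤ r) :
    ∫⁻ ξ : ℝ, ENNReal.ofReal (Real.exp (-(2 * Real.pi * c) * ξ ^ 2)) ^ r ≤
      ENNReal.ofReal (c ^ (-(1 / 2) : ℝ)) := by
  have pi0 := Real.pi_pos
  have hb : 0 < 2 * Real.pi * c * r := by positivity
  have h1 : ∀ ξ : ℝ, ENNReal.ofReal (Real.exp (-(2 * Real.pi * c) * ξ ^ 2)) ^ r =
      ENNReal.ofReal (Real.exp (-(2 * Real.pi * c * r) * ξ ^ 2)) := by
    intro ξ
    rw [ENNReal.ofReal_rpow_of_nonneg (Real.exp_pos _).le (by linarith), ← Real.exp_mul]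
    congr 2
    ring
  simp_rw [h1]
  rw [← ofReal_integral_eq_lintegral_ofReal (integrable_exp_neg_mul_sq hb)
    (Filter.Eventually.of_forall fun ξ => (Real.exp_pos _).le), integral_gaussian]
  apply ENNReal.ofReal_le_ofReal
  rw [Real.rpow_neg (by linarith), ← Real.sqrt_eq_rpow, ← Real.sqrt_inv]
  apply Real.sqrt_le_sqrt
  rw [div_le_iff₀ hb]
  have h2 : c⁻¹ * (2 * Real.pi * c * r) = 2 * Real.pi * r := by field_simp
  rw [h2]
  nlinarith

theorem rnu0_I3 (T : ℝ) (h : ℝ → ℂ) (S : ℝ≥0∞) (hT : 0 ≤ T) (hS : ∀ τ, ‖h τ‖ₑ ≤ S) :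
    I3 T h ≤ ENNReal.ofReal ((8 * T) ^ (1 / 3 : ℝ)) * S := by
  unfold I3
  have h1 : ∫⁻ τ in Icc (-(4 * T)) (4 * T), ‖h τ‖ₑ ^ (3 : ℝ) ≤
      ENNReal.ofReal (8 * T) * S ^ (3 : ℝ) := by
    refine (lintegral_mono fun τ => ENNReal.rpow_le_rpow (hS τ) (by norm_num)).trans ?_
    rw [setLIntegral_const, Real.volume_Icc, mul_comm, show 4 * T - -(4 * T) = 8 * T by ring]
  refine (ENNReal.rpow_le_rpow h1 (by norm_num)).trans (le_of_eq ?_)
  rw [ENNReal.mul_rpow_of_nonneg _ _ (by norm_num), ← ENNReal.rpow_mul,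
    ENNReal.ofReal_rpow_of_nonneg (by positivity) (by norm_num)]
  norm_num

theorem rnu0_num (T c σ : ℝ) (hT : 1 ≤ T) (hc : 1 ≤ c) (hTc : T ≤ 4 * c) (h0 : 0 ≤ σ)
    (h1 : σ ≤ 1 / 2) :
    (8 * T) ^ (1 / 3 : ℝ) * c ^ (-σ) ≤ 8 * (T ^ (1 / 3 - 2 * σ) * c ^ σ) := by
  have T0 : 0 < T := by linarith
  have c0 : 0 < c := by linarith
  have e8 : (8 : ℝ) ^ (1 / 3 : ℝ) = 2 := by
    rw [show (8 : ℝ) = 2 ^ (3 : ℝ) by norm_num, ← Real.rpow_mul (by norm_num)]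
    norm_num
  have e1 : T ^ (1 / 3 : ℝ) = T ^ (1 / 3 - 2 * σ) * T ^ (2 * σ) := by
    rw [← Real.rpow_add T0]
    congr 1
    ring
  have e2 : T ^ (2 * σ) ≤ 4 * c ^ (2 * σ) := by
    refine (Real.rpow_le_rpow T0.le hTc (by linarith)).trans ?_
    rw [Real.mul_rpow (by norm_num) c0.le]
    refine mul_le_mul_of_nonneg_right ?_ (Real.rpow_nonneg c0.le _)
    have := Real.rpow_le_rpow_of_exponent_le (show (1 : ℝ) ≤ 4 by norm_num)
      (show 2 * σ ≤ 1 by linarith)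
    rwa [Real.rpow_one] at this
  have e3 : c ^ (2 * σ) * c ^ (-σ) = c ^ σ := by
    rw [← Real.rpow_add c0]
    congr 1
    ring
  rw [Real.mul_rpow (by norm_num) T0.le, e8, e1, ← e3]
  have a1 := Real.rpow_nonneg T0.le (1 / 3 - 2 * σ)
  have a2 := Real.rpow_nonneg c0.le (-σ)
  have a3 := mul_le_mul_of_nonneg_left e2 (mul_nonneg a1 a2)
  nlinarith

theorem r_nu0 (h_hy : R_hy) : R_nu0 := by
  intro p hp1 hp2
  have p0 : 0 < p := by linarith
  have p1 : 0 < p - 1 := by linarith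
  have p2 : 0 < 2 - p := by linarith
  obtain ⟨C, hC, hH⟩ := h_hy p (by linarith) hp2
  have hq0 : 0 < p / (2 * (p - 1)) := by positivity
  have hr1 : 1 < p / (2 - p) := by rw [one_lt_div p2]; linarith
  have hconj : (p / (2 - p)).HolderConjugate (p / (2 * (p - 1))) := by
    rw [Real.holderConjugate_iff]
    refine ⟨hr1, ?_⟩
    field_simp
    ring
  refine ⟨8 * C ^ (1 / (p / (2 * (p - 1)))), ENNReal.mul_ne_top (by norm_num)
    (ENNReal.rpow_ne_top_of_nonneg (by positivity) hC), fun T c g hT hc hTc hg => ?_⟩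
  have c0 : 0 < c := by linarith
  have hF : Continuous (𝓕 g) :=
    VectorFourier.fourierIntegral_continuous Real.continuous_fourierChar continuous_inner hg.2.1
  have hS : ∀ τ, ‖nu c 0 g τ‖ₑ ≤ ENNReal.ofReal (c ^ (-(1 / p - 1 / 2))) *
      (C ^ (1 / (p / (2 * (p - 1)))) * N p g ^ (2 / p)) := by
    intro τ
    refine (rnu0_pt c τ g).trans ?_
    have m1 : Measurable fun ξ : ℝ =>
        ENNReal.ofReal (Real.exp (-(2 * Real.pi * c) * ξ ^ 2)) := by fun_prop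
    have m2 : Measurable fun ξ : ℝ => ‖𝓕 g ξ‖ₑ ^ (2 : ℝ) := hF.measurable.enorm.pow_const _
    refine (ENNReal.lintegral_mul_le_Lp_mul_Lq volume hconj m1.aemeasurable
      m2.aemeasurable).trans (mul_le_mul' ?_ ?_)
    · refine (ENNReal.rpow_le_rpow (rnu0_gauss c _ hc hr1.le) (by positivity)).trans
        (le_of_eq ?_)
      rw [ENNReal.ofReal_rpow_of_nonneg (Real.rpow_nonneg c0.le _) (by positivity),
        ← Real.rpow_mul c0.le]
      congr 2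
      field_simp
    · have h1 : ∫⁻ ξ : ℝ, (‖𝓕 g ξ‖ₑ ^ (2 : ℝ)) ^ (p / (2 * (p - 1))) =
          N (p / (p - 1)) (𝓕 g) := by
        unfold N
        refine lintegral_congr fun ξ => ?_
        rw [← ENNReal.rpow_mul]
        congr 1
        field_simp
      rw [h1]
      refine (ENNReal.rpow_le_rpow (hH g hg.1 hg.2.1) (by positivity)).trans (le_of_eq ?_)
      rw [ENNReal.mul_rpow_of_nonneg _ _ (by positivity), ← ENNReal.rpow_mul]
      congr 2
      field_simp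
  refine (rnu0_I3 T _ _ (by linarith) hS).trans ?_
  have s0 : 0 ≤ 1 / p - 1 / 2 := by
    rw [sub_nonneg]
    exact one_div_le_one_div_of_le p0 hp2.le
  have s1 : 1 / p - 1 / 2 ≤ 1 / 2 := by
    have : 1 / p ≤ 1 := by rw [div_le_one p0]; linarith
    linarith
  have hn := ENNReal.ofReal_le_ofReal (rnu0_num T c _ hT hc hTc s0 s1)
  rw [ENNReal.ofReal_mul (by positivity), ENNReal.ofReal_mul (by norm_num : (0 : ℝ) ≤ 8),
    ENNReal.ofReal_ofNat] at hn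
  rw [← mul_assoc]
  refine (mul_le_mul' hn le_rfl).trans (le_of_eq ?_)
  ring

end Vale.Agent.P117
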