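import Vale.Agent.P117.Stm4
import Vale.Agent.P117.RNu0

namespace Vale.Agent.P117

open MeasureTheory FourierTransform Set
open scoped ENNReal

theorem qnu0_num (T c σ : ℝ) (hT : 1 ≤ T) (hc : 1 ≤ c) (hTc : T ≤ 4 * c) (h0 : 1 / 6 ≤ σ) :
    (8 * T) ^ (1 / 3 : ℝ) * c ^ (-σ) ≤ 8 * c ^ σ := by
  have c0 : 0 < c := by linarith
  have e8 : (512 : ℝ) ^ (1 / 3 : ℝ) = 8 := by
    rw [show (512 : ℝ) = 8 ^ (3 : ℝ) by norm_num, ← Real.rpow_mul (by norm_num)]
    norm_num
  have e1 : (8 * T) ^ (1 / 3 : ℝ) ≤ 8 * c ^ (1 / 3 : ℝ) := by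
    refine (Real.rpow_le_rpow (by linarith) (show 8 * T ≤ 512 * c by linarith)
      (by norm_num)).trans (le_of_eq ?_)
    rw [Real.mul_rpow (by norm_num) c0.le, e8]
  have e2 : c ^ (1 / 3 : ℝ) * c ^ (-σ) ≤ c ^ σ := by
    rw [← Real.rpow_add c0]
    exact Real.rpow_le_rpow_of_exponent_le hc (by linarith)
  have a3 := mul_le_mul_of_nonneg_right e1 (Real.rpow_nonneg c0.le (-σ))
  linarith

theorem q_nu0 (h_hy : R_hy) : Q_nu0 := by
  intro p hp1 hp3
  have hp2 : p < 2 := by linarith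
  have p0 : 0 < p := by linarith
  have p1 : 0 < p - 1 := by linarith
  have p2 : 0 < 2 - p := by linarith
  obtain ⟨C, hC, hH⟩ := h_hy p hp1 hp2
  have hq0 : 0 < p / (2 * (p - 1)) := by positivity
  have hr1 : 1 < p / (2 - p) := by rw [one_lt_div p2]; linarith
  have hconj : (p / (2 - p)).HolderConjugate (p / (2 * (p - 1))) := by
    rw [Real.holderConjugate_iff]
    refine ⟨hr1, ?_⟩
    field_simp
    ring
  refine ⟨8 * C ^ (1 / (p / (2 * (p - 1)))), ENNReal.mul_ne_top (by norm_num)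
    (ENNReal.rpow_ne_top_of_nonneg (by positivity) hC), fun T c g hT hc hTc hg => ?_⟩
  have c0 : 0 < c := by linarith
  have hF : Continuous (𝓕 g) :=
    VectorFourier.fourierIntegral_continuous Real.continuous_fourierChar continuous_inner hg.2.1
  have hS : ∀ τ, ‖nu c 0 g τ‖ₑ ≤ ENNReal.ofReal (c ^ (-(1 / p - 1 / 2))) *
      (C ^ (1 / (p / (2 * (p - 1)))) * N p g ^ (2 / p)) := by
    intro τ
    refine (rnu0_pt c τ g).trans ?_
    have m1 : Measurable fun ξ : ℝ =>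
        ENNReal.ofReal (Real.exp (-(2 * Real.pi * c) * ξ ^ 2)) := by fun_prop
    have m2 : Measurable fun ξ : ℝ => ‖𝓕 g ξ‖ₑ ^ (2 : ℝ) := hF.measurable.enorm.pow_const _
    refine (ENNReal.lintegral_mul_le_Lp_mul_Lq volume hconj m1.aemeasurable
      m2.aemeasurable).trans (mul_le_mul' ?_ ?_)
    · refine (ENNReal.rpow_le_rpow (rnu0_gauss c _ hc hr1.le) (by positivity)).trans
        (le_of_eq ?_)
      rw [ENNReal.ofReal_rpow_of_nonneg (Real.rpow_nonneg c0.le _) (by positivity),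
        ← Real.rpow_mul c0.le]
      congr 2
      field_simp
    · have h1 : ∫⁻ ξ : ℝ, (‖𝓕 g ξ‖ₑ ^ (2 : ℝ)) ^ (p / (2 * (p - 1))) =
          N (p / (p - 1)) (𝓕 g) := by
        unfold N
        refine lintegral_congr fun ξ => ?_
        rw [← ENNReal.rpow_mul]
        congr 1
        field_simp
      rw [h1]
      refine (ENNReal.rpow_le_rpow (hH g hg.1 hg.2.1) (by positivity)).trans (le_of_eq ?_)
      rw [ENNReal.mul_rpow_of_nonneg _ _ (by positivity), ← ENNReal.rpow_mul]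
      congr 2
      field_simp
  refine (rnu0_I3 T _ _ (by linarith) hS).trans ?_
  have s0 : 1 / 6 ≤ 1 / p - 1 / 2 := by
    have : 2 / 3 ≤ 1 / p := by
      rw [div_le_div_iff₀ (by norm_num) p0]
      linarith
    linarith
  have hn := ENNReal.ofReal_le_ofReal (qnu0_num T c _ hT hc hTc s0)
  rw [ENNReal.ofReal_mul (by positivity), ENNReal.ofReal_mul (by norm_num : (0 : ℝ) ≤ 8),
    ENNReal.ofReal_ofNat] at hn
  rw [← mul_assoc]
  refine (mul_le_mul' hn le_rfl).trans (le_of_eq ?_)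
  ring

end Vale.Agent.P117
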