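import Vale.Agent.P117.Stm4

/-! The bound for the kernel of a band limited piece, exponents below three halves. -/

namespace Vale.Agent.P117

open MeasureTheory FourierTransform Set
open scoped ENNReal

theorem qnu1_cont {f : ℝ → ℂ} (hf : Integrable f) : Continuous (𝓕 f) :=
  VectorFourier.fourierIntegral_continuous Real.continuous_fourierChar continuous_inner hf

theorem qnu1_bd (f : ℝ → ℂ) (ξ : ℝ) : ‖𝓕 f ξ‖ ≤ ∫ y, ‖f y‖ :=
  VectorFourier.norm_fourierIntegral_le_integral_norm _ _ _ _ _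

theorem qnu1_ps {c : ℝ} (hc : 0 < c) (ξ : ℝ) : 0 ≤ ps c 1 ξ ∧
    ps c 1 ξ ≤ Real.exp (-(Real.pi * c) * ξ ^ 2) ∧ ps c 1 ξ ≤ 1 := by
  have h0 : 0 ≤ Real.pi * c * ξ ^ 2 := mul_nonneg (mul_pos Real.pi_pos hc).le (sq_nonneg _)
  have p2 : ps c 1 ξ ≤ Real.exp (-(Real.pi * c) * ξ ^ 2) := by
    unfold ps
    rw [neg_mul, one_mul]
    exact sub_le_self _ (Real.exp_pos _).le
  refine ⟨?_, p2, p2.trans (Real.exp_le_one_iff.2 (by linarith))⟩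
  unfold ps
  rw [one_mul, sub_nonneg]
  exact Real.exp_le_exp.2 (by linarith)

theorem qnu1_F {c : ℝ} (hc : 0 < c) {g : ℝ → ℂ} (hg : Integrable g) :
    Measurable (fun ξ => (ps c 1 ξ * ‖𝓕 g ξ‖) ^ 2) ∧
      Integrable (fun ξ => (ps c 1 ξ * ‖𝓕 g ξ‖) ^ 2) := by
  have k : Continuous fun ξ => (ps c 1 ξ * ‖𝓕 g ξ‖) ^ 2 := by
    have := qnu1_cont hg
    unfold ps
    fun_prop
  refine ⟨k.measurable, Integrable.mono' ((integrable_exp_neg_mul_sq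
    (mul_pos Real.pi_pos hc)).mul_const ((∫ y, ‖g y‖) ^ 2)) k.aestronglyMeasurable
    (Filter.Eventually.of_forall fun ξ => ?_)⟩
  obtain ⟨p0, p2, p1⟩ := qnu1_ps hc ξ
  rw [Real.norm_of_nonneg (sq_nonneg _), mul_pow]
  refine mul_le_mul (le_trans ?_ p2) (pow_le_pow_left₀ (norm_nonneg _) (qnu1_bd g ξ) 2)
    (sq_nonneg _) (Real.exp_pos _).le
  nlinarith

theorem q_nu1 (h_hy : R_hy) (h_push1 : R_push1) (h_push2 : R_push2) (h_ps : Q_ps)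
    (h_hol : Q_hol) : Q_nu1 := by
  intro p p1 p2
  have a : 0 < p - 1 := by linarith
  have a0 : 0 < p := by linarith
  have r3 : 3 ≤ p / (p - 1) := by
    rw [le_div_iff₀ a]
    linarith
  have i1 : 0 ≤ 3 / (p / (p - 1)) := by positivity
  have i2 : (0 : ℝ) ≤ 2 / 3 := by norm_num
  have i3 : (0 : ℝ) ≤ 1 / 3 := by norm_num
  have e3 : 1 / (p - 1) * (3 / (p / (p - 1))) * (2 / 3) = 2 / p := by field_simp
  have e4 : (1 / 4 : ℝ) * (2 / 3) ≤ 1 / p - 1 / 2 := by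
    have : (2 / 3 : ℝ) ≤ 1 / p := by
      rw [le_div_iff₀ a0]
      linarith
    linarith
  obtain ⟨C₁, c1, h1⟩ := h_hy (3 / 2) (by norm_num) (by norm_num)
  rw [show (3 / 2 : ℝ) / (3 / 2 - 1) = 3 by norm_num,
    show (1 : ℝ) / (3 / 2 - 1) = 2 by norm_num] at h1
  obtain ⟨C₂, c2, h2⟩ := h_hy p p1 (by linarith)
  refine ⟨C₁ ^ (1 / 3 : ℝ) * ENNReal.ofReal 1000 ^ (2 / 3 : ℝ) *
    (C₂ ^ (3 / (p / (p - 1)))) ^ (2 / 3 : ℝ), ENNReal.mul_ne_top (ENNReal.mul_ne_top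
    (ENNReal.rpow_ne_top_of_nonneg i3 c1) (ENNReal.rpow_ne_top_of_nonneg i2
    ENNReal.ofReal_ne_top)) (ENNReal.rpow_ne_top_of_nonneg i2
    (ENNReal.rpow_ne_top_of_nonneg i1 c2)), fun T c g hT hc hg => ?_⟩
  have c0 : 0 < c := by linarith
  obtain ⟨mF, iF⟩ := qnu1_F c0 hg.2.1
  obtain ⟨mG, iG, eG⟩ := h_push1 _ mF iF
  have en : nu c 1 g = 𝓕 (Gp fun ξ => (ps c 1 ξ * ‖𝓕 g ξ‖) ^ 2) := funext fun τ => eG τ
  have s0 := (h_hol _ (𝓕 g) r3 (qnu1_cont hg.2.1).measurable).trans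
    (ENNReal.rpow_le_rpow (h2 g hg.1 hg.2.1) i1)
  have s1 : N (3 / 2) (Gp fun ξ => (ps c 1 ξ * ‖𝓕 g ξ‖) ^ 2) ≤
      ENNReal.ofReal 1000 * ENNReal.ofReal (c ^ (1 / 4 : ℝ)) *
        (C₂ * N p g ^ (1 / (p - 1))) ^ (3 / (p / (p - 1))) := by
    refine (h_push2 _ (3 / 2) mF (fun _ => sq_nonneg _) (by norm_num)).trans (le_trans ?_
      (mul_le_mul_right s0 _))
    rw [← ENNReal.ofReal_mul (by norm_num), ← lintegral_const_mul' _ _ ENNReal.ofReal_ne_top]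
    refine lintegral_mono fun ξ => ?_
    obtain ⟨p0, -, -⟩ := qnu1_ps c0 ξ
    rw [← ofReal_norm, ENNReal.ofReal_rpow_of_nonneg (norm_nonneg _) (by norm_num),
      ← ENNReal.ofReal_mul (Real.exp_pos _).le, ← ENNReal.ofReal_mul (by positivity)]
    refine ENNReal.ofReal_le_ofReal ?_
    rw [← Real.rpow_two, ← Real.rpow_mul (mul_nonneg p0 (norm_nonneg _)),
      show (2 : ℝ) * (3 / 2) = 3 by norm_num,
      Real.mul_rpow p0 (norm_nonneg _), mul_right_comm, ← mul_assoc]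
    exact mul_le_mul_of_nonneg_right (h_ps c ξ hc) (by positivity)
  have s2 := (h1 _ mG iG).trans (mul_le_mul_right (ENNReal.rpow_le_rpow s1
    (show (0 : ℝ) ≤ 2 by norm_num)) C₁)
  have s3 : I3 T (nu c 1 g) ≤ N 3 (nu c 1 g) ^ (1 / 3 : ℝ) :=
    ENNReal.rpow_le_rpow (setLIntegral_le_lintegral _ _) i3
  have s4 : ENNReal.ofReal (c ^ (1 / 4 : ℝ)) ^ (2 / 3 : ℝ) ≤
      ENNReal.ofReal (c ^ (1 / p - 1 / 2)) := by
    rw [ENNReal.ofReal_rpow_of_nonneg (by positivity) i2, ← Real.rpow_mul c0.le]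
    exact ENNReal.ofReal_le_ofReal (Real.rpow_le_rpow_of_exponent_le hc e4)
  refine s3.trans ?_
  rw [en]
  refine (ENNReal.rpow_le_rpow s2 i3).trans ?_
  rw [ENNReal.mul_rpow_of_nonneg _ _ i3, ← ENNReal.rpow_mul,
    show (2 : ℝ) * (1 / 3) = 2 / 3 by norm_num,
    ENNReal.mul_rpow_of_nonneg _ _ i2, ENNReal.mul_rpow_of_nonneg _ _ i2,
    ENNReal.mul_rpow_of_nonneg _ _ i1, ENNReal.mul_rpow_of_nonneg _ _ i2,
    ← ENNReal.rpow_mul (N p g), ← ENNReal.rpow_mul (N p g), e3]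
  calc _ = C₁ ^ (1 / 3 : ℝ) * ENNReal.ofReal 1000 ^ (2 / 3 : ℝ) *
        (C₂ ^ (3 / (p / (p - 1)))) ^ (2 / 3 : ℝ) *
        ENNReal.ofReal (c ^ (1 / 4 : ℝ)) ^ (2 / 3 : ℝ) * N p g ^ (2 / p) := by ring
    _ ≤ _ := mul_le_mul_left (mul_le_mul_right s4 _) _

end Vale.Agent.P117
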