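import Vale.Agent.P117.Stm4
import Vale.Agent.P117.SBlk

namespace Vale.Agent.P117

open MeasureTheory FourierTransform Set
open scoped ENNReal

theorem qpiece_exp {η T : ℝ} (hη : 0 < η) (hT : 1 ≤ T) :
    T ^ 3 * Real.exp (-T ^ (η / 2)) ≤ (Nat.factorial ⌈6 / η⌉₊ : ℝ) := by
  have hT0 : 0 < T := by linarith
  have h1 := Real.pow_div_factorial_le_exp (T ^ (η / 2)) (by positivity) ⌈6 / η⌉₊
  have h2 : T ^ 3 ≤ (T ^ (η / 2)) ^ ⌈6 / η⌉₊ := by
    rw [← Real.rpow_natCast, ← Real.rpow_natCast, ← Real.rpow_mul hT0.le]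
    refine Real.rpow_le_rpow_of_exponent_le hT ?_
    have h3 := Nat.le_ceil (6 / η)
    rw [div_le_iff₀ hη] at h3
    push_cast
    linarith
  have h4 : (0 : ℝ) < Nat.factorial ⌈6 / η⌉₊ := by exact_mod_cast Nat.factorial_pos _
  rw [div_le_iff₀ h4] at h1
  rw [Real.exp_neg, ← div_eq_mul_inv, div_le_iff₀ (Real.exp_pos _), mul_comm]
  exact h2.trans h1

theorem qpiece_far {p η α T : ℝ} (hp : 1 < p) (hp2 : p ≤ 3 / 2) (hη : 0 < η) (hα : 0 ≤ α)
    (hT : 1 ≤ T) :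
    ENNReal.ofReal α ^ p * ENNReal.ofReal ((24000 * T ^ 4 * Real.exp (-T ^ (η / 2))) ^ p) ≤
      ENNReal.ofReal ((24000 * (Nat.factorial ⌈6 / η⌉₊ : ℝ)) ^ p) *
        ENNReal.ofReal ((α * T * T ^ (3 / p - 2 + η)) ^ p) := by
  have hT0 : 0 < T := by linarith
  have hp0 : 0 < p := by linarith
  rw [ENNReal.ofReal_rpow_of_nonneg hα hp0.le, ← ENNReal.ofReal_mul (by positivity),
    ← ENNReal.ofReal_mul (by positivity), ← Real.mul_rpow hα (by positivity),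
    ← Real.mul_rpow (by positivity) (by positivity)]
  refine ENNReal.ofReal_le_ofReal (Real.rpow_le_rpow (by positivity) ?_ hp0.le)
  have h1 : 1 ≤ T ^ (3 / p - 2 + η) := by
    refine Real.one_le_rpow hT ?_
    have : 2 ≤ 3 / p := by
      rw [le_div_iff₀ hp0]
      linarith
    linarith
  have h2 := qpiece_exp hη hT
  calc α * (24000 * T ^ 4 * Real.exp (-T ^ (η / 2)))
      = 24000 * (T ^ 3 * Real.exp (-T ^ (η / 2))) * (α * T * 1) := by ring
    _ ≤ _ := by gcongr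

theorem q_piece (h_split : R_split) (h_rest : R_rest) (h_box : R_box) (h_ovl : R_ovl)
    (h_near : Q_near) (h_opm : R_opm) : Q_piece := by
  intro p η hp hp2 hη
  have hp0 : 0 < p := by linarith
  obtain ⟨C, hC, hn⟩ := h_near p hp hp2
  have h2t : (2 : ℝ≥0∞) ^ (p - 1) ≠ ⊤ :=
    ENNReal.rpow_ne_top_of_nonneg (by linarith) ENNReal.ofNat_ne_top
  refine ⟨2 ^ (p - 1) * (C * 27 + ENNReal.ofReal ((24000 * (Nat.factorial ⌈6 / η⌉₊ : ℝ)) ^ p)),
    ENNReal.mul_ne_top h2t (ENNReal.add_ne_top.2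
      ⟨ENNReal.mul_ne_top hC ENNReal.ofNat_ne_top, ENNReal.ofReal_ne_top⟩), ?_⟩
  intro a α T c θ g ha hα hb hT hA hg
  have hT0 : 0 < T := by linarith
  have hA1 : 1 ≤ T ^ (η / 2) := Real.one_le_rpow hT (by linarith)
  have hc : ∀ j, 1 ≤ c j := fun j => (hA j).1
  have hθ : ∀ j, |θ j| ≤ 1 := fun j => by
    rcases (hA j).2.2 with h | h
    · rw [h, abs_one]
    · rw [h.1, abs_zero]
      exact zero_le_one
  obtain ⟨L, hL⟩ : ∃ L : Fin 3 → ℝ, L = fun j => T ^ (η / 2) * (5 * T / √(c j)) := ⟨_, rfl⟩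
  have hL0 : ∀ j, 0 < L j := fun j => by
    have : 0 < c j := by linarith [hc j]
    rw [hL]
    positivity
  obtain ⟨F, hF⟩ : ∃ F : (Fin 3 → ℤ) → E3 → ℂ,
      F = fun m => Op a T c θ (fun j => blk (L j) (m j) (g j)) := ⟨_, rfl⟩
  have hFm : ∀ m, Measurable (F m) := fun m => by
    rw [hF]
    exact h_opm a T c θ _ ha hc hθ fun j => (blk_good (hg j) _ _).1
  obtain ⟨b1, b2⟩ := h_box p L F hp.le (by linarith) hL0 hFm
  have e : α * T * T ^ (3 / p - 2) * (T ^ (η / 2)) ^ 2 = α * T * T ^ (3 / p - 2 + η) := by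
    rw [← Real.rpow_natCast, ← Real.rpow_mul hT0.le, mul_assoc, ← Real.rpow_add hT0]
    push_cast
    rw [div_mul_cancel₀ η two_ne_zero]
  have k1 : ∫⁻ x : E3, ‖F (fun j => ⌊x j / L j⌋) x‖ₑ ^ p ≤
      C * 27 * ENNReal.ofReal ((α * T * T ^ (3 / p - 2 + η)) ^ p) * ∏ j, N p (g j) := by
    refine b2.trans ((ENNReal.tsum_le_tsum (g := fun m : Fin 3 → ℤ =>
      C * ENNReal.ofReal ((α * T * T ^ (3 / p - 2 + η)) ^ p) *
        ∏ j, N p (blk (L j) (m j) (g j))) fun m => ?_).trans ?_)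
    · have k := hn a α T (T ^ (η / 2)) c θ (fun j => blk (L j) (m j) (g j)) ha hα hb hT hA1 hA
        fun j => blk_good (hg j) _ _
      rw [e] at k
      rw [hF]
      refine le_of_eq_of_le ?_ k
      rw [hL]
    · rw [ENNReal.tsum_mul_left]
      refine (mul_le_mul_right (h_ovl p L g hp0 hL0 fun j => (hg j).1) _).trans (le_of_eq ?_)
      ring
  have k2 : ∫⁻ x : E3, (ENNReal.ofReal α * ∫⁻ t in D T, Rest L c θ g x t) ^ p ≤
      ENNReal.ofReal ((24000 * (Nat.factorial ⌈6 / η⌉₊ : ℝ)) ^ p) *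
        ENNReal.ofReal ((α * T * T ^ (3 / p - 2 + η)) ^ p) * ∏ j, N p (g j) := by
    simp only [ENNReal.mul_rpow_of_nonneg _ _ hp0.le]
    rw [lintegral_const_mul' _ _ (ENNReal.rpow_ne_top_of_nonneg hp0.le ENNReal.ofReal_ne_top)]
    have k := h_rest p T (T ^ (η / 2)) c θ g hp.le hT hA1 hA fun j => (hg j).1
    rw [← hL] at k
    refine (mul_le_mul_right k _).trans ?_
    rw [← mul_assoc]
    exact mul_le_mul_left (qpiece_far hp hp2 hη hα hT) _
  have k3 : ∀ x : E3, ‖Op a T c θ g x‖ₑ ^ p ≤ 2 ^ (p - 1) * (‖F (fun j => ⌊x j / L j⌋) x‖ₑ ^ p +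
      (ENNReal.ofReal α * ∫⁻ t in D T, Rest L c θ g x t) ^ p) := fun x => by
    refine (ENNReal.rpow_le_rpow (h_split a α T L c θ g x ha hb hL0 hc hθ hg) hp0.le).trans ?_
    rw [hF]
    exact ENNReal.rpow_add_le_mul_rpow_add_rpow _ _ hp.le
  refine (lintegral_mono k3).trans ?_
  rw [lintegral_const_mul' _ _ h2t, lintegral_add_left (b1.enorm.pow_const p)]
  refine (mul_le_mul_right (add_le_add k1 k2) _).trans (le_of_eq ?_)
  ring

end Vale.Agent.P117
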