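import Vale.Agent.P117.Stm4

/-! P117: pointwise bound for the cube of the band profile. -/

namespace Vale.Agent.P117

open MeasureTheory FourierTransform Set
open scoped ENNReal

theorem qps_bd (c ξ : ℝ) (hc : 1 ≤ c) :
    0 ≤ ps c 1 ξ ∧ ps c 1 ξ ≤ Real.exp (-(Real.pi * ξ ^ 2)) ∧ ps c 1 ξ ≤ 1 ∧
      ps c 1 ξ ≤ 16 * (c * ξ ^ 2) := by
  have hπ := Real.pi_pos
  have hπ4 := Real.pi_le_four
  have hξ : 0 ≤ ξ ^ 2 := sq_nonneg ξ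
  have hv : 0 ≤ c * ξ ^ 2 := mul_nonneg (by linarith) hξ
  have hv1 : ξ ^ 2 ≤ c * ξ ^ 2 := le_mul_of_one_le_left hξ hc
  have e1 : Real.pi * c * ξ ^ 2 = Real.pi * (c * ξ ^ 2) := by ring
  have e2 : Real.pi * (4 * c) * ξ ^ 2 = 4 * (Real.pi * (c * ξ ^ 2)) := by ring
  have hw : 0 ≤ Real.pi * (c * ξ ^ 2) := mul_nonneg hπ.le hv
  have hw1 : Real.pi * ξ ^ 2 ≤ Real.pi * (c * ξ ^ 2) := mul_le_mul_of_nonneg_left hv1 hπ.le
  have hw2 : Real.pi * (c * ξ ^ 2) ≤ 4 * (c * ξ ^ 2) := mul_le_mul_of_nonneg_right hπ4 hv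
  rw [ps, e1, e2, one_mul]
  generalize Real.pi * (c * ξ ^ 2) = w at hw hw1 hw2
  have h1 : Real.exp (-(4 * w)) ≤ Real.exp (-w) := Real.exp_le_exp.2 (by linarith)
  have h2 : Real.exp (-w) ≤ Real.exp (-(Real.pi * ξ ^ 2)) := Real.exp_le_exp.2 (by linarith)
  have h3 : Real.exp (-w) ≤ 1 := Real.exp_le_one_iff.2 (by linarith)
  have h4 := Real.exp_pos (-(4 * w))
  have h5 := Real.add_one_le_exp (-(4 * w))
  refine ⟨by linarith, by linarith, by linarith, by linarith⟩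

theorem q_ps : Q_ps := by
  intro c ξ hc
  obtain ⟨h0, h1, h2, h3⟩ := qps_bd c ξ hc
  have hc0 : 0 < c := by linarith
  have hb : 0 < c ^ (1 / 4 : ℝ) := Real.rpow_pos_of_pos hc0 _
  have hE := Real.exp_pos (-(Real.pi * ξ ^ 2))
  by_cases hξ : ξ = 0
  · rw [hξ, abs_zero, Real.zero_rpow (by norm_num), mul_zero]
    positivity
  have hx : 0 < |ξ| := abs_pos.2 hξ
  have ha : 0 < |ξ| ^ (1 / 2 : ℝ) := Real.rpow_pos_of_pos hx _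
  have ea : (|ξ| ^ (1 / 2 : ℝ)) ^ 4 = ξ ^ 2 := by
    rw [← Real.rpow_natCast, ← Real.rpow_mul hx.le, ← sq_abs, ← Real.rpow_natCast]
    norm_num
  have eb : (c ^ (1 / 4 : ℝ)) ^ 4 = c := by
    rw [← Real.rpow_natCast, ← Real.rpow_mul hc0.le]
    norm_num
  have e3 : ps c 1 ξ ^ (3 : ℝ) = ps c 1 ξ ^ 3 := by
    rw [← Real.rpow_natCast]
    norm_num
  have e4 : |ξ| ^ (1 - 3 / 2 : ℝ) = (|ξ| ^ (1 / 2 : ℝ))⁻¹ := by
    rw [← Real.rpow_neg hx.le]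
    norm_num
  have ev : c * ξ ^ 2 = (c ^ (1 / 4 : ℝ) * |ξ| ^ (1 / 2 : ℝ)) ^ 4 := by rw [mul_pow, ea, eb]
  rw [e3, e4, ← div_eq_mul_inv, div_le_iff₀ ha]
  rw [ev] at h3
  generalize ps c 1 ξ = u at h0 h1 h2 h3
  generalize Real.exp (-(Real.pi * ξ ^ 2)) = E at h1 hE
  have hw : 0 < c ^ (1 / 4 : ℝ) * |ξ| ^ (1 / 2 : ℝ) := mul_pos hb ha
  rw [show 1000 * c ^ (1 / 4 : ℝ) * E * |ξ| ^ (1 / 2 : ℝ) =
    1000 * (c ^ (1 / 4 : ℝ) * |ξ| ^ (1 / 2 : ℝ)) * E by ring]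
  generalize c ^ (1 / 4 : ℝ) * |ξ| ^ (1 / 2 : ℝ) = w at h3 hw
  have hu : u ≤ 1000 * w := by
    rcases le_total 1 w with h | h
    · linarith
    · have : w ^ 4 ≤ w := pow_le_of_le_one hw.le h (by norm_num)
      linarith
  calc u ^ 3 = u * u * u := by ring
    _ ≤ 1 * (1000 * w) * E := by gcongr
    _ = 1000 * w * E := by ring

end Vale.Agent.P117
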