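import Vale.Agent.P117.Stm3

/-! Summation over boxes. -/

namespace Vale.Agent.P117

open MeasureTheory FourierTransform Set
open scoped ENNReal

theorem rbox_idx (L : Fin 3 → ℝ) : Measurable fun (x : E3) (j : Fin 3) => ⌊x j / L j⌋ :=
  measurable_pi_lambda _ fun _ => Int.measurable_floor.comp (by fun_prop)

theorem rbox_vol (h_lprod : S_lprod) {L : Fin 3 → ℝ} (hL : ∀ j, 0 < L j) (m : Fin 3 → ℤ) :
    volume ((fun (x : E3) (j : Fin 3) => ⌊x j / L j⌋) ⁻¹' {m}) = ENNReal.ofReal (∏ j, L j) := by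
  rw [← lintegral_indicator_one (rbox_idx L (measurableSet_singleton m)),
    ENNReal.ofReal_prod_of_nonneg fun j _ => (hL j).le]
  have e : ∀ j, ENNReal.ofReal (L j) =
      ∫⁻ y, (Ico ((m j : ℝ) * L j) (((m j : ℝ) + 1) * L j)).indicator 1 y := fun j => by
    rw [lintegral_indicator_one measurableSet_Ico, Real.volume_Ico]
    exact congrArg _ (by ring)
  simp only [e]
  rw [← h_lprod _ fun j => measurable_one.indicator measurableSet_Ico]
  refine lintegral_congr fun x => ?_
  have k : ∀ j, x j ∈ Ico ((m j : ℝ) * L j) (((m j : ℝ) + 1) * L j) ↔ ⌊x j / L j⌋ = m j :=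
    fun j => by rw [Int.floor_eq_iff, mem_Ico, le_div_iff₀ (hL j), div_lt_iff₀ (hL j)]
  by_cases h : x ∈ (fun (x : E3) (j : Fin 3) => ⌊x j / L j⌋) ⁻¹' {m}
  · rw [indicator_of_mem h]
    refine (Finset.prod_eq_one fun j _ => ?_).symm
    rw [indicator_of_mem ((k j).2 (congrFun h j))]
    rfl
  · rw [indicator_of_notMem h]
    obtain ⟨j, hj⟩ := Function.ne_iff.1 h
    exact (Finset.prod_eq_zero (Finset.mem_univ j)
      (indicator_of_notMem (fun l => hj ((k j).1 l)) _)).symm

theorem r_box (h_lprod : S_lprod) : R_box := by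
  intro p L F p1 p2 hL hF
  have hi := rbox_idx L
  refine ⟨(measurable_from_prod_countable_left (f := fun z : E3 × (Fin 3 → ℤ) => F z.2 z.1)
    hF).comp (measurable_id.prodMk hi), ?_⟩
  have mB := fun m : Fin 3 → ℤ => hi (measurableSet_singleton m)
  have k : ∀ x : E3, ‖F (fun j => ⌊x j / L j⌋) x‖ₑ ^ p ≤ ∑' m : Fin 3 → ℤ,
      ((fun (x : E3) (j : Fin 3) => ⌊x j / L j⌋) ⁻¹' {m}).indicator (fun x => ‖F m x‖ₑ ^ p) x := by
    intro x
    refine le_trans (le_of_eq ?_) (ENNReal.le_tsum fun j => ⌊x j / L j⌋)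
    rw [indicator_of_mem (by simp)]
  refine (lintegral_mono k).trans ?_
  rw [lintegral_tsum fun m => (((hF m).enorm.pow_const p).indicator (mB m)).aemeasurable]
  refine ENNReal.tsum_le_tsum fun m => ?_
  rw [lintegral_indicator (mB m)]
  have h := ENNReal.lintegral_mul_norm_pow_le
    (μ := volume.restrict ((fun (x : E3) (j : Fin 3) => ⌊x j / L j⌋) ⁻¹' {m}))
    (f := fun _ => 1) (g := fun x => ‖F m x‖ₑ ^ (2 : ℝ)) (p := 1 - p / 2) (q := p / 2)
    aemeasurable_const ((hF m).enorm.pow_const _).aemeasurable (by linarith) (by linarith)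
    (by ring)
  simp only [ENNReal.one_rpow, one_mul, ← ENNReal.rpow_mul, setLIntegral_one] at h
  rw [show 2 * (p / 2) = p by ring, rbox_vol h_lprod hL, ENNReal.ofReal_rpow_of_nonneg
    (Finset.prod_nonneg fun j _ => (hL j).le) (by linarith)] at h
  exact h.trans (mul_le_mul' le_rfl (ENNReal.rpow_le_rpow (setLIntegral_le_lintegral _ _)
    (by linarith)))

end Vale.Agent.P117
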