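import Vale.Agent.P117.Stm3

/-! Counting the dyadic scales. -/

namespace Vale.Agent.P117

open MeasureTheory FourierTransform Set
open scoped ENNReal

theorem rcnt_ber (ρ : ℝ) (hρ : 1 < ρ) (K : ℕ) : (K : ℝ) + 1 ≤ (1 + 1 / (ρ - 1)) * ρ ^ K := by
  have h0 : 0 < ρ - 1 := by linarith
  have h1 : 1 + (K : ℝ) * (ρ - 1) ≤ (1 + (ρ - 1)) ^ K := one_add_mul_le_pow (by linarith) K
  have h2 : (1 + (ρ - 1)) = ρ := by ring
  rw [h2] at h1
  have h3 : (1 : ℝ) ≤ ρ ^ K := one_le_pow₀ hρ.le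
  have h4 : (K : ℝ) ≤ 1 / (ρ - 1) * ρ ^ K := by
    rw [one_div, ← div_eq_inv_mul, le_div_iff₀ h0]
    linarith
  linarith

theorem r_cnt : R_cnt := by
  intro η hη
  have hρ : (1 : ℝ) < (4 : ℝ) ^ (η / 3) := Real.one_lt_rpow (by norm_num) (by linarith)
  have hC : 0 ≤ 1 + 1 / ((4 : ℝ) ^ (η / 3) - 1) := by
    have : 0 < (4 : ℝ) ^ (η / 3) - 1 := by linarith
    positivity
  refine ⟨(1 + 1 / ((4 : ℝ) ^ (η / 3) - 1)) ^ 3, pow_nonneg hC 3, fun T hT => ?_⟩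
  obtain ⟨K, h1, h2⟩ := exists_nat_pow_near hT (by norm_num : (1 : ℝ) < 4)
  refine ⟨K, h1, ?_, ?_⟩
  · rw [pow_succ, mul_comm] at h2
    exact h2.le
  · have h3 := rcnt_ber _ hρ K
    have h4 : ((K : ℝ) + 1) ^ 3 ≤
        ((1 + 1 / ((4 : ℝ) ^ (η / 3) - 1)) * ((4 : ℝ) ^ (η / 3)) ^ K) ^ 3 :=
      pow_le_pow_left₀ (by positivity) h3 3
    have h5 : (((4 : ℝ) ^ (η / 3)) ^ K) ^ 3 = ((4 : ℝ) ^ K) ^ η := by
      have h40 : (0 : ℝ) ≤ 4 := by norm_num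
      rw [← pow_mul, ← Real.rpow_natCast, ← Real.rpow_natCast, ← Real.rpow_mul h40,
        ← Real.rpow_mul h40]
      congr 1
      push_cast
      ring
    have h6 : ((4 : ℝ) ^ K) ^ η ≤ T ^ η := Real.rpow_le_rpow (by positivity) h1 hη.le
    rw [mul_pow, h5] at h4
    exact h4.trans (mul_le_mul_of_nonneg_left h6 (pow_nonneg hC 3))

end Vale.Agent.P117
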