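import Vale.Agent.P117.Stm3

/-! Dyadic decomposition of an integral on the line. -/

namespace Vale.Agent.P117

open MeasureTheory FourierTransform Set
open scoped ENNReal

def rdec_S (n : ℕ) : Set ℝ := D (2 ^ n) ∩ {t : ℝ | |t| < 2 * 2 ^ n}

theorem rdec_mD (T : ℝ) : MeasurableSet (D T) :=
  (measurableSet_le measurable_const continuous_abs.measurable).inter
    (measurableSet_le continuous_abs.measurable measurable_const)

theorem rdec_mL (T : ℝ) : MeasurableSet {t : ℝ | |t| < T} :=
  measurableSet_lt continuous_abs.measurable measurable_const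

theorem rdec_dis : Pairwise (Function.onFun Disjoint rdec_S) := by
  have k : ∀ i j : ℕ, i < j → Disjoint (rdec_S i) (rdec_S j) := fun i j hij => by
    refine Set.disjoint_left.2 fun t h1 h2 => ?_
    have a1 : |t| < 2 * 2 ^ i := h1.2
    have a2 : (2 : ℝ) ^ j ≤ |t| := h2.1.1
    have a3 : (2 : ℝ) ^ (i + 1) ≤ 2 ^ j := pow_le_pow_right₀ (by norm_num) hij
    rw [pow_succ] at a3
    linarith
  intro i j hij
  rcases lt_or_gt_of_ne hij with h | h
  · exact k i j h
  · exact (k j i h).symm

theorem rdec_un : {t : ℝ | |t| < 1}ᶜ = ⋃ n, rdec_S n := by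
  ext t
  simp only [mem_compl_iff, mem_ofPred_eq, not_lt, mem_iUnion]
  constructor
  · intro h
    obtain ⟨n, h1, h2⟩ := exists_nat_pow_near h (by norm_num : (1 : ℝ) < 2)
    rw [pow_succ, mul_comm] at h2
    exact ⟨n, ⟨h1, h2.le⟩, h2⟩
  · rintro ⟨n, h⟩
    exact (one_le_pow₀ (by norm_num : (1 : ℝ) ≤ 2)).trans h.1.1

theorem r_dec : R_dec := by
  intro h hh
  rw [← integral_add_compl (rdec_mL 1) hh]
  refine (enorm_add_le _ _).trans (add_le_add ?_ ?_)
  · refine (enorm_integral_le_lintegral_enorm _).trans (lintegral_mono_set fun t ht => ?_)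
    exact abs_le.1 (le_of_lt ht)
  · rw [rdec_un, integral_iUnion (s := rdec_S) (fun n => (rdec_mD _).inter (rdec_mL _)) rdec_dis
      hh.integrableOn]
    refine enorm_tsum_le_tsum_enorm.trans (le_of_eq (tsum_congr fun n => ?_))
    rw [setIntegral_indicator (rdec_mL _)]
    rfl

end Vale.Agent.P117
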