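import Vale.Agent.P117.Stm4
import Vale.Agent.P117.SFin

namespace Vale.Agent.P117

open MeasureTheory Set FourierTransform
open scoped ENNReal

theorem rfin_U (h_kmeas : S_kmeas) {g : ℝ → ℂ} (hg : Integrable g) (t x : ℝ) :
    ‖U t g x‖ ≤ ∫ y, ‖g y‖ := by
  refine norm_integral_le_of_norm_le hg.norm (ae_of_all _ fun y => ?_)
  rw [norm_mul]
  exact mul_le_of_le_one_left (norm_nonneg _) (h_kmeas.2.1 _ _)

theorem rfin_e (t : ℝ) : ‖Complex.exp (2 * Real.pi * Complex.I * t)‖ = 1 := by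
  rw [Complex.norm_exp]; simp

theorem rfin_real (C e δ : ℝ) (n : ℕ) :
    C * ((2 : ℝ) ^ n) ^ (-(1 + δ)) * 2 ^ n * (2 ^ n) ^ e = ((2 : ℝ) ^ (e - δ)) ^ n * C := by
  have hT0 : (0 : ℝ) < 2 ^ n := by positivity
  have h1 : ((2 : ℝ) ^ n) ^ (-(1 + δ)) * 2 ^ n * (2 ^ n) ^ e = (2 ^ n) ^ (e - δ) := by
    rw [← Real.rpow_add_one hT0.ne', ← Real.rpow_add hT0]; congr 1; ring
  have h2 : ((2 : ℝ) ^ (e - δ)) ^ n = (2 ^ n) ^ (e - δ) := by
    rw [← Real.rpow_mul_natCast zero_le_two, mul_comm, Real.rpow_natCast_mul zero_le_two]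
  rw [h2, ← h1]; ring

theorem rfin_Ux (h_kmeas : S_kmeas) {g : ℝ → ℂ} (hg : Measurable g) (j : Fin 3) :
    Measurable (fun z : E3 × ℝ => U z.2 g (z.1 j)) := by
  have hU : Measurable (fun z : ℝ × ℝ => U z.1 g z.2) := h_kmeas.2.2.1 _ hg
  have h2 : Measurable (fun z : E3 × ℝ => ((z.2, z.1 j) : ℝ × ℝ)) := by fun_prop
  simpa only [Function.comp_def] using hU.comp h2

theorem rfin_Ut (h_kmeas : S_kmeas) {g : ℝ → ℂ} (hg : Measurable g) (x : ℝ) :
    Measurable (fun t => U t g x) := by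
  have hU : Measurable (fun z : ℝ × ℝ => U z.1 g z.2) := h_kmeas.2.2.1 _ hg
  have h2 : Measurable (fun t : ℝ => ((t, x) : ℝ × ℝ)) := by fun_prop
  simpa only [Function.comp_def] using hU.comp h2

theorem rfin_int {G : E3 × ℝ → ℂ} (hG : Measurable G) (s : Set ℝ) :
    Measurable fun x => ‖∫ t in s, G (x, t)‖ₑ :=
  (StronglyMeasurable.integral_prod_right' (ν := volume.restrict s)
    hG.stronglyMeasurable).measurable.enorm

theorem r_fin (h_rho : S_rho) (h_mu : S_mu) (h_rep : S_rep) (h_kmeas : S_kmeas) (h_dec : R_dec)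
    (h_sum : R_sum) (h_low : R_low) (p e δ : ℝ) (hp : 1 ≤ p) (hδ : 0 < δ) (he : e < δ)
    (hdy : ∃ C : ℝ≥0∞, C ≠ ⊤ ∧ ∀ (a : ℝ → ℂ) (α T : ℝ) (g : Fin 3 → ℝ → ℂ), Measurable a →
      0 ≤ α → (∀ t ∈ D T, ‖a t‖ ≤ α) → 1 ≤ T → (∀ j, Good (g j)) →
      ∫⁻ x : E3, ‖∫ t in D T, a t * ∏ j, U t (g j) (x j)‖ₑ ^ p ≤
        C * ENNReal.ofReal ((α * T * T ^ e) ^ p) * ∏ j, N p (g j)) :
    ∃ C : ℝ≥0∞, C ≠ ⊤ ∧ ∀ g : Fin 3 → SchwartzMap ℝ ℂ,
      ∫⁻ x, ‖BR δ (tens g) x‖ₑ ^ p ≤ C * ∏ j, N p (g j) := by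
  obtain ⟨K, hK, hdy⟩ := hdy
  obtain ⟨C, hC⟩ := h_rho δ hδ
  obtain ⟨-, -, hρc, hρi⟩ := h_mu δ hδ
  have hp0 : 0 ≤ p := by linarith
  have hC0 : 0 ≤ C := by simpa using (norm_nonneg _).trans (hC 0)
  set r : ℝ := 2 ^ (e - δ) with hr
  have hr0 : 0 < r := Real.rpow_pos_of_pos two_pos _
  have hr1 : r < 1 := Real.rpow_lt_one_of_one_lt_of_neg one_lt_two (by linarith)
  obtain ⟨S, hS, hsum⟩ := h_sum p r hp hr0 hr1
  set a : ℝ → ℂ := fun t => 𝓕 (mu δ) t * Complex.exp (2 * Real.pi * Complex.I * t) with ha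
  have ham : Measurable a := (hρc.mul (by fun_prop)).measurable
  have han : ∀ t, ‖a t‖ = ‖𝓕 (mu δ) t‖ := fun t => by rw [ha, norm_mul, rfin_e, mul_one]
  have haC : ∀ t, ‖a t‖ ≤ C := fun t => by
    rw [han]
    refine (hC t).trans (mul_le_of_le_one_right hC0 ?_)
    exact Real.rpow_le_one_of_one_le_of_nonpos (by linarith [abs_nonneg t]) (by linarith)
  set E : ℝ≥0∞ := ‖Complex.exp Real.pi‖ₑ ^ p * 2 ^ (p - 1) with hE
  have hEt : E ≠ ⊤ := ENNReal.mul_ne_top (ENNReal.rpow_ne_top_of_nonneg hp0 enorm_ne_top)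
    (ENNReal.rpow_ne_top_of_nonneg (by linarith) (by simp))
  have hCp : ENNReal.ofReal C ^ p ≠ ⊤ := ENNReal.rpow_ne_top_of_nonneg hp0 ENNReal.ofReal_ne_top
  refine ⟨E * (ENNReal.ofReal C ^ p * 16 ^ p + S * (K * ENNReal.ofReal (C ^ p))),
    ENNReal.mul_ne_top hEt (ENNReal.add_ne_top.2 ⟨ENNReal.mul_ne_top hCp
      (ENNReal.rpow_ne_top_of_nonneg hp0 (by simp)), ENNReal.mul_ne_top hS
      (ENNReal.mul_ne_top hK ENNReal.ofReal_ne_top)⟩), fun g => ?_⟩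
  have hUx : ∀ j, Measurable (fun z : E3 × ℝ => U z.2 (g j) (z.1 j)) := fun j =>
    rfin_Ux h_kmeas (fin_good (g j)).1 j
  set b : ℕ → ℝ → ℂ := fun n => {t : ℝ | |t| < 2 * 2 ^ n}.indicator a with hb
  have hbm : ∀ n, Measurable (b n) := fun n =>
    ham.indicator (measurableSet_lt (by fun_prop) measurable_const)
  set F : ℕ → E3 → ℝ≥0∞ := fun n x => ‖∫ t in D (2 ^ n), b n t * ∏ j, U t (g j) (x j)‖ₑ with hF
  have hFm : ∀ n, Measurable (F n) := fun n =>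
    rfin_int (G := fun z => b n z.2 * ∏ j, U z.2 (g j) (z.1 j)) (((hbm n).comp measurable_snd).mul
      (Finset.measurable_prod _ fun j _ => hUx j)) _
  have hFb : ∀ n, ∫⁻ x, F n x ^ p ≤
      ENNReal.ofReal ((r ^ n) ^ p) * (K * ENNReal.ofReal (C ^ p) * ∏ j, N p (g j)) := by
    intro n
    have hT : (1 : ℝ) ≤ 2 ^ n := one_le_pow₀ one_le_two
    have hT0 : (0 : ℝ) < 2 ^ n := by positivity
    refine (hdy (b n) (C * (2 ^ n) ^ (-(1 + δ))) (2 ^ n) (fun j => g j) (hbm n) (by positivity)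
      (fun t ht => ?_) hT fun j => fin_good (g j)).trans (le_of_eq ?_)
    · refine (norm_indicator_le_norm_self _ _).trans ?_
      rw [han]
      refine (hC t).trans (mul_le_mul_of_nonneg_left ?_ hC0)
      exact Real.rpow_le_rpow_of_nonpos hT0 (by linarith [ht.1]) (by linarith)
    · have e1 := rfin_real C e δ n
      rw [← hr] at e1
      rw [e1, Real.mul_rpow (by positivity) hC0, ENNReal.ofReal_mul (by positivity)]
      ring
  set L : E3 → ℝ≥0∞ := fun x => ∫⁻ t in Icc (-1 : ℝ) 1, ∏ j, ‖U t (g j) (x j)‖ₑ with hL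
  have hLm : Measurable L :=
    Measurable.lintegral_prod_right' (ν := volume.restrict (Icc (-1 : ℝ) 1))
      (f := fun z : E3 × ℝ => ∏ j, ‖U z.2 (g j) (z.1 j)‖ₑ)
      (Finset.measurable_prod _ fun j _ => (hUx j).enorm)
  have h1 : ∀ x : E3, ‖BR δ (tens g) x‖ₑ ^ p ≤
      E * (ENNReal.ofReal C ^ p * L x ^ p + (∑' n, F n x) ^ p) := by
    intro x
    have hm : Measurable fun t => ∏ j, U t (g j) (x j) :=
      Finset.measurable_prod _ fun j _ => rfin_Ut h_kmeas (fin_good (g j)).1 (x j)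
    have hi : Integrable fun t => a t * ∏ j, U t (g j) (x j) := by
      refine Integrable.mono' (hρi.norm.mul_const (∏ j, ∫ y, ‖g j y‖))
        (ham.mul hm).aestronglyMeasurable (ae_of_all _ fun t => ?_)
      rw [norm_mul, han, norm_prod]
      gcongr with j
      exact rfin_U h_kmeas (g j).integrable _ _
    have h2 : ‖∫ t, a t * ∏ j, U t (g j) (x j)‖ₑ ≤ ENNReal.ofReal C * L x + ∑' n, F n x := by
      refine (h_dec _ hi).trans (add_le_add ?_ (le_of_eq (tsum_congr fun n => ?_)))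
      · rw [hL, ← lintegral_const_mul' _ _ ENNReal.ofReal_ne_top]
        refine lintegral_mono fun t => ?_
        simp only [enorm_mul, Fin.prod_univ_three]
        gcongr
        rw [← ofReal_norm_eq_enorm]
        exact ENNReal.ofReal_le_ofReal (haC t)
      · simp only [hF, hb, indicator_mul_left]
    have h3 := (ENNReal.rpow_le_rpow h2 hp0).trans (ENNReal.rpow_add_le_mul_rpow_add_rpow _ _ hp)
    rw [ENNReal.mul_rpow_of_nonneg _ _ hp0] at h3
    rw [h_rep δ hδ g x, enorm_mul, ENNReal.mul_rpow_of_nonneg _ _ hp0, hE,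
      mul_assoc (‖Complex.exp Real.pi‖ₑ ^ p)]
    exact mul_le_mul_right h3 _
  calc ∫⁻ x, ‖BR δ (tens g) x‖ₑ ^ p
      ≤ ∫⁻ x, E * (ENNReal.ofReal C ^ p * L x ^ p + (∑' n, F n x) ^ p) := lintegral_mono h1
    _ = E * (ENNReal.ofReal C ^ p * (∫⁻ x, L x ^ p) + ∫⁻ x, (∑' n, F n x) ^ p) := by
        rw [lintegral_const_mul' _ _ hEt, lintegral_add_left ((hLm.pow_const p).const_mul _),
          lintegral_const_mul' _ _ hCp]
    _ ≤ E * (ENNReal.ofReal C ^ p * (16 ^ p * ∏ j, N p (g j)) +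
        S * (K * ENNReal.ofReal (C ^ p) * ∏ j, N p (g j))) := by
        gcongr
        · exact h_low p (fun j => g j) hp fun j => (fin_good (g j)).1
        · exact hsum F _ hFm hFb
    _ = _ := by ring

end Vale.Agent.P117
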