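import Vale.Agent.P117.Stm3
import Vale.Agent.P117.SM2
import Vale.Agent.P117.SBes

namespace Vale.Agent.P117

open MeasureTheory FourierTransform Set
open scoped ENNReal

theorem rhy_N {p : ℝ} (hp : 0 ≤ p) (g : ℝ → ℂ) : N p g = ∫⁻ x, ENNReal.ofReal (‖g x‖ ^ p) :=
  lintegral_congr fun x => by
    rw [← ENNReal.ofReal_rpow_of_nonneg (norm_nonneg _) hp, ofReal_norm]

theorem rhy_big {p ν l : ℝ} (h1 : 1 < p) (hν : 0 < ν) (hl : 0 < l) {g : ℝ → ℂ}
    (hi : Integrable g) {S : Set ℝ} (hS : MeasurableSet S)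
    (h : ∀ y ∈ S, 2 * ν * ‖g y‖ ^ (1 - p) ≤ l) (hn : N p g ≤ ENNReal.ofReal ν) :
    ∫ y, ‖S.indicator g y‖ ≤ l / 2 := by
  rw [← ENNReal.ofReal_le_ofReal_iff (by positivity),
    ofReal_integral_eq_lintegral_ofReal (hi.indicator hS).norm
      (Filter.Eventually.of_forall fun _ => norm_nonneg _),
    show l / 2 = l / (2 * ν) * ν by field_simp, ENNReal.ofReal_mul (by positivity)]
  refine le_trans ?_ (mul_le_mul_right hn _)
  rw [rhy_N (by linarith), ← lintegral_const_mul' _ _ ENNReal.ofReal_ne_top]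
  refine lintegral_mono fun y => ?_
  rw [← ENNReal.ofReal_mul (by positivity)]
  refine ENNReal.ofReal_le_ofReal ?_
  by_cases hy : y ∈ S
  · have e : ‖g y‖ ^ (1 - p) * ‖g y‖ ^ p = ‖g y‖ := by
      rw [← Real.rpow_add' (norm_nonneg _) (by simp), sub_add_cancel, Real.rpow_one]
    have := mul_le_mul_of_nonneg_right (h y hy) (Real.rpow_nonneg (norm_nonneg (g y)) p)
    rw [mul_assoc, e] at this
    rw [indicator_of_mem hy, div_mul_eq_mul_div, le_div_iff₀ (by positivity)]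
    linarith
  · rw [indicator_of_notMem hy, norm_zero]
    positivity

theorem rhy_lev (h_bes : S_bes) {l : ℝ} (q : ℝ) (hl : 0 < l) {g : ℝ → ℂ} (hi : Integrable g)
    {S : Set ℝ} (hS : MeasurableSet S) (h : ∫ y, ‖Sᶜ.indicator g y‖ ≤ l / 2) :
    volume {ξ | l < ‖𝓕 g ξ‖} * ENNReal.ofReal (l ^ (q - 1)) ≤
      4 * (ENNReal.ofReal (l ^ (q - 3)) * N 2 (S.indicator g)) := by
  have e : 𝓕 g = 𝓕 (S.indicator g) + 𝓕 (Sᶜ.indicator g) := by
    conv_lhs => rw [← indicator_self_add_compl S g]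
    exact VectorFourier.fourierIntegral_add Real.continuous_fourierChar continuous_inner
      (hi.indicator hS) (hi.indicator hS.compl)
  have h1 := mul_meas_ge_le_lintegral₀ (μ := volume)
    ((bes_cont (hi.indicator hS)).measurable.enorm.pow_const (2 : ℝ)).aemeasurable
    (ENNReal.ofReal (l / 2) ^ (2 : ℝ))
  have h2 : volume {ξ | l < ‖𝓕 g ξ‖} ≤ volume {ξ | ENNReal.ofReal (l / 2) ^ (2 : ℝ) ≤
      ‖𝓕 (S.indicator g) ξ‖ₑ ^ (2 : ℝ)} := measure_mono fun ξ hξ => by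
    have a1 : ‖𝓕 (Sᶜ.indicator g) ξ‖ ≤ ∫ y, ‖Sᶜ.indicator g y‖ :=
      VectorFourier.norm_fourierIntegral_le_integral_norm _ _ _ _ _
    have a2 : l < ‖𝓕 (S.indicator g) ξ + 𝓕 (Sᶜ.indicator g) ξ‖ := by
      have : l < ‖𝓕 g ξ‖ := hξ
      rwa [e] at this
    have a3 := norm_add_le (𝓕 (S.indicator g) ξ) (𝓕 (Sᶜ.indicator g) ξ)
    refine ENNReal.rpow_le_rpow ?_ zero_le_two
    rw [← ofReal_norm]
    exact ENNReal.ofReal_le_ofReal (by linarith)
  have h3 := ((mul_le_mul_right h2 _).trans h1).trans (h_bes _ (hi.indicator hS))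
  refine le_of_eq_of_le ?_ (mul_le_mul_right (mul_le_mul_right h3 _) 4)
  rw [mul_comm, ← mul_assoc, ← mul_assoc, ENNReal.ofReal_rpow_of_pos (by positivity),
    show (4 : ℝ≥0∞) = ENNReal.ofReal 4 by simp, ← ENNReal.ofReal_mul (by positivity),
    ← ENNReal.ofReal_mul (by positivity), show q - 1 = q - 3 + 2 by ring, Real.rpow_add hl,
    Real.rpow_two, Real.rpow_two]
  congr 2
  ring

theorem rhy_pt {p q ν : ℝ} (h1 : 1 < p) (hq : 2 < q) (e : (1 - p) * (q - 2) = p - 2) (hν : 0 < ν)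
    (z : ℂ) : ENNReal.ofReal ((2 * ν * ‖z‖ ^ (1 - p)) ^ (q - 2) / (q - 2)) * ‖z‖ₑ ^ (2 : ℝ) =
      ENNReal.ofReal ((2 * ν) ^ (q - 2) / (q - 2)) * ‖z‖ₑ ^ p := by
  have h2 : 0 < q - 2 := by linarith
  rw [← ofReal_norm, ENNReal.ofReal_rpow_of_nonneg (norm_nonneg z) zero_le_two,
    ENNReal.ofReal_rpow_of_nonneg (norm_nonneg z) (by linarith),
    ← ENNReal.ofReal_mul (by positivity), ← ENNReal.ofReal_mul (by positivity),
    Real.mul_rpow (by positivity) (by positivity), ← Real.rpow_mul (norm_nonneg z), e,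
    div_mul_eq_mul_div, mul_assoc, ← Real.rpow_add' (norm_nonneg z) (by linarith), sub_add_cancel,
    div_mul_eq_mul_div]

theorem rhy_swap {p q ν : ℝ} (h1 : 1 < p) (hq : 2 < q) (e : (1 - p) * (q - 2) = p - 2)
    (hν : 0 < ν) {g : ℝ → ℂ} (hg : Measurable g) :
    ∫⁻ l in Ioi (0 : ℝ), ENNReal.ofReal (l ^ (q - 3)) *
      N 2 ({y | l < 2 * ν * ‖g y‖ ^ (1 - p)}.indicator g) =
      ENNReal.ofReal ((2 * ν) ^ (q - 2) / (q - 2)) * N p g := by
  have hH : Measurable fun z : ℝ × ℝ => {z : ℝ × ℝ | z.1 < 2 * ν * ‖g z.2‖ ^ (1 - p)}.indicator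
      (fun z : ℝ × ℝ => ENNReal.ofReal (z.1 ^ (q - 3)) * ‖g z.2‖ₑ ^ (2 : ℝ)) z := by
    refine Measurable.indicator ?_ (measurableSet_lt measurable_fst
      (((hg.comp measurable_snd).norm.pow_const _).const_mul _))
    exact ((measurable_fst.pow_const _).ennreal_ofReal).mul
      ((hg.comp measurable_snd).enorm.pow_const _)
  have h1' : ∀ l : ℝ, ENNReal.ofReal (l ^ (q - 3)) *
      N 2 ({y | l < 2 * ν * ‖g y‖ ^ (1 - p)}.indicator g) =
      ∫⁻ y, {z : ℝ × ℝ | z.1 < 2 * ν * ‖g z.2‖ ^ (1 - p)}.indicator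
        (fun z : ℝ × ℝ => ENNReal.ofReal (z.1 ^ (q - 3)) * ‖g z.2‖ₑ ^ (2 : ℝ)) (l, y) := by
    intro l
    unfold N
    rw [← lintegral_const_mul' _ _ ENNReal.ofReal_ne_top]
    refine lintegral_congr fun y => ?_
    by_cases h : l < 2 * ν * ‖g y‖ ^ (1 - p) <;> simp [h]
  have h2 : ∀ y : ℝ, ∫⁻ l in Ioi (0 : ℝ),
      {z : ℝ × ℝ | z.1 < 2 * ν * ‖g z.2‖ ^ (1 - p)}.indicator
        (fun z : ℝ × ℝ => ENNReal.ofReal (z.1 ^ (q - 3)) * ‖g z.2‖ₑ ^ (2 : ℝ)) (l, y) =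
      ENNReal.ofReal ((2 * ν) ^ (q - 2) / (q - 2)) * ‖g y‖ₑ ^ p := by
    intro y
    rw [← rhy_pt h1 hq e hν, ← m2_one q _ hq (by positivity),
      ← lintegral_mul_const' _ _ (ENNReal.rpow_ne_top_of_nonneg (by norm_num) enorm_ne_top)]
    refine lintegral_congr fun l => ?_
    by_cases h : l < 2 * ν * ‖g y‖ ^ (1 - p) <;> simp [h]
  simp_rw [h1']
  rw [lintegral_lintegral_swap hH.aemeasurable]
  simp_rw [h2]
  unfold N
  rw [lintegral_const_mul' _ _ ENNReal.ofReal_ne_top]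

theorem rhy_main (h_bes : S_bes) {p q ν : ℝ} (h1 : 1 < p) (hq : 2 < q)
    (e : (1 - p) * (q - 2) = p - 2) (hν : 0 < ν) {g : ℝ → ℂ} (hg : Measurable g)
    (hi : Integrable g) (hn : N p g ≤ ENNReal.ofReal ν) : N q (𝓕 g) ≤
      ENNReal.ofReal q * (4 * (ENNReal.ofReal ((2 * ν) ^ (q - 2) / (q - 2)) * N p g)) := by
  rw [rhy_N (by linarith), lintegral_rpow_eq_lintegral_meas_lt_mul volume
    (Filter.Eventually.of_forall fun _ => norm_nonneg _)
    (bes_cont hi).measurable.norm.aemeasurable (by linarith), ← rhy_swap h1 hq e hν hg,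
    ← lintegral_const_mul' 4 _ (by simp)]
  refine mul_le_mul_right (setLIntegral_mono' measurableSet_Ioi fun l hl => ?_) _
  have hS : MeasurableSet {y | l < 2 * ν * ‖g y‖ ^ (1 - p)} :=
    measurableSet_lt measurable_const ((hg.norm.pow_const _).const_mul _)
  exact rhy_lev h_bes q hl hi hS (rhy_big h1 hν hl hi hS.compl (fun y hy => not_lt.1 hy) hn)

theorem r_hy (h_bes : S_bes) : R_hy := by
  intro p h1 h2
  have p1 : 0 < p - 1 := by linarith
  have hq : 2 < p / (p - 1) := by rw [lt_div_iff₀ p1]; linarith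
  have e : (1 - p) * (p / (p - 1) - 2) = p - 2 := by field_simp; ring
  have e' : 1 / (p - 1) = p / (p - 1) - 2 + 1 := by field_simp; ring
  generalize p / (p - 1) = q at hq e e'
  have q2 : 0 < q - 2 := by linarith
  refine ⟨ENNReal.ofReal q * (4 * ENNReal.ofReal (2 ^ (q - 2) / (q - 2))), by finiteness,
    fun g hg hi => ?_⟩
  rw [e']
  by_cases ht : N p g = ⊤
  · rw [ht, ENNReal.top_rpow_of_pos (by linarith), ENNReal.mul_top]
    · exact le_top
    · refine mul_ne_zero ?_ (mul_ne_zero (by simp) ?_) <;>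
        exact (ENNReal.ofReal_pos.2 (by positivity)).ne'
  by_cases h0 : N p g = 0
  · refine (rhy_main h_bes h1 hq e one_pos hg hi (by simp [h0])).trans ?_
    simp [h0]
  have hν := ENNReal.toReal_pos h0 ht
  refine (rhy_main h_bes h1 hq e hν hg hi (ENNReal.ofReal_toReal ht).ge).trans_eq ?_
  rw [Real.mul_rpow zero_le_two hν.le, mul_div_right_comm, ENNReal.ofReal_mul (by positivity),
    ← ENNReal.ofReal_rpow_of_pos hν, ENNReal.ofReal_toReal ht,
    ENNReal.rpow_add_of_nonneg _ _ q2.le zero_le_one, ENNReal.rpow_one]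
  ring

end Vale.Agent.P117
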