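import Vale.Agent.P117.Stm3

namespace Vale.Agent.P117

open MeasureTheory FourierTransform Set
open scoped ENNReal

theorem r_I3 (h_jen : R_jen) : R_I3 := by
  intro T r h hT hr hh
  have hr0 : 0 < r := by linarith
  have h1 := h_jen (r / 3) (Icc (-(4 * T)) (4 * T)) (fun τ => ‖h τ‖ₑ ^ (3 : ℝ)) (by linarith)
    (hh.enorm.pow_const 3)
  have e1 : (3 : ℝ) * (r / 3) = r := by ring
  have e2 : 4 * T - -(4 * T) = 8 * T := by ring
  simp only [← ENNReal.rpow_mul, e1, Real.volume_Icc, e2] at h1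
  have h2 : ∫⁻ τ in Icc (-(4 * T)) (4 * T), ‖h τ‖ₑ ^ r ≤ N r h := setLIntegral_le_lintegral _ _
  have h3 := ENNReal.rpow_le_rpow (h1.trans (mul_le_mul_right h2 _)) (one_div_pos.mpr hr0).le
  have e3 : r / 3 * (1 / r) = 1 / 3 := by field_simp
  have e4 : (r / 3 - 1) * (1 / r) = 1 / 3 - 1 / r := by field_simp
  have h4 : 0 ≤ 1 / 3 - 1 / r := by
    have := one_div_le_one_div_of_le (by norm_num : (0 : ℝ) < 3) hr
    linarith
  rw [← ENNReal.rpow_mul, e3, ENNReal.mul_rpow_of_nonneg _ _ (one_div_pos.mpr hr0).le,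
    ← ENNReal.rpow_mul, e4, ENNReal.ofReal_rpow_of_nonneg (by linarith) h4] at h3
  exact h3

end Vale.Agent.P117
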