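import Vale.Agent.P117.Stm3

namespace Vale.Agent.P117

open MeasureTheory FourierTransform Set
open scoped ENNReal

noncomputable def rip_e (t ξ : ℝ) : ℂ :=
  Complex.exp (-(2 * Real.pi * Complex.I * t * (ξ : ℂ) ^ 2))

noncomputable def rip_ph (c θ t : ℝ) (g : ℝ → ℂ) (ξ : ℝ) : ℂ :=
  (ps c θ ξ : ℂ) * rip_e t ξ * 𝓕 g ξ

theorem rip_norm (t ξ : ℝ) : ‖rip_e t ξ‖ = 1 := by
  have e : -(2 * (Real.pi : ℂ) * Complex.I * t * (ξ : ℂ) ^ 2) =
      ((-(2 * Real.pi * t * ξ ^ 2) : ℝ) : ℂ) * Complex.I := by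
    push_cast
    ring
  rw [rip_e, e, Complex.norm_exp_ofReal_mul_I]

theorem rip_conj (t s ξ : ℝ) : rip_e t ξ * (starRingEnd ℂ) (rip_e s ξ) = rip_e (t - s) ξ := by
  unfold rip_e
  rw [← Complex.exp_conj, ← Complex.exp_add]
  congr 1
  simp only [map_neg, map_mul, map_pow, Complex.conj_ofReal, Complex.conj_I, map_ofNat]
  push_cast
  ring

theorem rip_ps {c θ : ℝ} (hc : 1 ≤ c) (hθ : |θ| ≤ 1) (ξ : ℝ) :
    |ps c θ ξ| ≤ 2 * Real.exp (-Real.pi * ξ ^ 2) := by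
  have hp : 0 ≤ Real.pi * ξ ^ 2 := by positivity
  have h1 : Real.exp (-(Real.pi * c * ξ ^ 2)) ≤ Real.exp (-Real.pi * ξ ^ 2) :=
    Real.exp_le_exp.2 (by nlinarith)
  have h2 : Real.exp (-(Real.pi * (4 * c) * ξ ^ 2)) ≤ Real.exp (-Real.pi * ξ ^ 2) :=
    Real.exp_le_exp.2 (by nlinarith)
  have h3 : |θ * Real.exp (-(Real.pi * (4 * c) * ξ ^ 2))| ≤ Real.exp (-Real.pi * ξ ^ 2) := by
    rw [abs_mul, abs_of_pos (Real.exp_pos _)]
    exact (mul_le_of_le_one_left (Real.exp_pos _).le hθ).trans h2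
  unfold ps
  refine (abs_sub _ _).trans ?_
  rw [abs_of_pos (Real.exp_pos _)]
  linarith

theorem rip_nph (c θ t : ℝ) (g : ℝ → ℂ) (ξ : ℝ) :
    ‖rip_ph c θ t g ξ‖ = |ps c θ ξ| * ‖𝓕 g ξ‖ := by
  rw [rip_ph, norm_mul, norm_mul, rip_norm, mul_one, Complex.norm_real, Real.norm_eq_abs]

theorem r_ip (h_vF : R_vF) (h_pars : R_pars) (h_bes : S_bes) : R_ip := by
  intro c θ g hc hθ hg
  have hi := hg.2.1
  have cF : Continuous (𝓕 g) :=
    VectorFourier.fourierIntegral_continuous Real.continuous_fourierChar continuous_inner hi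
  have bF : ∀ ξ, ‖𝓕 g ξ‖ ≤ ∫ y, ‖g y‖ := fun ξ =>
    VectorFourier.norm_fourierIntegral_le_integral_norm _ _ _ _ _
  generalize ∫ y, ‖g y‖ = M at bF
  have hM : 0 ≤ M := (norm_nonneg _).trans (bF 0)
  have cps : Continuous (ps c θ) := by
    unfold ps
    fun_prop
  have cph : ∀ t, Continuous (rip_ph c θ t g) := fun t => by
    unfold rip_ph rip_e
    fun_prop
  have b1 : ∀ ξ, |ps c θ ξ| * ‖𝓕 g ξ‖ ≤ 2 * M * Real.exp (-Real.pi * ξ ^ 2) := fun ξ => by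
    have := mul_le_mul (rip_ps hc hθ ξ) (bF ξ) (norm_nonneg _) (by positivity)
    linarith
  have b2 : ∀ ξ, (ps c θ ξ * ‖𝓕 g ξ‖) ^ 2 ≤ (2 * M) ^ 2 * Real.exp (-Real.pi * ξ ^ 2) := fun ξ => by
    have e : (ps c θ ξ * ‖𝓕 g ξ‖) ^ 2 = (|ps c θ ξ| * ‖𝓕 g ξ‖) ^ 2 := by
      rw [mul_pow, mul_pow, sq_abs]
    have h1 : Real.exp (-Real.pi * ξ ^ 2) ≤ 1 :=
      Real.exp_le_one_iff.2 (by nlinarith [Real.pi_pos, sq_nonneg ξ])
    rw [e]
    refine (pow_le_pow_left₀ (by positivity) (b1 ξ) 2).trans ?_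
    rw [mul_pow (2 * M), sq (Real.exp _)]
    exact mul_le_mul_of_nonneg_left (mul_le_of_le_one_left (Real.exp_pos _).le h1) (sq_nonneg _)
  have ig := integrable_exp_neg_mul_sq Real.pi_pos
  have i2 : Integrable fun ξ => (ps c θ ξ * ‖𝓕 g ξ‖) ^ 2 :=
    (ig.const_mul ((2 * M) ^ 2)).mono' (Continuous.aestronglyMeasurable (by fun_prop))
      (ae_of_all _ fun ξ => by rw [Real.norm_of_nonneg (sq_nonneg _)]; exact b2 ξ)
  have e2 : ∀ t ξ, ‖rip_ph c θ t g ξ‖ ^ 2 = (ps c θ ξ * ‖𝓕 g ξ‖) ^ 2 := fun t ξ => by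
    rw [rip_nph, mul_pow, mul_pow, sq_abs]
  have i1 : ∀ t, Integrable (rip_ph c θ t g) := fun t =>
    (ig.const_mul (2 * M)).mono' (cph t).aestronglyMeasurable
      (ae_of_all _ fun ξ => (rip_nph c θ t g ξ).trans_le (b1 ξ))
  have m2 : ∀ t, MemLp (rip_ph c θ t g) 2 := fun t =>
    (memLp_two_iff_integrable_sq_norm (cph t).aestronglyMeasurable).2
      (by simp only [e2]; exact i2)
  have hV : ∀ t x, V c θ t g x = 𝓕 (rip_ph c θ t g) (-x) := fun t x => h_vF c θ t x g hc hi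
  refine ⟨⟨∫⁻ ξ, ENNReal.ofReal ((ps c θ ξ * ‖𝓕 g ξ‖) ^ 2), i2.lintegral_lt_top.ne, fun t => ?_⟩,
    ?_, fun t s => ?_⟩
  · have k : N 2 (V c θ t g) = N 2 (𝓕 (rip_ph c θ t g)) := by
      simp only [N, hV]
      exact lintegral_neg_eq_self fun x => ‖𝓕 (rip_ph c θ t g) x‖ₑ ^ (2 : ℝ)
    rw [k]
    refine (h_bes _ (i1 t)).trans (le_of_eq (lintegral_congr fun ξ => ?_))
    rw [← e2 t, ← ofReal_norm, ENNReal.ofReal_rpow_of_nonneg (norm_nonneg _) (by norm_num),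
      Real.rpow_two]
  · refine continuous_of_dominated (bound := fun ξ => (ps c θ ξ * ‖𝓕 g ξ‖) ^ 2)
      (fun τ => Continuous.aestronglyMeasurable (by fun_prop))
      (fun τ => ae_of_all _ fun ξ => ?_) i2 (ae_of_all _ fun ξ => by fun_prop)
    have k := rip_norm τ ξ
    unfold rip_e at k
    rw [norm_mul, k, mul_one, Complex.norm_real, Real.norm_of_nonneg (sq_nonneg _)]
  · simp only [hV]
    rw [integral_neg_eq_self (fun x => 𝓕 (rip_ph c θ t g) x *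
      (starRingEnd ℂ) (𝓕 (rip_ph c θ s g) x)), (h_pars _ _ (i1 t) (i1 s) (m2 t) (m2 s)).2]
    refine integral_congr_ae (ae_of_all _ fun ξ => ?_)
    have k := rip_conj t s ξ
    have k2 := Complex.mul_conj' (𝓕 g ξ)
    show rip_ph c θ t g ξ * (starRingEnd ℂ) (rip_ph c θ s g ξ) =
      (((ps c θ ξ * ‖𝓕 g ξ‖) ^ 2 : ℝ) : ℂ) * rip_e (t - s) ξ
    rw [← k]
    simp only [rip_ph, map_mul, Complex.conj_ofReal]
    push_cast
    rw [mul_pow, ← k2]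
    ring

end Vale.Agent.P117
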