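import Vale.Agent.P117.Stm3

namespace Vale.Agent.P117

open MeasureTheory FourierTransform Set
open scoped ENNReal

theorem rkb_int {K b s : ℝ} (hK : 0 ≤ K) (hb : 0 < b) (hs : 0 ≤ s) (h : Real.pi / b ≤ s ^ 2) :
    ∫⁻ z : ℝ, ENNReal.ofReal (K * Real.exp (-b * z ^ 2)) ≤ ENNReal.ofReal (K * s) := by
  rw [← ofReal_integral_eq_lintegral_ofReal ((integrable_exp_neg_mul_sq hb).const_mul K)
    (ae_of_all _ fun z => by positivity), integral_const_mul, integral_gaussian]
  exact ENNReal.ofReal_le_ofReal (mul_le_mul_of_nonneg_left (Real.sqrt_le_iff.2 ⟨hs, h⟩) hK)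

theorem rkb_pt {w A z : ℝ} (hw : 0 < w) (hA : 1 ≤ A) (hz : A * w ≤ |z|) :
    Real.exp (-(Real.pi * z ^ 2 / w ^ 2)) ≤
      Real.exp (-A) * Real.exp (-(Real.pi / (2 * w ^ 2)) * z ^ 2) := by
  rw [← Real.exp_add, Real.exp_le_exp]
  have h1 : (A * w) ^ 2 ≤ z ^ 2 := by
    rw [← sq_abs z]
    exact pow_le_pow_left₀ (by positivity) hz 2
  have h2 : A ^ 2 ≤ z ^ 2 / w ^ 2 := by
    rw [le_div_iff₀ (by positivity), ← mul_pow]
    exact h1
  have e1 : Real.pi * z ^ 2 / w ^ 2 = Real.pi * (z ^ 2 / w ^ 2) := by ring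
  have e2 : -(Real.pi / (2 * w ^ 2)) * z ^ 2 = -(Real.pi / 2 * (z ^ 2 / w ^ 2)) := by ring
  rw [e1, e2]
  have h3 := Real.two_le_pi
  have h4 : A ≤ z ^ 2 / w ^ 2 := by nlinarith
  have h5 := mul_le_mul_of_nonneg_right h3 (show 0 ≤ z ^ 2 / w ^ 2 by positivity)
  linarith

theorem r_kb (h_kn : R_kn) : R_kb := by
  intro T c θ t A hAd ht hA
  have hk := fun z => h_kn T c θ t z hAd ht
  have hT : 0 < T := by linarith [hAd.1, hAd.2.1]
  have hc : 1 ≤ √c := Real.one_le_sqrt.2 hAd.1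
  have hw : 0 < 5 * T / √c := by positivity
  have hw' : 5 * T / √c ≤ 5 * T := div_le_self (by positivity) hc
  generalize 5 * T / √c = w at *
  have hpi := Real.pi_pos
  constructor
  · refine le_trans (lintegral_mono fun z => ?_) ((rkb_int (K := 2) (b := Real.pi / w ^ 2)
      (s := w) zero_le_two (by positivity) hw.le (le_of_eq (by field_simp))).trans
      (ENNReal.ofReal_le_ofReal (by linarith)))
    rw [← ofReal_norm]
    refine ENNReal.ofReal_le_ofReal ((hk z).trans (le_of_eq ?_))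
    congr 2
    ring
  · refine le_trans (lintegral_mono fun z => ?_) ((rkb_int (K := 2 * Real.exp (-A))
      (b := Real.pi / (2 * w ^ 2)) (s := 2 * w) (by positivity) (by positivity) (by positivity)
      ?_).trans (ENNReal.ofReal_le_ofReal ?_))
    · by_cases hz : z ∈ {z : ℝ | A * w ≤ |z|}
      · rw [Set.indicator_of_mem hz, ← ofReal_norm, mul_assoc]
        exact ENNReal.ofReal_le_ofReal ((hk z).trans
          (mul_le_mul_of_nonneg_left (rkb_pt hw hA hz) zero_le_two))
      · rw [Set.indicator_of_notMem hz]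
        exact zero_le
    · have e : Real.pi / (Real.pi / (2 * w ^ 2)) = 2 * w ^ 2 := by field_simp
      rw [e]
      nlinarith [sq_nonneg w]
    · nlinarith [Real.exp_pos (-A)]

end Vale.Agent.P117
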