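import Vale.Agent.P117.Stm3

namespace Vale.Agent.P117

open MeasureTheory FourierTransform Set
open scoped ENNReal

theorem rkn_one (c t z : ℝ) (hc : 1 ≤ c) :
    ‖kc c t z‖ ≤ Real.exp (-(Real.pi * z ^ 2 * (c / (c ^ 2 + 4 * t ^ 2)))) := by
  have hsq : Complex.normSq ((c : ℂ) + 2 * Complex.I * t) = c ^ 2 + 4 * t ^ 2 := by
    simp [Complex.normSq_apply]
    ring
  have hre : ((c : ℂ) + 2 * Complex.I * t).re = c := by simp
  have h : -(Real.pi : ℂ) / ((c : ℂ) + 2 * Complex.I * t) * (z : ℂ) ^ 2 =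
      ((-(Real.pi * z ^ 2) : ℝ) : ℂ) / ((c : ℂ) + 2 * Complex.I * t) := by
    push_cast
    ring
  have h2 : (-(Real.pi : ℂ) / ((c : ℂ) + 2 * Complex.I * t) * (z : ℂ) ^ 2).re =
      -(Real.pi * z ^ 2 * (c / (c ^ 2 + 4 * t ^ 2))) := by
    rw [h, Complex.div_re, hsq, Complex.ofReal_re, Complex.ofReal_im, hre]
    ring
  have h1 : (1 / 2 : ℂ) = ((1 / 2 : ℝ) : ℂ) := by push_cast; rfl
  have h3 : 1 ≤ ‖(c : ℂ) + 2 * Complex.I * t‖ := by
    refine hc.trans ?_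
    have := Complex.re_le_norm ((c : ℂ) + 2 * Complex.I * t)
    rwa [hre] at this
  have h4 : 1 ≤ ‖(c : ℂ) + 2 * Complex.I * t‖ ^ (1 / 2 : ℝ) := Real.one_le_rpow h3 (by norm_num)
  rw [kc, norm_mul, norm_div, Complex.norm_exp, h2, h1, Complex.norm_cpow_real, norm_one]
  exact mul_le_of_le_one_left (Real.exp_pos _).le ((div_le_one (by linarith)).2 h4)

theorem r_kn : R_kn := by
  intro T c θ t z hA ht
  obtain ⟨hc, hcT, hθ⟩ := hA
  have c0 : 0 < c := by linarith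
  have T0 : 0 < T := by linarith
  have hθ1 : ‖(θ : ℂ)‖ ≤ 1 := by
    rcases hθ with h | ⟨h, -⟩ <;> simp [h]
  have ht2 : t ^ 2 ≤ (2 * T) ^ 2 := by
    rw [← sq_abs]
    exact pow_le_pow_left₀ (abs_nonneg _) ht 2
  have hc2 : c ^ 2 ≤ T ^ 2 := pow_le_pow_left₀ c0.le hcT 2
  have e : Real.pi * z ^ 2 / (5 * T / √c) ^ 2 = Real.pi * z ^ 2 * (c / (25 * T ^ 2)) := by
    rw [div_pow, Real.sq_sqrt c0.le]
    field_simp
    ring
  have hpz : 0 ≤ Real.pi * z ^ 2 := by positivity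
  have hT2 : 0 < T ^ 2 := by positivity
  have a1 : ‖kc c t z‖ ≤ Real.exp (-(Real.pi * z ^ 2 * (c / (25 * T ^ 2)))) := by
    refine (rkn_one c t z hc).trans (Real.exp_le_exp.2 (neg_le_neg
      (mul_le_mul_of_nonneg_left ?_ hpz)))
    exact div_le_div_of_nonneg_left c0.le (by positivity) (by nlinarith)
  have a2 : ‖kc (4 * c) t z‖ ≤ Real.exp (-(Real.pi * z ^ 2 * (c / (25 * T ^ 2)))) := by
    refine (rkn_one (4 * c) t z (by linarith)).trans (Real.exp_le_exp.2 (neg_le_neg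
      (mul_le_mul_of_nonneg_left ?_ hpz)))
    have b1 : c / (25 * T ^ 2) = 4 * c / (100 * T ^ 2) := by
      field_simp
      ring
    rw [b1]
    exact div_le_div_of_nonneg_left (by positivity) (by positivity) (by nlinarith)
  rw [e, kv]
  refine (norm_sub_le _ _).trans ?_
  rw [norm_mul]
  have a3 := mul_le_of_le_one_left (norm_nonneg (kc (4 * c) t z)) hθ1
  linarith

end Vale.Agent.P117
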