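import Vale.Agent.P117.Stm3

/-! The square norm of a dyadic piece. -/

namespace Vale.Agent.P117

open MeasureTheory FourierTransform Set
open scoped ENNReal

theorem rL2_abs {X Y : Type} [MeasurableSpace X] [MeasurableSpace Y] (ν : Measure X)
    (μ : Measure Y) [SFinite ν] [SFinite μ] (P : Y → X → ℂ)
    (hH : Integrable (fun z : X × (Y × Y) => P z.2.1 z.1 * (starRingEnd ℂ) (P z.2.2 z.1))
      (ν.prod (μ.prod μ))) :
    ∫⁻ x, ‖∫ t, P t x ∂μ‖ₑ ^ (2 : ℝ) ∂ν ≤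
      ∫⁻ q, ‖∫ x, P q.1 x * (starRingEnd ℂ) (P q.2 x) ∂ν‖ₑ ∂(μ.prod μ) := by
  have e1 : ∀ x, ∫ q, P q.1 x * (starRingEnd ℂ) (P q.2 x) ∂(μ.prod μ) =
      ((‖∫ t, P t x ∂μ‖ ^ 2 : ℝ) : ℂ) := fun x => by
    rw [integral_prod_mul (fun t => P t x) (fun s => (starRingEnd ℂ) (P s x)), integral_conj,
      Complex.mul_conj', Complex.ofReal_pow]
  have i1 : Integrable (fun x => ((‖∫ t, P t x ∂μ‖ ^ 2 : ℝ) : ℂ)) ν :=
    hH.integral_prod_left.congr (Filter.Eventually.of_forall e1)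
  have i2 : Integrable (fun x => ‖∫ t, P t x ∂μ‖ ^ 2) ν := i1.re
  have e2 : ∫⁻ x, ‖∫ t, P t x ∂μ‖ₑ ^ (2 : ℝ) ∂ν = ENNReal.ofReal (∫ x, ‖∫ t, P t x ∂μ‖ ^ 2 ∂ν) := by
    rw [ofReal_integral_eq_lintegral_ofReal i2 (Filter.Eventually.of_forall fun x => sq_nonneg _)]
    refine lintegral_congr fun x => ?_
    rw [ENNReal.rpow_two, ENNReal.ofReal_pow (norm_nonneg _), ofReal_norm]
  have e3 : ((∫ x, ‖∫ t, P t x ∂μ‖ ^ 2 ∂ν : ℝ) : ℂ) =
      ∫ q, (∫ x, P q.1 x * (starRingEnd ℂ) (P q.2 x) ∂ν) ∂(μ.prod μ) := by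
    rw [← integral_complex_ofReal, ← integral_integral_swap
      (f := fun x (q : Y × Y) => P q.1 x * (starRingEnd ℂ) (P q.2 x)) hH]
    exact integral_congr_ae (Filter.Eventually.of_forall fun x => (e1 x).symm)
  rw [e2]
  refine le_trans ?_ (enorm_integral_le_lintegral_enorm _)
  rw [← e3, ← ofReal_norm, Complex.norm_real]
  exact ENNReal.ofReal_le_ofReal (le_abs_self _)

theorem rL2_ab (a b : ℝ≥0∞) : a * b ≤ a ^ (2 : ℝ) + b ^ (2 : ℝ) := by
  rw [ENNReal.rpow_two, ENNReal.rpow_two, sq, sq]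
  rcases le_total a b with h | h
  · exact (mul_le_mul_left h b).trans le_add_self
  · exact (mul_le_mul_right h a).trans le_self_add

theorem rL2_conj (z : ℂ) : ‖(starRingEnd ℂ) z‖ₑ = ‖z‖ₑ := by
  rw [← ofReal_norm, ← ofReal_norm, RCLike.norm_conj]

theorem r_L2 (h_vm : R_vm) (h_ip : R_ip) (h_prod : S_prod) (h_lprod : S_lprod) : R_L2 := by
  intro a α T c θ g ha hα hb hT hc hθ hg
  have mD : MeasurableSet (D T) := (measurableSet_le measurable_const measurable_id.abs).inter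
    (measurableSet_le measurable_id.abs measurable_const)
  have fD : IsFiniteMeasure (volume.restrict (D T)) := isFiniteMeasure_restrict.2
    ((measure_mono fun t ht => abs_le.1 ht.2).trans_lt (measure_Icc_lt_top (a := -(2 * T))
      (b := 2 * T))).ne
  have ae : ∀ᵐ q ∂((volume.restrict (D T)).prod (volume.restrict (D T))), q ∈ D T ×ˢ D T := by
    rw [Measure.prod_restrict]
    exact ae_restrict_mem (mD.prod mD)
  have mV := fun j => (h_vm (c j) (θ j) (hc j) (hθ j)).2.2.1 (g j) (hg j).1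
  choose B B0 hB using fun j => (h_ip (c j) (θ j) (g j) (hc j) (hθ j) (hg j)).1
  have mP : Measurable fun z : ℝ × E3 => a z.1 * ∏ j, V (c j) (θ j) z.1 (g j) (z.2 j) :=
    (ha.comp measurable_fst).mul (Finset.measurable_prod _ fun j _ =>
      (mV j).comp (f := fun z : ℝ × E3 => (z.1, z.2 j)) (by fun_prop))
  have id1 : ∀ (t s : ℝ) (x : E3), (a t * ∏ j, V (c j) (θ j) t (g j) (x j)) *
      (starRingEnd ℂ) (a s * ∏ j, V (c j) (θ j) s (g j) (x j)) = a t * (starRingEnd ℂ) (a s) *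
      ∏ j, (V (c j) (θ j) t (g j) (x j) * (starRingEnd ℂ) (V (c j) (θ j) s (g j) (x j))) := by
    intro t s x
    rw [map_mul, map_prod, Finset.prod_mul_distrib]
    ring
  have ba : ∀ q ∈ D T ×ˢ D T, ‖a q.1 * (starRingEnd ℂ) (a q.2)‖ₑ ≤ ENNReal.ofReal (α ^ 2) := by
    intro q hq
    rw [← ofReal_norm, norm_mul, RCLike.norm_conj, sq]
    exact ENNReal.ofReal_le_ofReal (mul_le_mul (hb _ hq.1) (hb _ hq.2) (norm_nonneg _) hα)
  have ep : ∀ z : Fin 3 → ℂ, ‖∏ j, z j‖ₑ = ∏ j, ‖z j‖ₑ := fun z => by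
    simp only [Fin.prod_univ_three, enorm_mul]
  have mH : Measurable fun z : E3 × (ℝ × ℝ) => (a z.2.1 * ∏ j, V (c j) (θ j) z.2.1 (g j) (z.1 j)) *
      (starRingEnd ℂ) (a z.2.2 * ∏ j, V (c j) (θ j) z.2.2 (g j) (z.1 j)) :=
    (mP.comp (f := fun z : E3 × (ℝ × ℝ) => (z.2.1, z.1)) (by fun_prop)).mul
      (Complex.continuous_conj.measurable.comp
        (mP.comp (f := fun z : E3 × (ℝ × ℝ) => (z.2.2, z.1)) (by fun_prop)))
  have mt : ∀ j t, Measurable fun y => ‖V (c j) (θ j) t (g j) y‖ₑ := fun j t =>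
    ((mV j).comp (measurable_prodMk_left (x := t))).enorm
  have sl : ∀ q ∈ D T ×ˢ D T, ∫⁻ x : E3, ‖(a q.1 * ∏ j, V (c j) (θ j) q.1 (g j) (x j)) *
      (starRingEnd ℂ) (a q.2 * ∏ j, V (c j) (θ j) q.2 (g j) (x j))‖ₑ ≤
      ENNReal.ofReal (α ^ 2) * ∏ j, (B j + B j) := by
    intro q hq
    refine (lintegral_mono (g := fun x : E3 => ENNReal.ofReal (α ^ 2) *
      ∏ j, (‖V (c j) (θ j) q.1 (g j) (x j)‖ₑ * ‖V (c j) (θ j) q.2 (g j) (x j)‖ₑ)) fun x => ?_).trans ?_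
    · show ‖_‖ₑ ≤ _
      rw [id1, enorm_mul, ep]
      simp only [enorm_mul (V _ _ _ _ _), rL2_conj]
      exact mul_le_mul_left (ba q hq) _
    · rw [lintegral_const_mul' _ _ ENNReal.ofReal_ne_top, h_lprod (fun j y =>
        ‖V (c j) (θ j) q.1 (g j) y‖ₑ * ‖V (c j) (θ j) q.2 (g j) y‖ₑ) fun j => (mt j _).mul (mt j _)]
      refine mul_le_mul_right (Finset.prod_le_prod' fun j _ => ?_) _
      refine (lintegral_mono fun y => rL2_ab _ _).trans ?_
      rw [lintegral_add_left ((mt j _).pow_const _)]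
      exact add_le_add (hB j _) (hB j _)
  have iH : Integrable (fun z : E3 × (ℝ × ℝ) => (a z.2.1 * ∏ j, V (c j) (θ j) z.2.1 (g j) (z.1 j)) *
      (starRingEnd ℂ) (a z.2.2 * ∏ j, V (c j) (θ j) z.2.2 (g j) (z.1 j)))
      (volume.prod ((volume.restrict (D T)).prod (volume.restrict (D T)))) := by
    refine ⟨mH.aestronglyMeasurable, ?_⟩
    rw [hasFiniteIntegral_iff_enorm, lintegral_prod_symm _ mH.enorm.aemeasurable]
    refine (lintegral_mono_ae (ae.mono sl)).trans_lt ?_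
    rw [lintegral_const]
    exact ENNReal.mul_lt_top (ENNReal.mul_lt_top ENNReal.ofReal_lt_top (ENNReal.prod_lt_top
      fun j _ => ENNReal.add_lt_top.2 ⟨(B0 j).lt_top, (B0 j).lt_top⟩)) (measure_lt_top _ _)
  refine (rL2_abs volume (volume.restrict (D T))
    (fun t (x : E3) => a t * ∏ j, V (c j) (θ j) t (g j) (x j)) iH).trans ?_
  refine le_trans (lintegral_mono_ae (ae.mono fun q hq => ?_)) (lintegral_prod_le
    (fun q : ℝ × ℝ => ENNReal.ofReal (α ^ 2) * ∏ j, ‖nu (c j) (θ j) (g j) (q.1 - q.2)‖ₑ))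
  simp only [id1]
  rw [integral_const_mul, h_prod (fun j y =>
    V (c j) (θ j) q.1 (g j) y * (starRingEnd ℂ) (V (c j) (θ j) q.2 (g j) y)), enorm_mul, ep]
  refine mul_le_mul' (ba q hq) (le_of_eq (Finset.prod_congr rfl fun j _ => ?_))
  rw [(h_ip (c j) (θ j) (g j) (hc j) (hθ j) (hg j)).2.2]

end Vale.Agent.P117
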