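import Vale.Agent.P117.Stm3

/-! The contribution of small times. -/

namespace Vale.Agent.P117

open MeasureTheory FourierTransform Set
open scoped ENNReal

theorem rlow_vol : volume (Icc (-1 : ℝ) 1) = 2 := by
  rw [Real.volume_Icc]
  norm_num

theorem rlow_num (p : ℝ) (hp : 1 ≤ p) :
    (2 : ℝ≥0∞) ^ (p - 1) * 2 * ((2 : ℝ≥0∞) ^ p) ^ 3 = 16 ^ p := by
  have hp0 : 0 ≤ p := by linarith
  have h1 : (2 : ℝ≥0∞) ^ (p - 1) * 2 = 2 ^ p := by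
    have h2 := ENNReal.rpow_add (x := 2) (p - 1) 1 (by norm_num) (by norm_num)
    rw [ENNReal.rpow_one, sub_add_cancel] at h2
    exact h2.symm
  have h3 : (16 : ℝ≥0∞) = 2 * 2 * 2 * 2 := by norm_num
  rw [h1, h3, ENNReal.mul_rpow_of_nonneg _ _ hp0, ENNReal.mul_rpow_of_nonneg _ _ hp0,
    ENNReal.mul_rpow_of_nonneg _ _ hp0]
  ring

theorem r_low (h_jen : R_jen) (h_kmeas : S_kmeas) (h_small : S_small) (h_lprod : S_lprod) :
    R_low := by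
  intro p g hp hg
  have hp0 : 0 ≤ p := by linarith
  have hU : ∀ j, Measurable (fun z : ℝ × ℝ => U z.1 (g j) z.2) :=
    fun j => h_kmeas.2.2.1 _ (hg j)
  have hUx : ∀ j, Measurable (fun z : E3 × ℝ => ‖U z.2 (g j) (z.1 j)‖ₑ) := fun j =>
    ((hU j).comp (measurable_snd.prodMk
      ((by fun_prop : Measurable fun x : E3 => x j).comp measurable_fst))).enorm
  have hJ : Measurable (fun z : E3 × ℝ => (∏ j, ‖U z.2 (g j) (z.1 j)‖ₑ) ^ p) :=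
    (Finset.measurable_prod _ fun j _ => hUx j).pow_const p
  have hB : (2 : ℝ≥0∞) ^ (p - 1) ≠ ⊤ :=
    ENNReal.rpow_ne_top_of_nonneg (by linarith) (by norm_num)
  have h1 : ∀ x : E3, (∫⁻ t in Icc (-1 : ℝ) 1, ∏ j, ‖U t (g j) (x j)‖ₑ) ^ p ≤
      (2 : ℝ≥0∞) ^ (p - 1) * ∫⁻ t in Icc (-1 : ℝ) 1, (∏ j, ‖U t (g j) (x j)‖ₑ) ^ p := by
    intro x
    have h := h_jen p (Icc (-1 : ℝ) 1) (fun t => ∏ j, ‖U t (g j) (x j)‖ₑ) hp
      (Finset.measurable_prod _ fun j _ =>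
        ((hU j).comp (measurable_prodMk_right (y := x j))).enorm)
    rw [rlow_vol] at h
    exact h
  have h2 : ∀ t ∈ Icc (-1 : ℝ) 1, ∫⁻ x : E3, (∏ j, ‖U t (g j) (x j)‖ₑ) ^ p ≤
      ((2 : ℝ≥0∞) ^ p) ^ 3 * ∏ j, N p (g j) := by
    intro t ht
    have hm : ∀ j, Measurable fun y => ‖U t (g j) y‖ₑ ^ p := fun j =>
      ((hU j).comp (measurable_prodMk_left (x := t))).enorm.pow_const p
    have e : ∫⁻ x : E3, (∏ j, ‖U t (g j) (x j)‖ₑ) ^ p = ∏ j, N p (U t (g j)) := by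
      simp only [N]
      rw [← h_lprod (fun j y => ‖U t (g j) y‖ₑ ^ p) hm]
      refine lintegral_congr fun x => ?_
      simp only [Fin.prod_univ_three, ENNReal.mul_rpow_of_nonneg _ _ hp0]
    rw [e]
    calc ∏ j, N p (U t (g j)) ≤ ∏ j, ((2 : ℝ≥0∞) ^ p * N p (g j)) :=
          Finset.prod_le_prod' fun j _ => h_small t p (g j) (abs_le.2 ht) hp (hg j)
      _ = _ := by
          simp only [Fin.prod_univ_three]
          ring
  calc ∫⁻ x : E3, (∫⁻ t in Icc (-1 : ℝ) 1, ∏ j, ‖U t (g j) (x j)‖ₑ) ^ p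
      ≤ ∫⁻ x : E3, (2 : ℝ≥0∞) ^ (p - 1) *
        ∫⁻ t in Icc (-1 : ℝ) 1, (∏ j, ‖U t (g j) (x j)‖ₑ) ^ p := lintegral_mono h1
    _ = (2 : ℝ≥0∞) ^ (p - 1) * ∫⁻ t in Icc (-1 : ℝ) 1, ∫⁻ x : E3,
        (∏ j, ‖U t (g j) (x j)‖ₑ) ^ p := by
        rw [lintegral_const_mul' _ _ hB, lintegral_lintegral_swap hJ.aemeasurable]
    _ ≤ (2 : ℝ≥0∞) ^ (p - 1) * ∫⁻ _t in Icc (-1 : ℝ) 1,
        ((2 : ℝ≥0∞) ^ p) ^ 3 * ∏ j, N p (g j) :=
        mul_le_mul_right (setLIntegral_mono' measurableSet_Icc h2) _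
    _ = _ := by
        rw [setLIntegral_const, rlow_vol, ← rlow_num p hp]
        ring

end Vale.Agent.P117
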