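import Vale.Agent.P117.Stm3

namespace Vale.Agent.P117

open MeasureTheory FourierTransform Set
open scoped ENNReal

theorem rnear_one (p T A c : ℝ) (hp : 0 < p) (hT : 0 < T) (hA : 0 < A) (hc : 0 < c) :
    (A * (5 * T / √c)) ^ (1 - p / 2) *
      (T ^ (1 / 3 - 2 * (1 / p - 1 / 2)) * c ^ (1 / p - 1 / 2)) ^ (p / 2) =
      (5 * A) ^ (1 - p / 2) * T ^ (p / 6) := by
  have hs : 0 < √c := Real.sqrt_pos.mpr hc
  have h1 : 0 < A * (5 * T / √c) := by positivity
  have h2 : 0 < T ^ (1 / 3 - 2 * (1 / p - 1 / 2)) * c ^ (1 / p - 1 / 2) := by positivity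
  have h3 : 0 < 5 * A := by positivity
  rw [Real.rpow_def_of_pos h1, Real.rpow_def_of_pos h2, Real.rpow_def_of_pos h3,
    Real.rpow_def_of_pos hT (p / 6), ← Real.exp_add, ← Real.exp_add,
    Real.log_mul hA.ne' (by positivity), Real.log_div (by positivity) hs.ne',
    Real.log_mul (by norm_num) hT.ne', Real.log_sqrt hc.le,
    Real.log_mul (by positivity) (by positivity), Real.log_rpow hT, Real.log_rpow hc,
    Real.log_mul (by norm_num) hA.ne']
  refine congrArg Real.exp ?_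
  field_simp
  ring

theorem rnear_real (p α T A : ℝ) (c : Fin 3 → ℝ) (hp : 3 / 2 ≤ p) (hα : 0 ≤ α) (hT : 1 ≤ T)
    (hA : 1 ≤ A) (hc : ∀ j, 1 ≤ c j) :
    (∏ j, A * (5 * T / √(c j))) ^ (1 - p / 2) * (α ^ 2 * (4 * T) *
      ∏ j, T ^ (1 / 3 - 2 * (1 / p - 1 / 2)) * c j ^ (1 / p - 1 / 2)) ^ (p / 2) ≤
      10 ^ p * (α * T * A) ^ p := by
  have hp0 : 0 < p := by linarith
  have hT0 : 0 < T := by linarith
  have hA0 : 0 < A := by linarith
  have hc0 : ∀ j, 0 < c j := fun j => by linarith [hc j]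
  have n1 : ∀ j, 0 ≤ A * (5 * T / √(c j)) := fun j => by positivity
  have n2 : ∀ j, 0 ≤ T ^ (1 / 3 - 2 * (1 / p - 1 / 2)) * c j ^ (1 / p - 1 / 2) := fun j => by
    have := hc0 j
    positivity
  rw [Real.mul_rpow (by positivity) (Finset.prod_nonneg fun j _ => n2 j),
    ← Real.finsetProd_rpow _ _ fun j _ => n1 j, ← Real.finsetProd_rpow _ _ fun j _ => n2 j,
    mul_left_comm, ← Finset.prod_mul_distrib,
    Finset.prod_congr rfl fun j _ => rnear_one p T A (c j) hp0 hT0 hA0 (hc0 j),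
    Finset.prod_const, Finset.card_univ, Fintype.card_fin, mul_pow]
  have e1 : (α ^ 2 * (4 * T)) ^ (p / 2) = (2 * α) ^ p * T ^ (p / 2) := by
    have : α ^ 2 * (4 * T) = (2 * α) ^ (2 : ℝ) * T := by
      rw [Real.rpow_two]
      ring
    rw [this, Real.mul_rpow (by positivity) hT0.le, ← Real.rpow_mul (by positivity)]
    have h2 : 2 * (p / 2) = p := by ring
    rw [h2]
  have e2 : (T ^ (p / 6)) ^ 3 = T ^ (p / 2) := by
    rw [← Real.rpow_natCast, ← Real.rpow_mul hT0.le]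
    have h2 : p / 6 * ((3 : ℕ) : ℝ) = p / 2 := by
      push_cast
      ring
    rw [h2]
  have e3 : ((5 * A) ^ (1 - p / 2)) ^ 3 ≤ (5 * A) ^ p := by
    rw [← Real.rpow_natCast, ← Real.rpow_mul (by positivity)]
    refine Real.rpow_le_rpow_of_exponent_le (by linarith) ?_
    push_cast
    linarith
  have e4 : T ^ (p / 2) * T ^ (p / 2) = T ^ p := by
    rw [← Real.rpow_add hT0, add_halves]
  have e5 : (10 : ℝ) ^ p * (α * T * A) ^ p = (2 * α) ^ p * T ^ p * (5 * A) ^ p := by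
    rw [← Real.mul_rpow (by norm_num) (by positivity), ← Real.mul_rpow (by positivity) hT0.le,
      ← Real.mul_rpow (by positivity) (by positivity)]
    have h2 : 10 * (α * T * A) = 2 * α * T * (5 * A) := by ring
    rw [h2]
  rw [e1, e2, e5, ← e4]
  calc (2 * α) ^ p * T ^ (p / 2) * (((5 * A) ^ (1 - p / 2)) ^ 3 * T ^ (p / 2))
      = (2 * α) ^ p * (T ^ (p / 2) * T ^ (p / 2)) * ((5 * A) ^ (1 - p / 2)) ^ 3 := by ring
    _ ≤ _ := mul_le_mul_of_nonneg_left e3 (by positivity)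

theorem r_near (h_ip : R_ip) (h_L2 : R_L2) (h_tt : R_tt) (h_nu1 : R_nu1) (h_nu0 : R_nu0) :
    R_near := by
  intro p hp1 hp2
  have hp0 : 0 < p := by linarith
  obtain ⟨C1, f1, h1⟩ := h_nu1 p hp1 hp2
  obtain ⟨C0, f0, h0⟩ := h_nu0 p hp1 hp2
  have fm : max C1 C0 ≠ ⊤ := (max_lt f1.lt_top f0.lt_top).ne
  refine ⟨(max C1 C0 ^ 3) ^ (p / 2) * ENNReal.ofReal (10 ^ p), ENNReal.mul_ne_top
    (ENNReal.rpow_ne_top_of_nonneg (by positivity) (ENNReal.pow_ne_top fm))
    ENNReal.ofReal_ne_top, ?_⟩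
  intro a α T A c θ g ha hα haα hT hA hadm hg
  have hc : ∀ j, 1 ≤ c j := fun j => (hadm j).1
  have hθ : ∀ j, |θ j| ≤ 1 := fun j => by
    rcases (hadm j).2.2 with h | h
    · rw [h, abs_one]
    · rw [h.1, abs_zero]
      exact zero_le_one
  obtain ⟨w, hw⟩ : ∃ w : Fin 3 → ℝ,
      w = fun j => T ^ (1 / 3 - 2 * (1 / p - 1 / 2)) * c j ^ (1 / p - 1 / 2) := ⟨_, rfl⟩
  have w0 : ∀ j, 0 ≤ w j := fun j => by
    have : 0 < c j := by linarith [hc j]
    have : 0 < T := by linarith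
    rw [hw]
    positivity
  have hI : ∀ j, I3 T (nu (c j) (θ j) (g j)) ≤
      max C1 C0 * ENNReal.ofReal (w j) * N p (g j) ^ (2 / p) := fun j => by
    rw [hw]
    rcases (hadm j).2.2 with h | h
    · rw [h]
      refine (h1 T (c j) (g j) hT (hc j) (hg j)).trans ?_
      gcongr
      exact le_max_left _ _
    · rw [h.1]
      refine (h0 T (c j) (g j) hT (hc j) h.2 (hg j)).trans ?_
      gcongr
      exact le_max_right _ _
  have s1 := h_L2 a α T c θ g ha hα haα hT hc hθ hg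
  simp only [lintegral_const_mul' _ _ ENNReal.ofReal_ne_top] at s1
  have s2 := h_tt T (fun j => nu (c j) (θ j) (g j)) hT
    fun j => (h_ip (c j) (θ j) (g j) (hc j) (hθ j) (hg j)).2.1.measurable
  have s3 : ∫⁻ x, ‖Op a T c θ g x‖ₑ ^ (2 : ℝ) ≤ max C1 C0 ^ 3 *
      ENNReal.ofReal (α ^ 2 * (4 * T) * ∏ j, w j) * ∏ j, N p (g j) ^ (2 / p) := by
    refine (s1.trans (mul_le_mul_right (s2.trans (mul_le_mul_right
      (Finset.prod_le_prod' fun j _ => hI j) _)) _)).trans (le_of_eq ?_)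
    rw [Finset.prod_mul_distrib, Finset.prod_mul_distrib, Finset.prod_const, Finset.card_univ,
      Fintype.card_fin, ENNReal.ofReal_mul (p := α ^ 2 * (4 * T)) (by positivity),
      ENNReal.ofReal_mul (p := α ^ 2) (by positivity),
      ENNReal.ofReal_prod_of_nonneg fun j _ => w0 j]
    ring
  have s4 := ENNReal.rpow_le_rpow s3 (by positivity : 0 ≤ p / 2)
  have e1 : (∏ j, N p (g j) ^ (2 / p)) ^ (p / 2) = ∏ j, N p (g j) := by
    rw [← ENNReal.prod_rpow_of_nonneg (by positivity)]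
    refine Finset.prod_congr rfl fun j _ => ?_
    rw [← ENNReal.rpow_mul]
    have h2 : 2 / p * (p / 2) = 1 := by field_simp
    rw [h2, ENNReal.rpow_one]
  have n0 : 0 ≤ α ^ 2 * (4 * T) * ∏ j, w j :=
    mul_nonneg (by positivity) (Finset.prod_nonneg fun j _ => w0 j)
  rw [ENNReal.mul_rpow_of_nonneg _ _ (by positivity), ENNReal.mul_rpow_of_nonneg _ _ (by positivity),
    e1, ENNReal.ofReal_rpow_of_nonneg n0 (by positivity)] at s4
  refine (mul_le_mul_right s4 _).trans ?_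
  have s5 := ENNReal.ofReal_le_ofReal (rnear_real p α T A c hp1 hα hT hA hc)
  rw [ENNReal.ofReal_mul (Real.rpow_nonneg (Finset.prod_nonneg fun j _ => by positivity) _),
    ENNReal.ofReal_mul (by positivity)] at s5
  subst hw
  calc _ = (max C1 C0 ^ 3) ^ (p / 2) * (ENNReal.ofReal ((∏ j, A * (5 * T / √(c j))) ^ (1 - p / 2)) *
        ENNReal.ofReal ((α ^ 2 * (4 * T) * ∏ j, T ^ (1 / 3 - 2 * (1 / p - 1 / 2)) *
          c j ^ (1 / p - 1 / 2)) ^ (p / 2))) * ∏ j, N p (g j) := by ring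
    _ ≤ (max C1 C0 ^ 3) ^ (p / 2) * (ENNReal.ofReal (10 ^ p) * ENNReal.ofReal ((α * T * A) ^ p)) *
        ∏ j, N p (g j) := mul_le_mul_left (mul_le_mul_right s5 _) _
    _ = _ := by ring

end Vale.Agent.P117
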