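import Vale.Agent.P117.Stm3

/-! The bound for the kernel of a band limited piece. -/

namespace Vale.Agent.P117

open MeasureTheory FourierTransform Set
open scoped ENNReal

theorem rnu1_cont {f : ℝ → ℂ} (hf : Integrable f) : Continuous (𝓕 f) :=
  VectorFourier.fourierIntegral_continuous Real.continuous_fourierChar continuous_inner hf

theorem rnu1_bd (f : ℝ → ℂ) (ξ : ℝ) : ‖𝓕 f ξ‖ ≤ ∫ y, ‖f y‖ :=
  VectorFourier.norm_fourierIntegral_le_integral_norm _ _ _ _ _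

theorem rnu1_F (h_ps : R_ps) {c : ℝ} (hc : 0 < c) {g : ℝ → ℂ} (hg : Integrable g) :
    Measurable (fun ξ => (ps c 1 ξ * ‖𝓕 g ξ‖) ^ 2) ∧
      Integrable (fun ξ => (ps c 1 ξ * ‖𝓕 g ξ‖) ^ 2) := by
  have k : Continuous fun ξ => (ps c 1 ξ * ‖𝓕 g ξ‖) ^ 2 := by
    have := rnu1_cont hg
    unfold ps
    fun_prop
  refine ⟨k.measurable, Integrable.mono' ((integrable_exp_neg_mul_sq
    (mul_pos Real.pi_pos hc)).mul_const ((∫ y, ‖g y‖) ^ 2)) k.aestronglyMeasurable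
    (Filter.Eventually.of_forall fun ξ => ?_)⟩
  obtain ⟨p0, p1, -⟩ := h_ps c ξ hc
  have p2 : ps c 1 ξ ≤ Real.exp (-(Real.pi * c) * ξ ^ 2) := by
    unfold ps
    rw [neg_mul, one_mul]
    exact sub_le_self _ (Real.exp_pos _).le
  rw [Real.norm_of_nonneg (sq_nonneg _), mul_pow]
  refine mul_le_mul (le_trans ?_ p2) (pow_le_pow_left₀ (norm_nonneg _) (rnu1_bd g ξ) 2)
    (sq_nonneg _) (Real.exp_pos _).le
  nlinarith

theorem r_nu1 (h_hy : R_hy) (h_push1 : R_push1) (h_push2 : R_push2) (h_I3 : R_I3)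
    (h_ps : R_ps) : R_nu1 := by
  intro p p1 p2
  obtain ⟨q, q1, q2, e2, e3, e4, e5, r3⟩ : ∃ q : ℝ, 1 < q ∧ q ≤ 3 / 2 ∧
      (q - 1) / 2 * (1 / q) = 1 / p - 1 / 2 ∧ 1 / (p - 1) * (1 / q) = 2 / p ∧
      1 / (q / (q - 1)) = 2 * (1 / p - 1 / 2) ∧ 2 * q = p / (p - 1) ∧ 3 ≤ q / (q - 1) := by
    have a : 0 < p - 1 := by linarith
    have a0 : 0 < p := by linarith
    have b1 : 1 < p / (2 * (p - 1)) := by
      rw [lt_div_iff₀ (by positivity)]
      linarith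
    have b2 : p / (2 * (p - 1)) ≤ 3 / 2 := by
      rw [div_le_iff₀ (by positivity)]
      linarith
    refine ⟨p / (2 * (p - 1)), b1, b2, ?_, ?_, ?_, ?_, ?_⟩
    · field_simp
      ring
    · field_simp
    · rw [one_div_div]
      field_simp
      ring
    · field_simp
    · rw [le_div_iff₀ (by linarith)]
      linarith
  have q0 : 0 < q := by linarith
  have q3 : 0 < q - 1 := by linarith
  have e1 : 1 / (q - 1) * (1 / (q / (q - 1))) = 1 / q := by field_simp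
  have i1 : 0 ≤ 1 / q := by positivity
  have i2 : 0 ≤ 1 / (q / (q - 1)) := by positivity
  obtain ⟨C₁, c1, h1⟩ := h_hy q q1 (by linarith)
  obtain ⟨C₂, c2, h2⟩ := h_hy p (by linarith) p2
  refine ⟨ENNReal.ofReal 8 * C₁ ^ (1 / (q / (q - 1))) * ENNReal.ofReal 1000 ^ (1 / q) *
    C₂ ^ (1 / q), ENNReal.mul_ne_top (ENNReal.mul_ne_top (ENNReal.mul_ne_top ENNReal.ofReal_ne_top
    (ENNReal.rpow_ne_top_of_nonneg i2 c1)) (ENNReal.rpow_ne_top_of_nonneg i1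
    ENNReal.ofReal_ne_top)) (ENNReal.rpow_ne_top_of_nonneg i1 c2), fun T c g hT hc hg => ?_⟩
  have c0 : 0 < c := by linarith
  have T0 : 0 < T := by linarith
  obtain ⟨mF, iF⟩ := rnu1_F h_ps c0 hg.2.1
  obtain ⟨mG, iG, eG⟩ := h_push1 _ mF iF
  have en : nu c 1 g = 𝓕 (Gp fun ξ => (ps c 1 ξ * ‖𝓕 g ξ‖) ^ 2) := funext fun τ => eG τ
  have s1 : N q (Gp fun ξ => (ps c 1 ξ * ‖𝓕 g ξ‖) ^ 2) ≤
      ENNReal.ofReal 1000 * ENNReal.ofReal (c ^ ((q - 1) / 2)) * (C₂ * N p g ^ (1 / (p - 1))) := by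
    refine (h_push2 _ q mF (fun _ => sq_nonneg _) q1.le).trans (le_trans ?_
      (mul_le_mul_right (h2 g hg.1 hg.2.1) _))
    rw [← ENNReal.ofReal_mul (by norm_num), N, ← lintegral_const_mul' _ _ ENNReal.ofReal_ne_top]
    refine lintegral_mono fun ξ => ?_
    obtain ⟨p0, -, p3⟩ := h_ps c ξ c0
    rw [← ofReal_norm, ENNReal.ofReal_rpow_of_nonneg (norm_nonneg _) (by rw [← e5]; positivity),
      ← ENNReal.ofReal_mul (by positivity), ← e5]
    refine ENNReal.ofReal_le_ofReal ?_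
    rw [← Real.rpow_two, ← Real.rpow_mul (mul_nonneg p0 (norm_nonneg _)),
      Real.mul_rpow p0 (norm_nonneg _), mul_right_comm]
    exact mul_le_mul_of_nonneg_right (p3 q q1.le q2) (by positivity)
  have s2 := (h1 _ mG iG).trans (mul_le_mul_right (ENNReal.rpow_le_rpow s1
    (show 0 ≤ 1 / (q - 1) by positivity)) C₁)
  have s3 : ENNReal.ofReal ((8 * T) ^ (1 / 3 - 1 / (q / (q - 1)))) ≤
      ENNReal.ofReal 8 * ENNReal.ofReal (T ^ (1 / 3 - 2 * (1 / p - 1 / 2))) := by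
    rw [← ENNReal.ofReal_mul (by norm_num), ← e4, Real.mul_rpow (by norm_num) T0.le]
    refine ENNReal.ofReal_le_ofReal (mul_le_mul_of_nonneg_right ?_ (by positivity))
    exact (Real.rpow_le_rpow_of_exponent_le (by norm_num) (show _ ≤ (1 : ℝ) by linarith)).trans
      (Real.rpow_one 8).le
  rw [en]
  refine (h_I3 T _ _ hT r3 (rnu1_cont iG).measurable).trans
    ((mul_le_mul' s3 (ENNReal.rpow_le_rpow s2 i2)).trans (le_of_eq ?_))
  rw [ENNReal.mul_rpow_of_nonneg _ _ i2, ← ENNReal.rpow_mul, e1,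
    ENNReal.mul_rpow_of_nonneg _ _ i1, ENNReal.mul_rpow_of_nonneg _ _ i1,
    ENNReal.mul_rpow_of_nonneg _ _ i1, ← ENNReal.rpow_mul, e3,
    ENNReal.ofReal_rpow_of_nonneg (x := c ^ ((q - 1) / 2)) (by positivity) i1,
    ← Real.rpow_mul c0.le, e2, ENNReal.ofReal_mul (by positivity)]
  ring

end Vale.Agent.P117
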