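import Vale.Agent.P117.Stm3

namespace Vale.Agent.P117

open MeasureTheory FourierTransform Set
open scoped ENNReal

theorem ropm_gen (a : ℝ → ℂ) (W : Fin 3 → ℝ → ℝ → ℂ) (s : Set ℝ) (ha : Measurable a)
    (hW : ∀ j, Measurable (fun z : ℝ × ℝ => W j z.1 z.2)) :
    Measurable (fun x : E3 => ∫ t in s, a t * ∏ j, W j t (x j)) := by
  have h1 : Measurable (fun z : E3 × ℝ => a z.2 * ∏ j, W j z.2 (z.1 j)) := by
    refine (ha.comp measurable_snd).mul (Finset.measurable_prod _ fun j _ => ?_)
    have h2 : Measurable (fun z : E3 × ℝ => (z.2, z.1 j)) := by fun_prop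
    exact (hW j).comp h2
  exact (h1.stronglyMeasurable.integral_prod_right' (ν := volume.restrict s)).measurable

theorem r_opm (h_vm : R_vm) : R_opm := by
  intro a T c θ g ha hc hθ hg
  exact ropm_gen a (fun j t y => V (c j) (θ j) t (g j) y) (D T) ha
    fun j => (h_vm (c j) (θ j) (hc j) (hθ j)).2.2.1 (g j) (hg j)

end Vale.Agent.P117
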