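import Vale.Agent.P117.Stm3

/-! Bounded overlap of the boxes. -/

namespace Vale.Agent.P117

open MeasureTheory FourierTransform Set
open scoped ENNReal

theorem rovl_pt {L p : ℝ} (hp : 0 < p) (hL : 0 < L) (g : ℝ → ℂ) (y : ℝ) :
    ∑' m : ℤ, ‖blk L m g y‖ₑ ^ p ≤ 3 * ‖g y‖ₑ ^ p := by
  rw [tsum_eq_sum (s := Finset.Icc (⌊y / L⌋ - 1) (⌊y / L⌋ + 1))]
  · refine (Finset.sum_le_card_nsmul _ _ (‖g y‖ₑ ^ p) fun m _ => ?_).trans (le_of_eq ?_)
    · exact ENNReal.rpow_le_rpow (enorm_indicator_le_enorm_self g y) hp.le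
    · rw [Int.card_Icc, show (⌊y / L⌋ + 1 + 1 - (⌊y / L⌋ - 1)).toNat = 3 by omega, nsmul_eq_mul]
      rfl
  · intro m hm
    rw [blk, indicator_of_notMem, enorm_zero, ENNReal.zero_rpow_of_pos hp]
    rintro ⟨h1, h2⟩
    rw [← le_div_iff₀ hL] at h1
    rw [← div_lt_iff₀ hL] at h2
    have h3 : m - 1 ≤ ⌊y / L⌋ := Int.le_floor.2 (by exact_mod_cast h1)
    have h4 : ⌊y / L⌋ < m + 2 := Int.floor_lt.2 (by exact_mod_cast h2)
    exact hm (Finset.mem_Icc.2 ⟨by omega, by omega⟩)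

theorem rovl_one {L p : ℝ} (hp : 0 < p) (hL : 0 < L) {g : ℝ → ℂ} (hg : Measurable g) :
    ∑' m : ℤ, N p (blk L m g) ≤ 3 * N p g := by
  have hb : ∀ m, Measurable (blk L m g) := fun m => hg.indicator measurableSet_Ico
  unfold N
  rw [← lintegral_tsum fun m => ((hb m).enorm.pow_const p).aemeasurable,
    ← lintegral_const_mul _ (hg.enorm.pow_const p)]
  exact lintegral_mono fun y => rovl_pt hp hL g y

/-- Integer triples as functions on `Fin 3`. -/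
def rovl_eq : ℤ × ℤ × ℤ ≃ (Fin 3 → ℤ) where
  toFun z := ![z.1, z.2.1, z.2.2]
  invFun m := (m 0, m 1, m 2)
  left_inv _ := rfl
  right_inv m := by
    funext j
    fin_cases j <;> rfl

theorem rovl_prod (f : Fin 3 → ℤ → ℝ≥0∞) :
    ∑' m : Fin 3 → ℤ, ∏ j, f j (m j) = (∑' a, f 0 a) * ((∑' a, f 1 a) * ∑' a, f 2 a) := by
  rw [← rovl_eq.tsum_eq]
  have h : ∀ z : ℤ × ℤ × ℤ, ∏ j, f j (rovl_eq z j) = f 0 z.1 * (f 1 z.2.1 * f 2 z.2.2) := by
    intro z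
    rw [Fin.prod_univ_three, mul_assoc]
    rfl
  simp only [h]
  rw [ENNReal.tsum_prod']
  simp only [ENNReal.tsum_mul_left]
  rw [ENNReal.tsum_mul_right, ENNReal.tsum_prod']
  simp only [ENNReal.tsum_mul_left]
  rw [ENNReal.tsum_mul_right]

theorem r_ovl : R_ovl := by
  intro p L g hp hL hg
  rw [rovl_prod fun j a => N p (blk (L j) a (g j)), Fin.prod_univ_three]
  calc _ ≤ (3 * N p (g 0)) * ((3 * N p (g 1)) * (3 * N p (g 2))) :=
        mul_le_mul' (rovl_one hp (hL 0) (hg 0))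
          (mul_le_mul' (rovl_one hp (hL 1) (hg 1)) (rovl_one hp (hL 2) (hg 2)))
    _ = 27 * (N p (g 0) * N p (g 1) * N p (g 2)) := by ring

end Vale.Agent.P117
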