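import Vale.Agent.P117.Stm3
import Vale.Agent.P117.SBes

/-! The Parseval identity for integrable square integrable functions. -/

namespace Vale.Agent.P117

open MeasureTheory FourierTransform Set SchwartzMap
open scoped ENNReal ContDiff

theorem rpars_ae {G : ℝ → ℂ} (h1 : Integrable G) (hm : MemLp G 2 volume) :
    ((𝓕 (hm.toLp G) : Lp ℂ 2 (volume : Measure ℝ)) : ℝ → ℂ) =ᵐ[volume] 𝓕 G := by
  refine ae_eq_of_integral_contDiff_smul_eq ((Lp.memLp _).locallyIntegrable one_le_two)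
    (bes_cont h1).locallyIntegrable fun g g1 g2 => ?_
  have hg₁ : HasCompactSupport (Complex.ofRealCLM ∘ g) := g2.comp_left rfl
  have hg₂ : ContDiff ℝ ∞ (Complex.ofRealCLM ∘ g) := by fun_prop
  have a1 := Lp.toTemperedDistribution_apply (𝓕 (hm.toLp G) : Lp ℂ 2 (volume : Measure ℝ))
    (hg₁.toSchwartzMap hg₂)
  rw [← Lp.fourier_toTemperedDistribution_eq, TemperedDistribution.fourier_apply,
    Lp.toTemperedDistribution_apply] at a1
  have a2 : ∫ x, (𝓕 (hg₁.toSchwartzMap hg₂)) x • (hm.toLp G) x =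
      ∫ x, 𝓕 (hg₁.toSchwartzMap hg₂ : ℝ → ℂ) x • G x := by
    refine integral_congr_ae ?_
    filter_upwards [hm.coeFn_toLp] with x hx
    rw [hx, SchwartzMap.fourier_coe]
  rw [a2, bes_swap (hg₁.toSchwartzMap hg₂).integrable h1] at a1
  exact a1.symm

theorem rpars_inner (F G : Lp ℂ 2 (volume : Measure ℝ)) {f g : ℝ → ℂ} (hf : F =ᵐ[volume] f)
    (hg : G =ᵐ[volume] g) : inner ℂ G F = ∫ x, f x * (starRingEnd ℂ) (g x) := by
  rw [L2.inner_def]
  refine integral_congr_ae ?_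
  filter_upwards [hf, hg] with x h1 h2
  rw [h1, h2, RCLike.inner_apply]

theorem r_pars : R_pars := by
  intro φ ψ i1 i2 m1 m2
  refine ⟨(memLp_congr_ae (rpars_ae i1 m1)).1 (Lp.memLp _), ?_⟩
  rw [← rpars_inner _ _ (rpars_ae i1 m1) (rpars_ae i2 m2),
    ← rpars_inner _ _ m1.coeFn_toLp m2.coeFn_toLp]
  exact Lp.inner_fourier_eq _ _

end Vale.Agent.P117
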