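import Vale.Agent.P117.Stm3

/-! P117: the bound for one piece. -/

namespace Vale.Agent.P117

open MeasureTheory FourierTransform Set
open scoped ENNReal

theorem rpiece_good {g : ℝ → ℂ} (hg : Good g) (L : ℝ) (m : ℤ) : Good (blk L m g) := by
  obtain ⟨h1, h2, M, h3⟩ := hg
  exact ⟨h1.indicator measurableSet_Ico, h2.indicator measurableSet_Ico, M,
    fun y => (norm_indicator_le_norm_self _ _).trans (h3 y)⟩

theorem rpiece_real {η : ℝ} (hη : 0 < η) : ∃ K : ℝ, 0 ≤ K ∧ ∀ α T : ℝ, 0 ≤ α → 1 ≤ T →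
    α * (24000 * T ^ 4 * Real.exp (-T ^ η)) ≤ K * (α * T * T ^ η) := by
  obtain ⟨n, hn⟩ : ∃ n : ℕ, 3 ≤ η * n := by
    obtain ⟨n, hn⟩ := exists_nat_ge (3 / η)
    refine ⟨n, ?_⟩
    rw [div_le_iff₀ hη] at hn
    linarith
  refine ⟨24000 * (n.factorial : ℝ), by positivity, fun α T hα hT => ?_⟩
  have T0 : 0 < T := by linarith
  have A1 : 1 ≤ T ^ η := Real.one_le_rpow hT hη.le
  have f0 : (0 : ℝ) < n.factorial := by exact_mod_cast n.factorial_pos
  have h1 : (T ^ η) ^ n / (n.factorial : ℝ) ≤ Real.exp (T ^ η) :=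
    Real.pow_div_factorial_le_exp _ (by linarith) n
  have h2 : T ^ 3 ≤ (T ^ η) ^ n := by
    rw [← Real.rpow_natCast, ← Real.rpow_natCast, ← Real.rpow_mul T0.le]
    exact Real.rpow_le_rpow_of_exponent_le hT (by push_cast; exact hn)
  rw [div_le_iff₀ f0] at h1
  have h3 : T ^ 3 * Real.exp (-T ^ η) ≤ n.factorial := by
    rw [Real.exp_neg, ← div_eq_mul_inv, div_le_iff₀ (Real.exp_pos _)]
    linarith
  have h4 : T ^ 3 * Real.exp (-T ^ η) ≤ n.factorial * T ^ η :=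
    h3.trans (le_mul_of_one_le_right f0.le A1)
  have h5 := mul_le_mul_of_nonneg_left h4 (by positivity : 0 ≤ 24000 * α * T)
  calc α * (24000 * T ^ 4 * Real.exp (-T ^ η)) = 24000 * α * T * (T ^ 3 * Real.exp (-T ^ η)) := by
        ring
    _ ≤ 24000 * α * T * (n.factorial * T ^ η) := h5
    _ = _ := by ring

theorem r_piece (h_split : R_split) (h_rest : R_rest) (h_box : R_box) (h_ovl : R_ovl)
    (h_near : R_near) (h_opm : R_opm) : R_piece := by
  intro p η hp1 hp2 hη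
  obtain ⟨C, hC, hn⟩ := h_near p hp1 hp2
  obtain ⟨K, K0, hK⟩ := rpiece_real hη
  have p1 : 1 ≤ p := by linarith
  have p0 : 0 ≤ p := by linarith
  have t2 : (2 : ℝ≥0∞) ^ (p - 1) ≠ ⊤ :=
    ENNReal.rpow_ne_top_of_nonneg (by linarith) (by norm_num)
  refine ⟨2 ^ (p - 1) * (C * 27 + ENNReal.ofReal (K ^ p)), ENNReal.mul_ne_top t2
    (ENNReal.add_ne_top.2 ⟨ENNReal.mul_ne_top hC (by norm_num), ENNReal.ofReal_ne_top⟩), ?_⟩
  intro a α T c θ g ha hα hb hT hA hg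
  have T0 : 0 < T := by linarith
  have A1 : 1 ≤ T ^ η := Real.one_le_rpow hT hη.le
  have c1 : ∀ j, 1 ≤ c j := fun j => (hA j).1
  have th : ∀ j, |θ j| ≤ 1 := fun j => by
    rcases (hA j).2.2 with h | ⟨h, -⟩ <;> rw [h] <;> norm_num
  obtain ⟨L, hL⟩ : ∃ L : Fin 3 → ℝ, L = fun j => T ^ η * (5 * T / √(c j)) := ⟨_, rfl⟩
  have L0 : ∀ j, 0 < L j := fun j => by
    have : 0 < √(c j) := Real.sqrt_pos.2 (by linarith [c1 j])
    rw [hL]
    positivity
  obtain ⟨F, hF⟩ : ∃ F : (Fin 3 → ℤ) → E3 → ℂ,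
      F = fun m => Op a T c θ fun j => blk (L j) (m j) (g j) := ⟨_, rfl⟩
  have mF : ∀ m, Measurable (F m) := fun m => by
    rw [hF]
    exact h_opm a T c θ _ ha c1 th fun j => (rpiece_good (hg j) _ _).1
  obtain ⟨b1, b2⟩ := h_box p L F p1 hp2 L0 mF
  have pt : ∀ x : E3, ‖Op a T c θ g x‖ₑ ^ p ≤ 2 ^ (p - 1) *
      (‖F (fun j => ⌊x j / L j⌋) x‖ₑ ^ p +
        ENNReal.ofReal α ^ p * (∫⁻ t in D T, Rest L c θ g x t) ^ p) := fun x => by
    rw [← ENNReal.mul_rpow_of_nonneg _ _ p0]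
    refine le_trans (ENNReal.rpow_le_rpow ?_ p0) (ENNReal.rpow_add_le_mul_rpow_add_rpow _ _ p1)
    rw [hF]
    exact h_split a α T L c θ g x ha hb L0 c1 th hg
  have near : ∫⁻ x : E3, ‖F (fun j => ⌊x j / L j⌋) x‖ₑ ^ p ≤
      C * 27 * ENNReal.ofReal ((α * T * T ^ η) ^ p) * ∏ j, N p (g j) := by
    refine b2.trans ?_
    have h1 : ∀ m : Fin 3 → ℤ, ENNReal.ofReal ((∏ j, L j) ^ (1 - p / 2)) *
        (∫⁻ x, ‖F m x‖ₑ ^ (2 : ℝ)) ^ (p / 2) ≤
        C * ENNReal.ofReal ((α * T * T ^ η) ^ p) * ∏ j, N p (blk (L j) (m j) (g j)) := fun m => by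
      have := hn a α T (T ^ η) c θ (fun j => blk (L j) (m j) (g j)) ha hα hb hT A1 hA
        fun j => rpiece_good (hg j) _ _
      rw [hF]
      refine le_trans (le_of_eq ?_) this
      rw [hL]
    refine (ENNReal.tsum_le_tsum h1).trans ?_
    rw [ENNReal.tsum_mul_left]
    refine (mul_le_mul_right (h_ovl p L g (by linarith) L0 fun j => (hg j).1) _).trans
      (le_of_eq ?_)
    ring
  have far : ENNReal.ofReal α ^ p * ∫⁻ x : E3, (∫⁻ t in D T, Rest L c θ g x t) ^ p ≤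
      ENNReal.ofReal (K ^ p) * ENNReal.ofReal ((α * T * T ^ η) ^ p) * ∏ j, N p (g j) := by
    have h1 := h_rest p T (T ^ η) c θ g p1 hT A1 hA fun j => (hg j).1
    rw [← hL] at h1
    refine (mul_le_mul_right h1 _).trans ?_
    rw [← mul_assoc]
    refine mul_le_mul_left ?_ _
    rw [ENNReal.ofReal_rpow_of_nonneg hα p0, ← ENNReal.ofReal_mul (by positivity),
      ← ENNReal.ofReal_mul (by positivity), ← Real.mul_rpow hα (by positivity),
      ← Real.mul_rpow K0 (by positivity)]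
    exact ENNReal.ofReal_le_ofReal (Real.rpow_le_rpow (by positivity) (hK α T hα hT) p0)
  have ta : ENNReal.ofReal α ^ p ≠ ⊤ := ENNReal.rpow_ne_top_of_nonneg p0 ENNReal.ofReal_ne_top
  refine (lintegral_mono pt).trans ?_
  rw [lintegral_const_mul' _ _ t2, lintegral_add_left (b1.enorm.pow_const p),
    lintegral_const_mul' _ _ ta]
  refine (mul_le_mul_right (add_le_add near far) _).trans (le_of_eq ?_)
  ring

end Vale.Agent.P117
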