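import Vale.Agent.P117.Stm3

namespace Vale.Agent.P117

open MeasureTheory FourierTransform Set
open scoped ENNReal

theorem rps_aux {u : ℝ} (hu : 0 ≤ u) : 0 ≤ Real.exp (-u) - Real.exp (-(4 * u)) ∧
    Real.exp (-u) - Real.exp (-(4 * u)) ≤ 1 ∧ Real.exp (-u) - Real.exp (-(4 * u)) ≤ 3 * u := by
  have h1 : Real.exp (-u) ≤ 1 := Real.exp_le_one_iff.mpr (by linarith)
  have h2 : Real.exp (-(4 * u)) = Real.exp (-u) * Real.exp (-(3 * u)) := by
    rw [← Real.exp_add]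
    congr 1
    ring
  have h3 := Real.add_one_le_exp (-(3 * u))
  have h4 := Real.exp_pos (-u)
  refine ⟨sub_nonneg.mpr (Real.exp_le_exp.mpr (by linarith)),
    by linarith [Real.exp_pos (-(4 * u))], ?_⟩
  rw [h2]
  nlinarith [mul_le_mul_of_nonneg_left h3 h4.le,
    mul_le_mul_of_nonneg_right h1 (show 0 ≤ 3 * u by linarith)]

theorem r_ps : R_ps := by
  intro c ξ hc
  have hv : 0 ≤ c * ξ ^ 2 := by positivity
  have e : ps c 1 ξ = Real.exp (-(Real.pi * (c * ξ ^ 2))) -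
      Real.exp (-(4 * (Real.pi * (c * ξ ^ 2)))) := by
    unfold ps
    rw [one_mul]
    congr 3 <;> ring
  obtain ⟨h0, h1, h2⟩ := rps_aux (mul_nonneg Real.pi_pos.le hv)
  rw [← e] at h0 h1 h2
  refine ⟨h0, h1, fun q hq hq' => ?_⟩
  have h3 : ps c 1 ξ ≤ 10 * (c * ξ ^ 2) := by
    nlinarith [mul_le_mul_of_nonneg_right Real.pi_lt_d2.le hv]
  have hs : 0 ≤ (q - 1) / 2 := by linarith
  rcases eq_or_ne ξ 0 with rfl | hξ
  · have h4 : ps c 1 0 = 0 := le_antisymm (by simpa using h3) h0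
    rw [h4, Real.zero_rpow (by linarith), zero_mul]
    positivity
  · have hp : 0 < |ξ| := abs_pos.mpr hξ
    have h4 : ps c 1 ξ ^ (2 * q) ≤ (10 * (c * ξ ^ 2)) ^ ((q - 1) / 2) :=
      (Real.rpow_le_rpow_of_exponent_ge' h0 h1 hs (by linarith)).trans
        (Real.rpow_le_rpow h0 h3 hs)
    have h5 : (10 : ℝ) ^ ((q - 1) / 2) ≤ 1000 := by
      refine (Real.rpow_le_rpow_of_exponent_le (y := (q - 1) / 2) (z := 1) (by norm_num)
        (by linarith)).trans ?_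
      norm_num
    have h6 : (ξ ^ 2) ^ ((q - 1) / 2) * |ξ| ^ (1 - q) = 1 := by
      rw [← sq_abs, ← Real.rpow_two, ← Real.rpow_mul hp.le, ← Real.rpow_add hp,
        show 2 * ((q - 1) / 2) + (1 - q) = 0 by ring, Real.rpow_zero]
    refine (mul_le_mul_of_nonneg_right h4 (Real.rpow_nonneg hp.le _)).trans ?_
    rw [Real.mul_rpow (by norm_num) hv, Real.mul_rpow hc.le (sq_nonneg ξ), mul_assoc, mul_assoc,
      h6, mul_one]
    exact mul_le_mul_of_nonneg_right h5 (Real.rpow_nonneg hc.le _)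

end Vale.Agent.P117
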