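import Vale.Agent.P117.Stm3

/-! Push forward of a density under the square map. -/

namespace Vale.Agent.P117

open MeasureTheory FourierTransform Set
open scoped ENNReal

theorem rpush1_pt (F : ℝ → ℝ) (e : ℝ → ℂ) {x : ℝ} (hx : x ∈ Ioi (0 : ℝ)) :
    (|(2 : ℝ)| * x ^ ((2 : ℝ) - 1)) • (e (x ^ (2 : ℝ)) *
      (((F (√(x ^ (2 : ℝ))) + F (-√(x ^ (2 : ℝ)))) / (2 * √(x ^ (2 : ℝ))) : ℝ) : ℂ)) =
      (F x : ℂ) * e (x ^ 2) + (F (-x) : ℂ) * e (x ^ 2) := by
  have h : (0 : ℝ) < x := hx
  have h' : (x : ℂ) ≠ 0 := Complex.ofReal_ne_zero.2 h.ne'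
  rw [Real.rpow_two, Real.sqrt_sq h.le, show (2 : ℝ) - 1 = 1 by norm_num, Real.rpow_one, abs_two,
    Complex.real_smul]
  push_cast
  field_simp

theorem r_push1 : R_push1 := by
  intro F hF hI
  have s := Real.continuous_sqrt.measurable
  have hN : Integrable fun x => F (-x) := hI.comp_neg
  refine ⟨Measurable.indicator (Complex.measurable_ofReal.comp
    (((hF.comp s).add (hF.comp s.neg)).div (s.const_mul 2))) measurableSet_Ioi, ?_, fun τ => ?_⟩
  · refine (integrable_indicator_iff measurableSet_Ioi).2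
      ((integrableOn_Ioi_comp_rpow_iff _ two_ne_zero).1 ?_)
    refine IntegrableOn.congr_fun (f := fun x => (F x : ℂ) + (F (-x) : ℂ))
      (hI.ofReal.add hN.ofReal).integrableOn (fun x hx => ?_) measurableSet_Ioi
    have := rpush1_pt F (fun _ => 1) hx
    simp only [one_mul, mul_one] at this
    exact this.symm
  · let e : ℝ → ℂ := fun v => Complex.exp (((-2 * Real.pi * v * τ : ℝ) : ℂ) * Complex.I)
    have he : ∀ ξ : ℝ, Complex.exp (-(2 * Real.pi * Complex.I * τ * (ξ : ℂ) ^ 2)) = e (ξ ^ 2) :=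
      fun ξ => by
      simp only [e]
      congr 1
      push_cast
      ring
    have ie : ∀ H : ℝ → ℝ, Integrable H → Integrable fun x => (H x : ℂ) * e (x ^ 2) := fun H h =>
      h.ofReal.mul_bdd (c := 1) (by fun_prop : Continuous fun x : ℝ => e (x ^ 2)).aestronglyMeasurable
        (.of_forall fun x => (Complex.norm_exp_ofReal_mul_I _).le)
    have r : ∫ x in Iic (0 : ℝ), (F x : ℂ) * e (x ^ 2) =
        ∫ x in Ioi (0 : ℝ), (F (-x) : ℂ) * e (x ^ 2) := by
      have := integral_comp_neg_Iic 0 fun x => (F (-x) : ℂ) * e (x ^ 2)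
      simpa only [neg_neg, neg_zero, neg_sq] using this
    simp only [he]
    rw [← intervalIntegral.integral_Iic_add_Ioi (b := 0) (ie F hI).integrableOn
      (ie F hI).integrableOn, r, add_comm, ← integral_add (ie F hI).integrableOn
      (ie _ hN).integrableOn, Real.fourier_real_eq_integral_exp_smul,
      ← setIntegral_congr_fun measurableSet_Ioi fun x hx => rpush1_pt F e hx,
      integral_comp_rpow_Ioi (fun s => e s * (((F (√s) + F (-√s)) / (2 * √s) : ℝ) : ℂ)) two_ne_zero,
      ← integral_indicator measurableSet_Ioi]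
    refine integral_congr_ae (.of_forall fun v => ?_)
    by_cases h : v ∈ Ioi (0 : ℝ)
    · simp only [Gp, indicator_of_mem h, smul_eq_mul, e]
    · simp only [Gp, indicator_of_notMem h, smul_zero]

end Vale.Agent.P117
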