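import Vale.Agent.P117.Stm3

/-! The norm of the push forward under the square map. -/

namespace Vale.Agent.P117

open MeasureTheory FourierTransform Set
open scoped ENNReal

theorem rpush2_mean {a b q : ℝ} (ha : 0 ≤ a) (hb : 0 ≤ b) (hq : 1 ≤ q) :
    ((a + b) / 2) ^ q ≤ (a ^ q + b ^ q) / 2 := by
  have h := (convexOn_rpow hq).2 (mem_Ici.2 ha) (mem_Ici.2 hb) (show (0 : ℝ) ≤ 1 / 2 by norm_num)
    (show (0 : ℝ) ≤ 1 / 2 by norm_num) (by norm_num)
  simp only [smul_eq_mul] at h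
  rw [show (a + b) / 2 = 1 / 2 * a + 1 / 2 * b by ring]
  linarith

theorem rpush2_pt {a b q x : ℝ} (ha : 0 ≤ a) (hb : 0 ≤ b) (hq : 1 ≤ q) (hx : 0 < x) :
    2 * x * ((a + b) / (2 * x)) ^ q ≤ a ^ q * x ^ (1 - q) + b ^ q * x ^ (1 - q) := by
  have h := rpush2_mean ha hb hq
  have p : 0 < x ^ q := Real.rpow_pos_of_pos hx q
  rw [← div_div, Real.div_rpow (by positivity) hx.le, Real.rpow_sub hx, Real.rpow_one]
  have e := mul_le_mul_of_nonneg_left h (show 0 ≤ 2 * (x / x ^ q) by positivity)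
  calc 2 * x * (((a + b) / 2) ^ q / x ^ q) = 2 * (x / x ^ q) * ((a + b) / 2) ^ q := by ring
    _ ≤ _ := e
    _ = _ := by ring

theorem rpush2_img : (fun x : ℝ => x ^ 2) '' Ioi 0 = Ioi 0 := by
  ext s
  constructor
  · rintro ⟨x, hx, rfl⟩
    exact pow_pos (mem_Ioi.1 hx) 2
  · intro hs
    exact ⟨√s, Real.sqrt_pos.2 hs, Real.sq_sqrt (le_of_lt hs)⟩

theorem rpush2_neg (H : ℝ → ℝ≥0∞) : ∫⁻ x in Ioi (0 : ℝ), H (-x) = ∫⁻ x in Iio (0 : ℝ), H x := by
  rw [← lintegral_indicator measurableSet_Ioi, ← lintegral_indicator measurableSet_Iio,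
    ← lintegral_neg_eq_self ((Iio (0 : ℝ)).indicator H)]
  refine lintegral_congr fun x => ?_
  by_cases hx : 0 < x
  · rw [indicator_of_mem (mem_Ioi.2 hx), indicator_of_mem (mem_Iio.2 (neg_lt_zero.2 hx))]
  · rw [indicator_of_notMem (fun h => hx (mem_Ioi.1 h)),
      indicator_of_notMem (fun h => hx (neg_lt_zero.1 (mem_Iio.1 h)))]

theorem r_push2 : R_push2 := by
  intro F q mF F0 hq
  obtain ⟨H, hH⟩ : ∃ H : ℝ → ℝ≥0∞, H = fun ξ => ENNReal.ofReal (F ξ ^ q * |ξ| ^ (1 - q)) :=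
    ⟨_, rfl⟩
  have mH : Measurable H := by
    rw [hH]
    exact ((mF.pow_const q).mul (measurable_abs.pow_const _)).ennreal_ofReal
  have e1 : N q (Gp F) =
      ∫⁻ s in Ioi (0 : ℝ), ENNReal.ofReal (((F (√s) + F (-√s)) / (2 * √s)) ^ q) := by
    rw [N, ← lintegral_indicator measurableSet_Ioi]
    refine lintegral_congr fun s => ?_
    by_cases hs : s ∈ Ioi (0 : ℝ)
    · have p : 0 ≤ (F (√s) + F (-√s)) / (2 * √s) :=
        div_nonneg (add_nonneg (F0 _) (F0 _)) (by positivity)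
      rw [Gp, indicator_of_mem hs, indicator_of_mem hs, ← ofReal_norm, Complex.norm_real,
        Real.norm_of_nonneg p, ENNReal.ofReal_rpow_of_nonneg p (by linarith)]
    · rw [Gp, indicator_of_notMem hs, indicator_of_notMem hs, enorm_zero,
        ENNReal.zero_rpow_of_pos (by linarith)]
  have e2 := lintegral_image_eq_lintegral_abs_deriv_mul (s := Ioi (0 : ℝ)) (f := fun x => x ^ 2)
    (f' := fun x => 2 * x) measurableSet_Ioi
    (fun x _ => by simpa using (hasDerivAt_pow 2 x).hasDerivWithinAt)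
    (fun x hx y hy h => (pow_left_inj₀ (le_of_lt hx) (le_of_lt hy) two_ne_zero).1 h)
    (fun s => ENNReal.ofReal (((F (√s) + F (-√s)) / (2 * √s)) ^ q))
  rw [rpush2_img] at e2
  rw [e1, e2, ← hH]
  calc _ ≤ ∫⁻ x in Ioi (0 : ℝ), (H x + H (-x)) := by
        refine setLIntegral_mono' measurableSet_Ioi fun x hx => ?_
        have x0 : 0 < x := hx
        have a0 := F0 x
        have b0 := F0 (-x)
        rw [Real.sqrt_sq x0.le, abs_of_pos (by positivity), ← ENNReal.ofReal_mul (by positivity),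
          hH]
        simp only [abs_neg, abs_of_pos x0]
        rw [← ENNReal.ofReal_add (by positivity) (by positivity)]
        exact ENNReal.ofReal_le_ofReal (rpush2_pt a0 b0 hq x0)
    _ = (∫⁻ x in Ioi (0 : ℝ), H x) + ∫⁻ x in Iio (0 : ℝ), H x := by
        rw [lintegral_add_left mH, rpush2_neg]
    _ ≤ (∫⁻ x in Ioi (0 : ℝ), H x) + ∫⁻ x in (Ioi (0 : ℝ))ᶜ, H x :=
        add_le_add_right (lintegral_mono_set (by rw [compl_Ioi]; exact Iio_subset_Iic_self)) _
    _ = _ := lintegral_add_compl H measurableSet_Ioi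

end Vale.Agent.P117
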