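import Vale.Agent.P117.Stm3

namespace Vale.Agent.P117

open MeasureTheory FourierTransform Set
open scoped ENNReal

theorem rrest_pow (a : ℝ≥0∞) {p : ℝ} (hp : 1 ≤ p) : a ^ (p - 1) * a = a ^ p := by
  calc a ^ (p - 1) * a = a ^ (p - 1) * a ^ (1 : ℝ) := by rw [ENNReal.rpow_one]
    _ = a ^ p := by
      rw [← ENNReal.rpow_add_of_nonneg _ _ (by linarith) zero_le_one, sub_add_cancel]

theorem rrest_fix (h_lprod : S_lprod) {p : ℝ} (hp : 1 ≤ p) (H : Fin 3 → Fin 3 → ℝ → ℝ≥0∞)
    (hH : ∀ j i, Measurable (H j i)) (b : Fin 3 → Fin 3 → ℝ≥0∞) (n : Fin 3 → ℝ≥0∞) (β : ℝ≥0∞)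
    (hb : ∀ j i, ∫⁻ y, H j i y ^ p ≤ b j i ^ p * n i) (hβ : ∀ j, ∏ i, b j i = β) :
    ∫⁻ x : E3, (∑ j, ∏ i, H j i (x i)) ^ p ≤ (3 * β) ^ p * ∏ i, n i := by
  have hp0 : 0 ≤ p := by linarith
  have hm : ∀ j, Measurable fun x : E3 => ∏ i, H j i (x i) ^ p := fun j =>
    Finset.measurable_prod _ fun i _ => ((hH j i).comp (by fun_prop)).pow_const p
  calc ∫⁻ x : E3, (∑ j, ∏ i, H j i (x i)) ^ p
      ≤ ∫⁻ x : E3, (3 : ℝ≥0∞) ^ (p - 1) * ∑ j, ∏ i, H j i (x i) ^ p := by
        refine lintegral_mono fun x => ?_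
        have h := ENNReal.rpow_sum_le_const_mul_sum_rpow Finset.univ
          (fun j => ∏ i, H j i (x i)) hp
        simp only [ENNReal.prod_rpow_of_nonneg hp0]
        simpa using h
    _ = (3 : ℝ≥0∞) ^ (p - 1) * ∑ j, ∏ i, ∫⁻ y, H j i y ^ p := by
        rw [lintegral_const_mul _ (Finset.measurable_sum _ fun j _ => hm j),
          lintegral_finsetSum _ fun j _ => hm j]
        congr 1
        exact Finset.sum_congr rfl fun j _ =>
          h_lprod (fun i y => H j i y ^ p) fun i => (hH j i).pow_const p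
    _ ≤ (3 : ℝ≥0∞) ^ (p - 1) * ∑ _j : Fin 3, β ^ p * ∏ i, n i := by
        refine mul_le_mul_right (Finset.sum_le_sum fun j _ => ?_) _
        rw [← hβ j, ← ENNReal.prod_rpow_of_nonneg hp0, ← Finset.prod_mul_distrib]
        exact Finset.prod_le_prod' fun i _ => hb j i
    _ = (3 * β) ^ p * ∏ i, n i := by
        rw [Finset.sum_const, Finset.card_univ, Fintype.card_fin, nsmul_eq_mul,
          ENNReal.mul_rpow_of_nonneg _ _ hp0, ← rrest_pow 3 hp]
        push_cast
        ring

theorem r_rest (h_vm : R_vm) (h_kb : R_kb) (h_jen : R_jen) (h_young : S_young)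
    (h_lprod : S_lprod) : R_rest := by
  intro p T A c θ g hp hT hA had hg
  have hp0 : 0 ≤ p := by linarith
  have hθ : ∀ j, |θ j| ≤ 1 := fun j => by
    rcases (had j).2.2 with h | h
    · simp [h]
    · simp [h.1]
  have hv := fun j => h_vm (c j) (θ j) (had j).1 (hθ j)
  obtain ⟨L, hL⟩ : ∃ L : Fin 3 → ℝ, L = fun j => A * (5 * T / √(c j)) := ⟨_, rfl⟩
  rw [← hL]
  obtain ⟨H, hH⟩ : ∃ H : Fin 3 → Fin 3 → ℝ × ℝ → ℝ≥0∞, H = fun j i z =>
      if i = j then Fa (L i) (c i) (θ i) z.1 (g i) z.2 else Fu (c i) (θ i) z.1 (g i) z.2 :=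
    ⟨_, rfl⟩
  have hHm : ∀ j i, Measurable (H j i) := fun j i => by
    rw [hH]
    by_cases h : i = j
    · simp only [if_pos h]
      exact ((hv i).2.2.2.2.2 (g i) (L i) (hg i)).2
    · simp only [if_neg h]
      exact ((hv i).2.2.2.2.2 (g i) (L i) (hg i)).1
  have hR : ∀ (x : E3) (t : ℝ), Rest L c θ g x t = ∑ j, ∏ i, H j i (t, x i) := fun x t => by
    rw [hH]; rfl
  have hRm : Measurable fun z : E3 × ℝ => ∑ j, ∏ i, H j i (z.2, z.1 i) :=
    Finset.measurable_sum _ fun j _ => Finset.measurable_prod _ fun i _ =>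
      (hHm j i).comp (by fun_prop)
  have hD : MeasurableSet (D T) :=
    (measurableSet_le measurable_const measurable_abs).inter
      (measurableSet_le measurable_abs measurable_const)
  have hvol : volume (D T) ≤ ENNReal.ofReal (4 * T) := by
    calc volume (D T) ≤ volume (Icc (-(2 * T)) (2 * T)) := measure_mono fun t ht => abs_le.1 ht.2
      _ = _ := by rw [Real.volume_Icc]; congr 1; ring
  have hE := (Real.exp_pos (-A)).le
  have hfix : ∀ t ∈ D T, ∫⁻ x : E3, (∑ j, ∏ i, H j i (t, x i)) ^ p ≤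
      (3 * ENNReal.ofReal (2000 * T ^ 3 * Real.exp (-A))) ^ p * ∏ i, N p (g i) := by
    intro t ht
    refine rrest_fix h_lprod hp (fun j i y => H j i (t, y))
      (fun j i => (hHm j i).comp measurable_prodMk_left)
      (fun j i => if i = j then ENNReal.ofReal (20 * T * Real.exp (-A))
        else ENNReal.ofReal (10 * T)) _ _ (fun j i => ?_) fun j => ?_
    · have hk : Measurable fun z => ‖kv (c i) (θ i) t z‖ₑ :=
        ((hv i).1.comp measurable_prodMk_left).enorm
      have hb := h_kb T (c i) (θ i) t A (had i) ht.2 hA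
      rw [hH]
      by_cases h : i = j
      · simp only [if_pos h]
        refine (h_young _ _ p (hk.indicator (measurableSet_le measurable_const measurable_abs))
          (hg i).enorm hp).trans (mul_le_mul_left (ENNReal.rpow_le_rpow ?_ hp0) _)
        rw [hL]
        exact hb.2
      · simp only [if_neg h]
        exact (h_young _ _ p hk (hg i).enorm hp).trans
          (mul_le_mul_left (ENNReal.rpow_le_rpow hb.1 hp0) _)
    · have e : ENNReal.ofReal (2000 * T ^ 3 * Real.exp (-A)) =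
          ENNReal.ofReal (20 * T * Real.exp (-A)) * ENNReal.ofReal (10 * T) *
            ENNReal.ofReal (10 * T) := by
        rw [← ENNReal.ofReal_mul (by positivity), ← ENNReal.ofReal_mul (by positivity)]
        congr 1
        ring
      rw [e, Fin.prod_univ_three]
      fin_cases j <;> simp <;> ring
  simp only [hR]
  calc ∫⁻ x : E3, (∫⁻ t in D T, ∑ j, ∏ i, H j i (t, x i)) ^ p
      ≤ ∫⁻ x : E3, ENNReal.ofReal (4 * T) ^ (p - 1) *
          ∫⁻ t in D T, (∑ j, ∏ i, H j i (t, x i)) ^ p :=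
        lintegral_mono fun x => (h_jen p _ _ hp (hRm.comp measurable_prodMk_left)).trans
          (mul_le_mul_left (ENNReal.rpow_le_rpow hvol (by linarith)) _)
    _ = ENNReal.ofReal (4 * T) ^ (p - 1) *
          ∫⁻ t in D T, ∫⁻ x : E3, (∑ j, ∏ i, H j i (t, x i)) ^ p := by
        rw [lintegral_const_mul _ (hRm.pow_const p).lintegral_prod_right',
          lintegral_lintegral_swap (hRm.pow_const p).aemeasurable]
    _ ≤ ENNReal.ofReal (4 * T) ^ (p - 1) * (((3 * ENNReal.ofReal
          (2000 * T ^ 3 * Real.exp (-A))) ^ p * ∏ i, N p (g i)) * ENNReal.ofReal (4 * T)) := by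
        refine mul_le_mul_right ((setLIntegral_mono' hD hfix).trans ?_) _
        rw [setLIntegral_const]
        exact mul_le_mul_right hvol _
    _ = _ := by
        have e : ENNReal.ofReal (24000 * T ^ 4 * Real.exp (-A)) = ENNReal.ofReal (4 * T) *
            (3 * ENNReal.ofReal (2000 * T ^ 3 * Real.exp (-A))) := by
          rw [← ENNReal.ofReal_ofNat 3, ← ENNReal.ofReal_mul (by positivity),
            ← ENNReal.ofReal_mul (by positivity)]
          congr 1
          ring
        rw [← ENNReal.ofReal_rpow_of_nonneg (x := 24000 * T ^ 4 * Real.exp (-A)) (by positivity)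
          hp0, e, ENNReal.mul_rpow_of_nonneg (ENNReal.ofReal (4 * T)) _ hp0,
          ← rrest_pow (ENNReal.ofReal (4 * T)) hp]
        ring

end Vale.Agent.P117
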