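import Vale.Agent.P117.Stm3

/-! Splitting of a dyadic piece into the near part and the rest. -/

namespace Vale.Agent.P117

open MeasureTheory FourierTransform Set
open scoped ENNReal

theorem rsplit_fu (c θ t x : ℝ) (g h : ℝ → ℂ) (hh : ∀ y, ‖h y‖ₑ ≤ ‖g y‖ₑ) :
    ‖V c θ t h x‖ₑ ≤ Fu c θ t g x :=
  (enorm_integral_le_lintegral_enorm _).trans (lintegral_mono fun y => by
    rw [enorm_mul]
    exact mul_le_mul_right (hh y) _)

theorem rsplit_blk (L : ℝ) (m : ℤ) (g : ℝ → ℂ) (y : ℝ) : ‖blk L m g y‖ₑ ≤ ‖g y‖ₑ := by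
  unfold blk
  by_cases hy : y ∈ Ico (((m : ℝ) - 1) * L) (((m : ℝ) + 2) * L)
  · rw [indicator_of_mem hy]
  · rw [indicator_of_notMem hy, enorm_zero]; exact zero_le

theorem rsplit_fa (h_vm : R_vm) {c θ : ℝ} (hc : 1 ≤ c) (hθ : |θ| ≤ 1) (t L : ℝ) (g : ℝ → ℂ)
    (hg : Integrable g) (hL : 0 < L) (x : ℝ) :
    ‖V c θ t g x - V c θ t (blk L ⌊x / L⌋ g) x‖ₑ ≤ Fa L c θ t g x := by
  have h1 : (⌊x / L⌋ : ℝ) * L ≤ x := (le_div_iff₀ hL).1 (Int.floor_le _)
  have h2 : x < ((⌊x / L⌋ : ℝ) + 1) * L := (div_lt_iff₀ hL).1 (Int.lt_floor_add_one _)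
  generalize ⌊x / L⌋ = m at h1 h2 ⊢
  have ib : Integrable (blk L m g) := hg.indicator measurableSet_Ico
  have hi := (h_vm c θ hc hθ).2.2.2.1
  unfold V
  rw [← integral_sub (hi g t x hg) (hi _ t x ib)]
  refine (enorm_integral_le_lintegral_enorm _).trans (lintegral_mono fun y => ?_)
  unfold blk
  by_cases hy : y ∈ Ico (((m : ℝ) - 1) * L) (((m : ℝ) + 2) * L)
  · simp only [indicator_of_mem hy, sub_self, enorm_zero, zero_le]
  · have h3 : x - y ∈ {z : ℝ | L ≤ |z|} := not_lt.1 fun h : |x - y| < L =>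
      hy ⟨by linarith [(abs_lt.1 h).2], by linarith [(abs_lt.1 h).1]⟩
    simp only [indicator_of_notMem hy, indicator_of_mem h3, mul_zero, sub_zero, enorm_mul, le_refl]

theorem rsplit_mD (T : ℝ) : MeasurableSet (D T) :=
  (measurableSet_le measurable_const measurable_id.abs).inter
    (measurableSet_le measurable_id.abs measurable_const)

theorem rsplit_vol (T : ℝ) : volume (D T) ≠ ⊤ := by
  have h : D T ⊆ Icc (-(2 * T)) (2 * T) := fun t ht => abs_le.1 ht.2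
  exact ((measure_mono h).trans_lt measure_Icc_lt_top).ne

theorem rsplit_sec {F : ℝ → ℝ → ℂ} (h : Measurable fun z : ℝ × ℝ => F z.1 z.2) (x : ℝ) :
    Measurable fun t => F t x := h.comp (measurable_prodMk_right (y := x))

theorem rsplit_bd {a : ℝ → ℂ} {α T : ℝ} {v : Fin 3 → ℝ → ℂ} {B : Fin 3 → ℝ} (ha : Measurable a)
    (hα : ∀ t ∈ D T, ‖a t‖ ≤ α) (hv : ∀ j, Measurable (v j)) (hB : ∀ j t, ‖v j t‖ ≤ B j) :
    IntegrableOn (fun t => a t * ∏ j, v j t) (D T) := by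
  refine Measure.integrableOn_of_bounded (M := α * ∏ j, B j) (rsplit_vol T)
    (ha.mul (Finset.measurable_prod _ fun j _ => hv j)).aestronglyMeasurable ?_
  filter_upwards [ae_restrict_mem (rsplit_mD T)] with t ht
  rw [norm_mul, norm_prod]
  exact mul_le_mul (hα t ht) (Finset.prod_le_prod (fun _ _ => norm_nonneg _) fun j _ => hB j t)
    (Finset.prod_nonneg fun _ _ => norm_nonneg _) ((norm_nonneg _).trans (hα t ht))

theorem rsplit_int (h_vm : R_vm) {a : ℝ → ℂ} {α T : ℝ} {c θ : Fin 3 → ℝ} {g : Fin 3 → ℝ → ℂ}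
    (x : E3) (ha : Measurable a) (hα : ∀ t ∈ D T, ‖a t‖ ≤ α) (hc : ∀ j, 1 ≤ c j)
    (hθ : ∀ j, |θ j| ≤ 1) (hm : ∀ j, Measurable (g j)) (hi : ∀ j, Integrable (g j)) :
    IntegrableOn (fun t => a t * ∏ j, V (c j) (θ j) t (g j) (x j)) (D T) :=
  rsplit_bd (v := fun j t => V (c j) (θ j) t (g j) (x j)) ha hα
    (fun j => rsplit_sec (F := fun t y => V (c j) (θ j) t (g j) y)
      ((h_vm _ _ (hc j) (hθ j)).2.2.1 _ (hm j)) (x j))
    fun j t => (h_vm _ _ (hc j) (hθ j)).2.2.2.2.1 (g j) t (x j) (hi j)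

theorem rsplit_tel (v n : Fin 3 → ℂ) (u f : Fin 3 → ℝ≥0∞) (hv : ∀ j, ‖v j‖ₑ ≤ u j)
    (hn : ∀ j, ‖n j‖ₑ ≤ u j) (hf : ∀ j, ‖v j - n j‖ₑ ≤ f j) :
    ‖∏ j, v j - ∏ j, n j‖ₑ ≤ ∑ j, ∏ i, if i = j then f i else u i := by
  have e : ∏ j, v j - ∏ j, n j =
      (v 0 - n 0) * v 1 * v 2 + n 0 * (v 1 - n 1) * v 2 + n 0 * n 1 * (v 2 - n 2) := by
    simp only [Fin.prod_univ_three]
    ring
  have e' : (∑ j, ∏ i, if i = j then f i else u i) =
      f 0 * u 1 * u 2 + u 0 * f 1 * u 2 + u 0 * u 1 * f 2 := by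
    simp [Fin.sum_univ_three, Fin.prod_univ_three]
  rw [e, e']
  refine (enorm_add_le _ _).trans (add_le_add ((enorm_add_le _ _).trans (add_le_add ?_ ?_)) ?_)
  all_goals rw [enorm_mul, enorm_mul]
  · exact mul_le_mul' (mul_le_mul' (hf 0) (hv 1)) (hv 2)
  · exact mul_le_mul' (mul_le_mul' (hn 0) (hf 1)) (hv 2)
  · exact mul_le_mul' (mul_le_mul' (hn 0) (hn 1)) (hf 2)

theorem r_split (h_vm : R_vm) : R_split := by
  intro a α T L c θ g x ha hα hL hc hθ hg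
  have i1 := rsplit_int h_vm x ha hα hc hθ (fun j => (hg j).1) fun j => (hg j).2.1
  have i2 := rsplit_int h_vm (g := fun j => blk (L j) ⌊x j / L j⌋ (g j)) x ha hα hc hθ
    (fun j => (hg j).1.indicator measurableSet_Ico) fun j => (hg j).2.1.indicator measurableSet_Ico
  have e : Op a T c θ g x = Op a T c θ (fun j => blk (L j) ⌊x j / L j⌋ (g j)) x +
      ∫ t in D T, (a t * ∏ j, V (c j) (θ j) t (g j) (x j) -
        a t * ∏ j, V (c j) (θ j) t (blk (L j) ⌊x j / L j⌋ (g j)) (x j)) := by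
    unfold Op
    rw [integral_sub i1 i2]
    ring
  rw [e, ← lintegral_const_mul' _ _ ENNReal.ofReal_ne_top]
  refine (enorm_add_le _ _).trans (add_le_add le_rfl ((enorm_integral_le_lintegral_enorm _).trans
    (setLIntegral_mono' (rsplit_mD T) fun t ht => ?_)))
  rw [← mul_sub, enorm_mul]
  refine mul_le_mul' ?_ (rsplit_tel _ _ (fun j => Fu (c j) (θ j) t (g j) (x j))
    (fun j => Fa (L j) (c j) (θ j) t (g j) (x j)) (fun j => rsplit_fu _ _ _ _ _ _ fun _ => le_rfl)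
    (fun j => rsplit_fu _ _ _ _ _ _ (rsplit_blk _ _ _))
    fun j => rsplit_fa h_vm (hc j) (hθ j) t _ _ (hg j).2.1 (hL j) _)
  rw [← ofReal_norm_eq_enorm]
  exact ENNReal.ofReal_le_ofReal (hα t ht)

end Vale.Agent.P117
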