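import Vale.Agent.P117.Stm3

namespace Vale.Agent.P117

open MeasureTheory FourierTransform Set
open scoped ENNReal

theorem rtel_pt (K : ℕ) (t z : ℝ) :
    k t z = ∑ j : Fin (K + 1), kv (4 ^ (j : ℕ)) (if (j : ℕ) < K then 1 else 0) t z := by
  have h0 : k t z = kc (4 ^ 0) t z := by simp [k, kc, bb]
  rw [Fin.sum_univ_eq_sum_range (fun j => kv (4 ^ j) (if j < K then 1 else 0) t z) (K + 1),
    Finset.sum_range_succ]
  have h1 : ∑ j ∈ Finset.range K, kv (4 ^ j) (if j < K then 1 else 0) t z =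
      ∑ j ∈ Finset.range K, (kc (4 ^ j) t z - kc (4 ^ (j + 1)) t z) := by
    refine Finset.sum_congr rfl fun j hj => ?_
    rw [if_pos (Finset.mem_range.1 hj), kv, Complex.ofReal_one, one_mul, pow_succ']
  rw [h1, Finset.sum_range_sub' (fun j => kc (4 ^ j) t z) K, if_neg (lt_irrefl K), kv,
    Complex.ofReal_zero, zero_mul, sub_zero, sub_add_cancel, h0]

theorem r_tel (h_vm : R_vm) : R_tel := by
  intro K t x g hg
  unfold U V
  rw [← integral_finsetSum _ fun j _ => (h_vm _ _ (one_le_pow₀ (by norm_num))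
    (by split_ifs <;> simp)).2.2.2.1 g t x hg]
  refine integral_congr_ae (Filter.Eventually.of_forall fun y => ?_)
  simp only [rtel_pt K t (x - y), Finset.sum_mul]

end Vale.Agent.P117
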