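import Vale.Agent.P117.Stm3

/-! A trilinear convolution bound on a dyadic range. -/

namespace Vale.Agent.P117

open MeasureTheory FourierTransform Set
open scoped ENNReal

theorem rtt_meas (T : ℝ) : MeasurableSet (D T) := by
  unfold D
  exact (measurableSet_le measurable_const measurable_id.abs).inter
    (measurableSet_le measurable_id.abs measurable_const)

theorem rtt_vol (T : ℝ) : volume (D T) ≤ ENNReal.ofReal (4 * T) := by
  have : D T ⊆ Icc (-(2 * T)) (2 * T) := fun t ht => abs_le.1 ht.2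
  refine (measure_mono this).trans ?_
  rw [Real.volume_Icc]
  exact le_of_eq (by congr 1; ring)

theorem rtt_shift (T t : ℝ) (ht : t ∈ D T) (G : ℝ → ℝ≥0∞) :
    ∫⁻ s in D T, G (t - s) ≤ ∫⁻ τ in Icc (-(4 * T)) (4 * T), G τ := by
  rw [← lintegral_indicator (rtt_meas T), ← lintegral_indicator measurableSet_Icc,
    ← lintegral_sub_left_eq_self ((Icc (-(4 * T)) (4 * T)).indicator G) t]
  refine lintegral_mono fun s => ?_
  by_cases hs : s ∈ D T
  · have h1 := abs_le.1 ht.2
    have h2 := abs_le.1 hs.2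
    have : t - s ∈ Icc (-(4 * T)) (4 * T) := ⟨by linarith [h1.1, h2.2], by linarith [h1.2, h2.1]⟩
    simp only [indicator_of_mem hs, indicator_of_mem this, le_refl]
  · simp only [indicator_of_notMem hs, zero_le]

theorem rtt_hol (T : ℝ) (h : Fin 3 → ℝ → ℂ) (hm : ∀ j, Measurable (h j)) :
    ∫⁻ τ in Icc (-(4 * T)) (4 * T), ∏ j, ‖h j τ‖ₑ ≤ ∏ j, I3 T (h j) := by
  have key := ENNReal.lintegral_prod_norm_pow_le (μ := volume.restrict (Icc (-(4 * T)) (4 * T)))
    (Finset.univ : Finset (Fin 3)) (f := fun j τ => ‖h j τ‖ₑ ^ (3 : ℝ))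
    (fun j _ => ((hm j).enorm.pow_const _).aemeasurable) (p := fun _ => (1 / 3 : ℝ))
    (by simp) (fun _ _ => by norm_num)
  refine le_trans (le_of_eq ?_) key
  refine lintegral_congr fun τ => Finset.prod_congr rfl fun j _ => ?_
  rw [← ENNReal.rpow_mul]
  norm_num

theorem r_tt : R_tt := by
  intro T h _ hm
  calc ∫⁻ t in D T, ∫⁻ s in D T, ∏ j, ‖h j (t - s)‖ₑ
      ≤ ∫⁻ _ in D T, ∏ j, I3 T (h j) := by
        refine setLIntegral_mono' (rtt_meas T) fun t ht => ?_
        exact (rtt_shift T t ht (fun τ => ∏ j, ‖h j τ‖ₑ)).trans (rtt_hol T h hm)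
    _ = (∏ j, I3 T (h j)) * volume (D T) := setLIntegral_const _ _
    _ ≤ ENNReal.ofReal (4 * T) * ∏ j, I3 T (h j) := by
        rw [mul_comm]
        exact mul_le_mul_left (rtt_vol T) _

end Vale.Agent.P117
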