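import Vale.Agent.P117.Stm3

namespace Vale.Agent.P117

open MeasureTheory FourierTransform Set
open scoped ENNReal

theorem rvF_G (b : ℂ) (hb : 0 < b.re) (x : ℝ) : Integrable fun ξ : ℝ =>
    Complex.exp (-Real.pi * b * (ξ : ℂ) ^ 2 + 2 * Real.pi * (Complex.I * x) * ξ) := by
  have hn : (-(Real.pi : ℂ) * b).re < 0 := by
    simpa only [neg_mul, Complex.neg_re, Complex.re_ofReal_mul, neg_lt_zero] using
      mul_pos Real.pi_pos hb
  simpa only [add_zero] using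
    integrable_cexp_quadratic' hn (2 * Real.pi * (Complex.I * x)) 0

theorem rvF_one (b : ℂ) (hb : 0 < b.re) (g : ℝ → ℂ) (hg : Integrable g) (x : ℝ) :
    ∫ ξ : ℝ, 𝓕 g ξ *
      Complex.exp (-Real.pi * b * (ξ : ℂ) ^ 2 + 2 * Real.pi * (Complex.I * x) * ξ) =
    ∫ y : ℝ, 1 / b ^ (1 / 2 : ℂ) * Complex.exp (-Real.pi / b * ((x - y : ℝ) : ℂ) ^ 2) * g y := by
  have hG := rvF_G b hb x
  have h := VectorFourier.integral_fourierIntegral_smul_eq_flip (L := innerₗ ℝ)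
    Real.continuous_fourierChar continuous_inner hg hG
  rw [flip_innerₗ] at h
  have h' : ∫ ξ : ℝ, 𝓕 g ξ • Complex.exp (-Real.pi * b * (ξ : ℂ) ^ 2 +
      2 * Real.pi * (Complex.I * x) * ξ) = ∫ y, g y • 𝓕 (fun ξ : ℝ => Complex.exp
        (-Real.pi * b * (ξ : ℂ) ^ 2 + 2 * Real.pi * (Complex.I * x) * ξ)) y := h
  rw [fourier_gaussian_pi' hb] at h'
  refine h'.trans (integral_congr_ae (.of_forall fun y => ?_))
  beta_reduce
  rw [smul_eq_mul, mul_comm, ← mul_assoc Complex.I, Complex.I_mul_I,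
    show ((y : ℂ) + -1 * x) ^ 2 = ((x - y : ℝ) : ℂ) ^ 2 by push_cast; ring]

theorem rvF_i1 (b : ℂ) (hb : 0 < b.re) (g : ℝ → ℂ) (hg : Integrable g) (x : ℝ) :
    Integrable fun ξ : ℝ => 𝓕 g ξ *
      Complex.exp (-Real.pi * b * (ξ : ℂ) ^ 2 + 2 * Real.pi * (Complex.I * x) * ξ) := by
  have hc : Continuous (𝓕 g) :=
    VectorFourier.fourierIntegral_continuous Real.continuous_fourierChar continuous_inner hg
  refine (rvF_G b hb x).bdd_mul (c := ∫ y, ‖g y‖) hc.aestronglyMeasurable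
    (.of_forall fun ξ => ?_)
  exact VectorFourier.norm_fourierIntegral_le_integral_norm _ _ _ _ _

theorem rvF_i2 (b : ℂ) (hb : 0 < b.re) (g : ℝ → ℂ) (hg : Integrable g) (x : ℝ) :
    Integrable fun y : ℝ =>
      1 / b ^ (1 / 2 : ℂ) * Complex.exp (-Real.pi / b * ((x - y : ℝ) : ℂ) ^ 2) * g y := by
  have hc : Continuous fun y : ℝ =>
      1 / b ^ (1 / 2 : ℂ) * Complex.exp (-Real.pi / b * ((x - y : ℝ) : ℂ) ^ 2) := by fun_prop
  refine hg.bdd_mul (c := ‖1 / b ^ (1 / 2 : ℂ)‖) hc.aestronglyMeasurable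
    (.of_forall fun y => ?_)
  rw [norm_mul]
  refine mul_le_of_le_one_right (norm_nonneg _) ?_
  rw [Complex.norm_exp, Real.exp_le_one_iff]
  have e : -(Real.pi : ℂ) / b * ((x - y : ℝ) : ℂ) ^ 2 =
      ((-(Real.pi * (x - y) ^ 2) : ℝ) : ℂ) * b⁻¹ := by
    push_cast; ring
  rw [e, Complex.re_ofReal_mul, Complex.inv_re]
  have h1 : 0 ≤ b.re / Complex.normSq b := div_nonneg hb.le (Complex.normSq_nonneg _)
  have h2 : 0 ≤ Real.pi * (x - y) ^ 2 := mul_nonneg Real.pi_pos.le (sq_nonneg _)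
  nlinarith [mul_nonneg h1 h2]

theorem r_vF : R_vF := by
  intro c θ t x g hc hg
  have hb1 : 0 < ((c : ℂ) + 2 * Complex.I * t).re := by
    simp; linarith
  have hb4 : 0 < (((4 * c : ℝ) : ℂ) + 2 * Complex.I * t).re := by
    simp; linarith
  have e1 := rvF_one _ hb1 g hg x
  have e4 := rvF_one _ hb4 g hg x
  have hV : V c θ t g x = (∫ y : ℝ, kc c t (x - y) * g y) -
      θ * ∫ y : ℝ, kc (4 * c) t (x - y) * g y := by
    unfold V kv kc
    rw [← integral_const_mul, ← integral_sub (rvF_i2 _ hb1 g hg x)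
      ((rvF_i2 _ hb4 g hg x).const_mul (θ : ℂ))]
    refine integral_congr_ae (.of_forall fun y => ?_)
    beta_reduce
    ring
  rw [hV]
  unfold kc
  rw [← e1, ← e4, ← integral_const_mul, ← integral_sub (rvF_i1 _ hb1 g hg x)
    ((rvF_i1 _ hb4 g hg x).const_mul (θ : ℂ)), Real.fourier_real_eq_integral_exp_smul]
  refine integral_congr_ae (.of_forall fun ξ => ?_)
  beta_reduce
  have a1 : Complex.exp (-Real.pi * ((c : ℂ) + 2 * Complex.I * t) * (ξ : ℂ) ^ 2 +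
      2 * Real.pi * (Complex.I * x) * ξ) =
      Complex.exp (((-2 * Real.pi * ξ * -x : ℝ) : ℂ) * Complex.I) *
        Complex.exp ((-(Real.pi * c * ξ ^ 2) : ℝ) : ℂ) *
        Complex.exp (-(2 * Real.pi * Complex.I * t * (ξ : ℂ) ^ 2)) := by
    rw [← Complex.exp_add, ← Complex.exp_add]
    congr 1
    push_cast
    ring
  have a4 : Complex.exp (-Real.pi * (((4 * c : ℝ) : ℂ) + 2 * Complex.I * t) * (ξ : ℂ) ^ 2 +
      2 * Real.pi * (Complex.I * x) * ξ) =
      Complex.exp (((-2 * Real.pi * ξ * -x : ℝ) : ℂ) * Complex.I) *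
        Complex.exp ((-(Real.pi * (4 * c) * ξ ^ 2) : ℝ) : ℂ) *
        Complex.exp (-(2 * Real.pi * Complex.I * t * (ξ : ℂ) ^ 2)) := by
    rw [← Complex.exp_add, ← Complex.exp_add]
    congr 1
    push_cast
    ring
  rw [a1, a4, smul_eq_mul, ps, Complex.ofReal_sub, Complex.ofReal_mul θ, Complex.ofReal_exp,
    Complex.ofReal_exp]
  ring

end Vale.Agent.P117
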