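import Vale.Agent.P117.Stm3

namespace Vale.Agent.P117

open MeasureTheory FourierTransform Set
open scoped ENNReal

theorem rvm_kc_le (c t z : ℝ) (hc : 1 ≤ c) : ‖kc c t z‖ ≤ 1 := by
  have hre : ((c : ℂ) + 2 * Complex.I * t).re = c := by simp
  have hn : 1 ≤ ‖(c : ℂ) + 2 * Complex.I * t‖ := by
    have h := Complex.re_le_norm ((c : ℂ) + 2 * Complex.I * t)
    rw [hre] at h
    exact hc.trans h
  have h1 : (1 / 2 : ℂ) = ((1 / 2 : ℝ) : ℂ) := by push_cast; rfl
  have h2 : -(Real.pi : ℂ) / ((c : ℂ) + 2 * Complex.I * t) * (z : ℂ) ^ 2 =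
      ((-(Real.pi * z ^ 2) : ℝ) : ℂ) / ((c : ℂ) + 2 * Complex.I * t) := by
    push_cast
    ring
  have h3 : (-(Real.pi : ℂ) / ((c : ℂ) + 2 * Complex.I * t) * (z : ℂ) ^ 2).re ≤ 0 := by
    rw [h2, Complex.div_re, Complex.ofReal_re, Complex.ofReal_im, hre, zero_mul, zero_div,
      add_zero]
    refine div_nonpos_of_nonpos_of_nonneg ?_ (Complex.normSq_nonneg _)
    refine mul_nonpos_of_nonpos_of_nonneg (neg_nonpos.2 (by positivity)) (by linarith)
  rw [kc, norm_mul, norm_div, Complex.norm_exp, h1, Complex.norm_cpow_real, norm_one]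
  refine mul_le_one₀ ?_ (Real.exp_pos _).le (Real.exp_le_one_iff.2 h3)
  exact div_le_one_of_le₀ (Real.one_le_rpow hn (by norm_num)) (by positivity)

theorem rvm_kv_le (c θ t z : ℝ) (hc : 1 ≤ c) (hθ : |θ| ≤ 1) : ‖kv c θ t z‖ ≤ 2 := by
  have h1 := rvm_kc_le c t z hc
  have h2 := rvm_kc_le (4 * c) t z (by linarith)
  have h3 : ‖(θ : ℂ) * kc (4 * c) t z‖ ≤ 1 := by
    rw [norm_mul, Complex.norm_real, Real.norm_eq_abs]
    exact mul_le_one₀ hθ (norm_nonneg _) h2
  have h4 := norm_sub_le (kc c t z) ((θ : ℂ) * kc (4 * c) t z)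
  rw [kv]
  linarith

theorem rvm_kc_meas (c : ℝ) : Measurable (fun p : ℝ × ℝ => kc c p.1 p.2) := by
  have h1 : Measurable (fun p : ℝ × ℝ => (c : ℂ) + 2 * Complex.I * ((p.1 : ℝ) : ℂ)) :=
    measurable_const.add (measurable_const.mul (Complex.measurable_ofReal.comp measurable_fst))
  have h2 : Measurable (fun p : ℝ × ℝ => ((p.2 : ℝ) : ℂ)) :=
    Complex.measurable_ofReal.comp measurable_snd
  unfold kc
  exact (measurable_const.div (h1.pow measurable_const)).mul
    (Complex.measurable_exp.comp ((measurable_const.div h1).mul (h2.pow_const 2)))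

theorem rvm_kv_meas (c θ : ℝ) : Measurable (fun p : ℝ × ℝ => kv c θ p.1 p.2) := by
  unfold kv
  exact (rvm_kc_meas c).sub (measurable_const.mul (rvm_kc_meas (4 * c)))

theorem rvm_sh : Measurable (fun p : (ℝ × ℝ) × ℝ => (p.1.1, p.1.2 - p.2)) :=
  (measurable_fst.comp measurable_fst).prodMk
    ((measurable_snd.comp measurable_fst).sub measurable_snd)

theorem rvm_int (c θ : ℝ) (hc : 1 ≤ c) (hθ : |θ| ≤ 1) (g : ℝ → ℂ) (t x : ℝ) (hg : Integrable g) :
    Integrable (fun y => kv c θ t (x - y) * g y) := by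
  have h0 : Measurable (fun y : ℝ => (t, x - y)) :=
    measurable_const.prodMk (measurable_const.sub measurable_id)
  have hm : Measurable (fun y => kv c θ t (x - y)) := by
    have h1 := (rvm_kv_meas c θ).comp h0
    simpa only [Function.comp_def] using h1
  exact hg.bdd_mul (c := 2) hm.aestronglyMeasurable
    (Filter.Eventually.of_forall fun y => rvm_kv_le c θ t _ hc hθ)

theorem r_vm : R_vm := by
  intro c θ hc hθ
  refine ⟨rvm_kv_meas c θ, fun t z => rvm_kv_le c θ t z hc hθ, ?_, rvm_int c θ hc hθ, ?_, ?_⟩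
  · intro g hg
    have h2 : Measurable (fun p : (ℝ × ℝ) × ℝ => kv c θ p.1.1 (p.1.2 - p.2) * g p.2) :=
      ((rvm_kv_meas c θ).comp rvm_sh).mul (hg.comp measurable_snd)
    exact (h2.stronglyMeasurable.integral_prod_right' (ν := volume)).measurable
  · intro g t x hg
    rw [V, ← integral_const_mul]
    refine norm_integral_le_of_norm_le (hg.norm.const_mul 2)
      (Filter.Eventually.of_forall fun y => ?_)
    rw [norm_mul]
    exact mul_le_mul_of_nonneg_right (rvm_kv_le c θ t _ hc hθ) (norm_nonneg _)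
  · intro g L hg
    constructor
    · have h2 : Measurable
          (fun p : (ℝ × ℝ) × ℝ => ‖kv c θ p.1.1 (p.1.2 - p.2)‖ₑ * ‖g p.2‖ₑ) :=
        ((rvm_kv_meas c θ).comp rvm_sh).enorm.mul (hg.comp measurable_snd).enorm
      exact h2.lintegral_prod_right' (ν := volume)
    · have hs : MeasurableSet {q : ℝ × ℝ | L ≤ |q.2|} :=
        measurableSet_le measurable_const (continuous_abs.measurable.comp measurable_snd)
      have h1 : Measurable ({q : ℝ × ℝ | L ≤ |q.2|}.indicator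
          (fun q : ℝ × ℝ => ‖kv c θ q.1 q.2‖ₑ)) := (rvm_kv_meas c θ).enorm.indicator hs
      have h2 : Measurable (fun p : (ℝ × ℝ) × ℝ => {q : ℝ × ℝ | L ≤ |q.2|}.indicator
          (fun q : ℝ × ℝ => ‖kv c θ q.1 q.2‖ₑ) (p.1.1, p.1.2 - p.2) * ‖g p.2‖ₑ) :=
        (h1.comp rvm_sh).mul (hg.comp measurable_snd).enorm
      exact h2.lintegral_prod_right' (ν := volume)

end Vale.Agent.P117
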