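import Vale.Agent.P117.Main2
import Vale.Agent.P117.QDy
import Vale.Agent.P117.QHol
import Vale.Agent.P117.QNear
import Vale.Agent.P117.QNu0
import Vale.Agent.P117.QNu1
import Vale.Agent.P117.QPiece
import Vale.Agent.P117.QPs
import Vale.Agent.P117.RBox
import Vale.Agent.P117.RCnt
import Vale.Agent.P117.RDec
import Vale.Agent.P117.RDy
import Vale.Agent.P117.RFin
import Vale.Agent.P117.RHy
import Vale.Agent.P117.RI3
import Vale.Agent.P117.RIp
import Vale.Agent.P117.RJen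
import Vale.Agent.P117.RKb
import Vale.Agent.P117.RKn
import Vale.Agent.P117.RL2
import Vale.Agent.P117.RLow
import Vale.Agent.P117.RNear
import Vale.Agent.P117.RNu0
import Vale.Agent.P117.RNu1
import Vale.Agent.P117.ROpm
import Vale.Agent.P117.ROvl
import Vale.Agent.P117.RPars
import Vale.Agent.P117.RPiece
import Vale.Agent.P117.RPs
import Vale.Agent.P117.RPush1
import Vale.Agent.P117.RPush2
import Vale.Agent.P117.RRest
import Vale.Agent.P117.RSplit
import Vale.Agent.P117.RSum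
import Vale.Agent.P117.RTel
import Vale.Agent.P117.RTt
import Vale.Agent.P117.RVF
import Vale.Agent.P117.RVm

namespace Vale.Agent.P117

open MeasureTheory
open scoped ENNReal

theorem b_hy : R_hy := r_hy s_bes
theorem b_ip : R_ip := r_ip r_vF r_pars s_bes
theorem b_L2 : R_L2 := r_L2 r_vm b_ip s_prod s_lprod
theorem b_rest : R_rest := r_rest r_vm (r_kb r_kn) r_jen s_young s_lprod
theorem b_near : R_near :=
  r_near b_ip b_L2 r_tt (r_nu1 b_hy r_push1 r_push2 (r_I3 r_jen) r_ps) (r_nu0 b_hy)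
theorem b_dy : R_dy := r_dy r_vm (r_opm r_vm)
  (r_piece (r_split r_vm) b_rest (r_box s_lprod) r_ovl b_near (r_opm r_vm)) (r_tel r_vm) r_cnt
theorem c_near : Q_near :=
  q_near b_ip b_L2 r_tt (q_nu1 b_hy r_push1 r_push2 q_ps q_hol) (q_nu0 b_hy)
theorem c_dy : Q_dy := q_dy r_vm (r_opm r_vm)
  (q_piece (r_split r_vm) b_rest (r_box s_lprod) r_ovl c_near (r_opm r_vm)) (r_tel r_vm) r_cnt

theorem b_all (δ p : ℝ) (h1 : 1 < p) (h4 : p ≤ 4) (hδ : max (3 / p - 2) 0 < δ) :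
    ∃ C : ℝ≥0∞, C ≠ ⊤ ∧ ∀ g : Fin 3 → SchwartzMap ℝ ℂ,
      ∫⁻ x, ‖BR δ (tens g) x‖ₑ ^ p ≤ C * ∏ j, N p (g j) := by
  have h0 : 0 < δ := (le_max_right _ _).trans_lt hδ
  have h3 : 3 / p - 2 < δ := (le_max_left _ _).trans_lt hδ
  have hl := r_low r_jen a_kmeas a_small s_lprod
  rcases le_or_gt 2 p with h2 | h2
  · exact t_fin s_lprod a_kmeas s_w1 s_hold2 a_pt δ p h0 h2 h4 (a_phi δ p h0 h2 h4)
  rcases le_total (3 / 2) p with h | h
  · exact r_fin a_rho a_mu a_rep a_kmeas r_dec r_sum hl p (δ / 2) δ h1.le h0 (by linarith)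
      (b_dy p (δ / 2) h h2 (by linarith))
  · exact r_fin a_rho a_mu a_rep a_kmeas r_dec r_sum hl p (3 / p - 2 + (δ - (3 / p - 2)) / 2) δ
      h1.le h0 (by linarith) (c_dy p ((δ - (3 / p - 2)) / 2) h1 h (by linarith))

end Vale.Agent.P117
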