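import Vale.Agent.P117.Stm3

/-! P117: Jensen inequality on a set. -/

namespace Vale.Agent.P117

open MeasureTheory FourierTransform Set
open scoped ENNReal

theorem r_jen : R_jen := by
  intro p s F hp hF
  have hp0 : 0 < p := by linarith
  have hq : 0 ≤ 1 - 1 / p := by
    rw [sub_nonneg, div_le_one hp0]
    exact hp
  have h := ENNReal.lintegral_mul_norm_pow_le (μ := volume.restrict s) (f := fun _ => 1)
    (g := fun t => F t ^ p) aemeasurable_const (hF.pow_const p).aemeasurable hq
    (one_div_nonneg.2 hp0.le) (by ring)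
  have e : ∀ t, (1 : ℝ≥0∞) ^ (1 - 1 / p) * (F t ^ p) ^ (1 / p) = F t := fun t => by
    rw [ENNReal.one_rpow, one_mul, ← ENNReal.rpow_mul, mul_one_div_cancel hp0.ne', ENNReal.rpow_one]
  simp only [e, lintegral_const, one_mul, Measure.restrict_apply_univ] at h
  refine (ENNReal.rpow_le_rpow h hp0.le).trans (le_of_eq ?_)
  rw [ENNReal.mul_rpow_of_nonneg _ _ hp0.le, ← ENNReal.rpow_mul, ← ENNReal.rpow_mul,
    one_div_mul_cancel hp0.ne', ENNReal.rpow_one, sub_mul, one_mul, one_div_mul_cancel hp0.ne']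

end Vale.Agent.P117
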