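import Vale.Agent.P117.Stm3

namespace Vale.Agent.P117

open MeasureTheory FourierTransform Set
open scoped ENNReal

theorem rsum_hold {p : ℝ} (hp : 1 ≤ p) (w a : ℕ → ℝ≥0∞) (h0 : ∀ n, w n ≠ 0) (ht : ∀ n, w n ≠ ⊤) :
    (∑' n, a n) ^ p ≤ (∑' n, w n) ^ (p - 1) * ∑' n, w n ^ (1 - p) * a n ^ p := by
  have p0 : 0 < p := by linarith
  have q0 : 0 ≤ 1 / p := by positivity
  have q1 : 0 ≤ 1 - 1 / p := sub_nonneg.2 ((div_le_one p0).2 hp)
  have h := ENNReal.lintegral_mul_norm_pow_le (μ := Measure.count) (f := w)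
    (g := fun n => w n ^ (1 - p) * a n ^ p) Measurable.of_discrete.aemeasurable
    Measurable.of_discrete.aemeasurable q1 q0 (by ring)
  have h1 : ∀ n, w n ^ (1 - 1 / p) * (w n ^ (1 - p) * a n ^ p) ^ (1 / p) = a n := by
    intro n
    have e1 : 1 - 1 / p + (1 - p) * (1 / p) = 0 := by
      field_simp
      ring
    rw [ENNReal.mul_rpow_of_nonneg _ _ q0, ← ENNReal.rpow_mul, ← ENNReal.rpow_mul, ← mul_assoc,
      ← ENNReal.rpow_add _ _ (h0 n) (ht n), e1, mul_one_div_cancel p0.ne', ENNReal.rpow_zero,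
      ENNReal.rpow_one, one_mul]
  simp only [h1, lintegral_count] at h
  refine (ENNReal.rpow_le_rpow h p0.le).trans_eq ?_
  have e2 : (1 - 1 / p) * p = p - 1 := by field_simp
  rw [ENNReal.mul_rpow_of_nonneg _ _ p0.le, ← ENNReal.rpow_mul, ← ENNReal.rpow_mul, e2,
    one_div_mul_cancel p0.ne', ENNReal.rpow_one]

theorem r_sum  : R_sum := by
  intro p r hp r0 r1
  have p0 : 0 < p := by linarith
  obtain ⟨s, hs⟩ : ∃ s : ℝ≥0∞, s = ENNReal.ofReal √r := ⟨_, rfl⟩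
  have s0 : s ≠ 0 := by
    rw [hs]
    simpa using r0
  have s1 : s < 1 := by
    rw [hs, ENNReal.ofReal_lt_one, Real.sqrt_lt' one_pos]
    simpa using r1
  have s2 : ENNReal.ofReal r = s ^ 2 := by
    rw [hs, ← ENNReal.ofReal_pow (Real.sqrt_nonneg _), Real.sq_sqrt r0.le]
  have w0 : ∀ n : ℕ, s ^ n ≠ 0 := fun n => pow_ne_zero _ s0
  have wt : ∀ n : ℕ, s ^ n ≠ ⊤ := fun n => ENNReal.pow_ne_top (s1.trans ENNReal.one_lt_top).ne
  have hS : ∑' n : ℕ, s ^ n ≠ ⊤ := by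
    rw [ENNReal.tsum_geometric]
    exact ENNReal.inv_ne_top.2 (tsub_pos_of_lt s1).ne'
  have hS' : (∑' n : ℕ, s ^ n) ^ (p - 1) ≠ ⊤ :=
    ENNReal.rpow_ne_top_of_nonneg (by linarith) hS
  have key : ∀ n : ℕ, (s ^ n) ^ (1 - p) * ENNReal.ofReal ((r ^ n) ^ p) ≤ s ^ n := by
    intro n
    have e : ENNReal.ofReal (r ^ n) = (s ^ n) ^ (2 : ℝ) := by
      rw [ENNReal.ofReal_pow r0.le, s2, ENNReal.rpow_two, ← pow_mul, ← pow_mul, mul_comm]
    rw [← ENNReal.ofReal_rpow_of_nonneg (by positivity) p0.le, e, ← ENNReal.rpow_mul,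
      ← ENNReal.rpow_add _ _ (w0 n) (wt n)]
    refine (ENNReal.rpow_le_rpow_of_exponent_ge (pow_le_one₀ zero_le s1.le)
      (show (1 : ℝ) ≤ 1 - p + 2 * p by linarith)).trans_eq (ENNReal.rpow_one _)
  refine ⟨(∑' n : ℕ, s ^ n) ^ (p - 1) * ∑' n : ℕ, s ^ n, ENNReal.mul_ne_top hS' hS,
    fun F B hF hB => ?_⟩
  refine (lintegral_mono fun x => rsum_hold hp (fun n => s ^ n) (fun n => F n x) w0 wt).trans ?_
  rw [lintegral_const_mul' _ _ hS', lintegral_tsum fun n =>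
    (((hF n).pow_const p).const_mul _).aemeasurable, mul_assoc, ← ENNReal.tsum_mul_right]
  refine mul_le_mul_right (ENNReal.tsum_le_tsum fun n => ?_) _
  rw [lintegral_const_mul _ ((hF n).pow_const p)]
  refine (mul_le_mul_right (hB n) _).trans ?_
  rw [← mul_assoc]
  exact mul_le_mul_left (key n) _

end Vale.Agent.P117
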