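import Vale.Agent.P117.Stm

/-! The trivial bound for the autocorrelation of a function with short support. -/

namespace Vale.Agent.P117

open MeasureTheory FourierTransform Set
open scoped ENNReal

theorem A0_ch (β y : ℝ) : ‖ch β y‖ = 1 := by
  have e : (Real.pi * Complex.I * β * (y : ℂ) ^ 2) =
      ((Real.pi * β * y ^ 2 : ℝ) : ℂ) * Complex.I := by
    push_cast
    ring
  rw [ch, e, Complex.norm_exp_ofReal_mul_I]

theorem s_A0 (h_cs : S_cs) : S_A0 := by
  intro g a Λ β h hg hs hΛ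
  constructor
  · obtain ⟨φ, hφ⟩ : ∃ φ : ℝ → ℂ, φ = fun y => g (y + h) * (starRingEnd ℂ) (g y) := ⟨_, rfl⟩
    have mφ : Measurable φ := by
      rw [hφ]
      exact (hg.comp (measurable_add_const h)).mul (Complex.continuous_conj.measurable.comp hg)
    have e1 : ‖A (fun y => ch β y * g y) h‖ₑ ≤
        ∫⁻ y, ((Icc a (a + Λ)).indicator (1 : ℝ → ℝ≥0∞) * fun y => ‖φ y‖ₑ) y := by
      refine (enorm_integral_le_lintegral_enorm _).trans (lintegral_mono fun y => ?_)
      by_cases hy : y ∈ Icc a (a + Λ)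
      · simp only [Pi.mul_apply, indicator_of_mem hy, Pi.one_apply, one_mul]
        rw [← ofReal_norm, ← ofReal_norm]
        refine ENNReal.ofReal_le_ofReal (le_of_eq ?_)
        simp [hφ, A0_ch]
      · simp [hs y hy]
    have e2 := ENNReal.lintegral_mul_le_Lp_mul_Lq volume Real.HolderConjugate.two_two
      (f := (Icc a (a + Λ)).indicator (1 : ℝ → ℝ≥0∞)) (g := fun y => ‖φ y‖ₑ)
      (measurable_one.indicator measurableSet_Icc).aemeasurable mφ.enorm.aemeasurable
    have e3 : ∫⁻ y, (Icc a (a + Λ)).indicator (1 : ℝ → ℝ≥0∞) y ^ (2 : ℝ) = ENNReal.ofReal Λ := by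
      have e4 : ∀ y, (Icc a (a + Λ)).indicator (1 : ℝ → ℝ≥0∞) y ^ (2 : ℝ) =
          (Icc a (a + Λ)).indicator (1 : ℝ → ℝ≥0∞) y := by
        intro y
        by_cases hy : y ∈ Icc a (a + Λ) <;> simp [hy]
      simp_rw [e4]
      rw [lintegral_indicator_one measurableSet_Icc, Real.volume_Icc, add_sub_cancel_left]
    rw [e3] at e2
    have e5 : N 2 φ ≤ N 4 g := hφ ▸ h_cs g h hg
    calc _ ≤ (ENNReal.ofReal Λ ^ (1 / 2 : ℝ) * N 2 φ ^ (1 / 2 : ℝ)) ^ (2 : ℝ) :=
          ENNReal.rpow_le_rpow (e1.trans e2) (by norm_num)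
      _ = ENNReal.ofReal Λ * N 2 φ := by
          rw [ENNReal.mul_rpow_of_nonneg _ _ (by norm_num), ← ENNReal.rpow_mul, ← ENNReal.rpow_mul]
          norm_num
      _ ≤ _ := by gcongr
  · intro hh
    have e : ∀ y, ch β (y + h) * g (y + h) * (starRingEnd ℂ) (ch β y * g y) = 0 := by
      intro y
      by_cases hy : y ∈ Icc a (a + Λ)
      · have h2 : y + h ∉ Icc a (a + Λ) := fun h2 =>
          absurd hh (not_lt.2 (abs_le.2 ⟨by linarith [hy.2, h2.1], by linarith [hy.1, h2.2]⟩))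
        simp [hs _ h2]
      · simp [hs y hy]
    simp only [A, e, integral_zero]

end Vale.Agent.P117
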