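import Vale.Agent.P117.Stm

namespace Vale.Agent.P117

open MeasureTheory FourierTransform Set
open scoped ENNReal

theorem rho_eq {δ : ℝ} (hδ : 0 < δ) (t : ℝ) : 𝓕 (mu δ) t =
    ∫ r in Ioi (0 : ℝ), (r : ℂ) ^ (δ : ℂ) *
      Complex.exp (-((⟨Real.pi, 2 * Real.pi * t⟩ : ℂ) * r)) := by
  rw [Real.fourier_real_eq_integral_exp_smul,
    ← setIntegral_eq_integral_of_forall_compl_eq_zero (s := Ioi (0 : ℝ)) fun r hr => by
      rw [mu, max_eq_right (not_lt.1 hr), Real.zero_rpow hδ.ne']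
      simp]
  refine setIntegral_congr_fun measurableSet_Ioi fun r hr => ?_
  have hr' : (0 : ℝ) ≤ r := le_of_lt hr
  simp only [mu, max_eq_left hr', smul_eq_mul]
  rw [Complex.ofReal_mul ((r : ℝ) ^ δ), Complex.ofReal_cpow hr', Complex.ofReal_exp, mul_left_comm,
    ← Complex.exp_add, Complex.mk_eq_add_mul_I]
  congr 2
  push_cast
  ring

theorem rho_norm (t : ℝ) : 1 + |t| ≤ ‖(⟨Real.pi, 2 * Real.pi * t⟩ : ℂ)‖ := by
  have h1 := Complex.abs_re_le_norm (⟨Real.pi, 2 * Real.pi * t⟩ : ℂ)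
  have h2 := Complex.abs_im_le_norm (⟨Real.pi, 2 * Real.pi * t⟩ : ℂ)
  have h3 := Real.pi_gt_three
  dsimp only at h1 h2
  rw [abs_of_pos Real.pi_pos] at h1
  rw [abs_mul, abs_of_pos (by positivity : 0 < 2 * Real.pi)] at h2
  nlinarith [abs_nonneg t]

theorem s_rho (h_lap : S_lap) : S_rho := by
  intro δ hδ
  refine ⟨‖Complex.Gamma ((δ : ℂ) + 1)‖, fun t => ?_⟩
  rw [rho_eq hδ, h_lap δ hδ _ Real.pi_pos, norm_mul, mul_comm]
  refine mul_le_mul_of_nonneg_left ?_ (norm_nonneg _)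
  rw [show (δ : ℂ) + 1 = ((1 + δ : ℝ) : ℂ) by push_cast; ring, Complex.norm_cpow_real, one_div,
    norm_inv, Real.inv_rpow (norm_nonneg _), ← Real.rpow_neg (norm_nonneg _)]
  exact Real.rpow_le_rpow_of_nonpos (by positivity) (rho_norm t) (by linarith)

end Vale.Agent.P117
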