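import Vale.Agent.P117.Defs

/-! Statements of the steps. -/

namespace Vale.Agent.P117

open MeasureTheory FourierTransform Set
open scoped ENNReal

noncomputable def N (q : ℝ) (g : ℝ → ℂ) : ℝ≥0∞ := ∫⁻ x, ‖g x‖ₑ ^ q

def Good (g : ℝ → ℂ) : Prop := Measurable g ∧ Integrable g ∧ ∃ M : ℝ, ∀ y, ‖g y‖ ≤ M

noncomputable def mu (δ r : ℝ) : ℂ := (((max r 0) ^ δ * Real.exp (-Real.pi * r) : ℝ) : ℂ)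

noncomputable def bb (t : ℝ) : ℂ := 1 + 2 * Complex.I * t

noncomputable def k (t z : ℝ) : ℂ :=
  1 / bb t ^ (1 / 2 : ℂ) * Complex.exp (-Real.pi / bb t * (z : ℂ) ^ 2)

noncomputable def U (t : ℝ) (g : ℝ → ℂ) (x : ℝ) : ℂ := ∫ y, k t (x - y) * g y

noncomputable def ch (β y : ℝ) : ℂ := Complex.exp (Real.pi * Complex.I * β * (y : ℂ) ^ 2)

noncomputable def W (β : ℝ) (g : ℝ → ℂ) (w : ℝ) : ℂ := ∫ y, ch β (w - y) * g y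

noncomputable def A (φ : ℝ → ℂ) (h : ℝ) : ℂ := ∫ y, φ (y + h) * (starRingEnd ℂ) (φ y)

noncomputable def wt (η t : ℝ) : ℝ≥0∞ := ENNReal.ofReal ((1 + |t|) ^ (-(1 + η)))

def D (T : ℝ) : Set ℝ := {t | T ≤ |t| ∧ |t| ≤ 2 * T}

def Supp (g : ℝ → ℂ) (a Λ : ℝ) : Prop := ∀ y, y ∉ Icc a (a + Λ) → g y = 0

noncomputable def blk (L : ℝ) (m : ℤ) (g : ℝ → ℂ) : ℝ → ℂ :=
  (Ico (((m : ℝ) - 1) * L) (((m : ℝ) + 2) * L)).indicator g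

def S_lap : Prop := ∀ δ : ℝ, 0 < δ → ∀ a : ℂ, 0 < a.re →
  ∫ r in Ioi (0 : ℝ), (r : ℂ) ^ (δ : ℂ) * Complex.exp (-(a * r)) =
    (1 / a) ^ ((δ : ℂ) + 1) * Complex.Gamma ((δ : ℂ) + 1)

def S_rho : Prop := ∀ δ : ℝ, 0 < δ → ∃ C : ℝ, ∀ t : ℝ,
  ‖𝓕 (mu δ) t‖ ≤ C * (1 + |t|) ^ (-(1 + δ))

def S_mu : Prop := ∀ δ : ℝ, 0 < δ → Continuous (mu δ) ∧ Integrable (mu δ) ∧
  Continuous (𝓕 (mu δ)) ∧ Integrable (𝓕 (mu δ))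

def S_mul : Prop := ∀ δ : ℝ, 0 < δ → ∀ s : ℝ,
  (((max (1 - s) 0) ^ δ : ℝ) : ℂ) = Complex.exp Real.pi *
    ∫ t : ℝ, 𝓕 (mu δ) t * Complex.exp (2 * Real.pi * Complex.I * t) *
      Complex.exp (-Real.pi * bb t * s)

def S_prod : Prop := ∀ F : Fin 3 → ℝ → ℂ, ∫ ξ : E3, ∏ j, F j (ξ j) = ∏ j, ∫ y, F j y

def S_iprod : Prop := ∀ F : Fin 3 → ℝ → ℝ, (∀ j, Integrable (F j)) →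
  Integrable (fun ξ : E3 => ∏ j, F j (ξ j))

def S_lprod : Prop := ∀ F : Fin 3 → ℝ → ℝ≥0∞, (∀ j, Measurable (F j)) →
  ∫⁻ x : E3, ∏ j, F j (x j) = ∏ j, ∫⁻ y, F j y

def S_ften : Prop := ∀ (g : Fin 3 → SchwartzMap ℝ ℂ) (ξ : E3),
  𝓕 (tens g) ξ = ∏ j, 𝓕 (g j : ℝ → ℂ) (ξ j)

def S_one : Prop := ∀ (g : ℝ → ℂ), Integrable g → ∀ t x : ℝ,
  ∫ ξ : ℝ, Complex.exp (-Real.pi * bb t * (ξ : ℂ) ^ 2) * 𝓕 g ξ *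
    Complex.exp (2 * Real.pi * Complex.I * ((x : ℂ) * ξ)) = U t g x

def S_rep : Prop := ∀ δ : ℝ, 0 < δ → ∀ (g : Fin 3 → SchwartzMap ℝ ℂ) (x : E3),
  BR δ (tens g) x = Complex.exp Real.pi *
    ∫ t : ℝ, 𝓕 (mu δ) t * Complex.exp (2 * Real.pi * Complex.I * t) *
      ∏ j, U t (g j) (x j)

def S_young : Prop := ∀ (K F : ℝ → ℝ≥0∞) (p : ℝ), Measurable K → Measurable F → 1 ≤ p →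
  ∫⁻ x, (∫⁻ y, K (x - y) * F y) ^ p ≤ (∫⁻ z, K z) ^ p * ∫⁻ y, F y ^ p

def S_knorm : Prop := ∀ t z : ℝ,
  ‖k t z‖ = (1 + 4 * t ^ 2) ^ (-(1 / 4) : ℝ) * Real.exp (-(Real.pi * z ^ 2 / (1 + 4 * t ^ 2)))

def S_kl1 : Prop := ∀ t : ℝ, |t| ≤ 1 → ∫⁻ z, ‖k t z‖ₑ ≤ 2

def S_ktail : Prop := ∀ t L : ℝ, 1 + 4 * t ^ 2 ≤ L →
  ∫⁻ z, {z : ℝ | L ≤ |z|}.indicator (fun z => ‖k t z‖ₑ) z ≤ 1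

def S_kmeas : Prop := (∀ t, Continuous (k t)) ∧ (∀ t z, ‖k t z‖ ≤ 1) ∧
  (∀ g : ℝ → ℂ, Measurable g → Measurable (fun z : ℝ × ℝ => U z.1 g z.2)) ∧
  (∀ g : ℝ → ℂ, Measurable g → ∀ q : ℝ, Measurable (fun t => N q (U t g))) ∧
  (∀ (g : ℝ → ℂ) (t x : ℝ), Integrable g → Integrable (fun y => k t (x - y) * g y))

def S_fac : Prop := ∀ t : ℝ, t ≠ 0 → ∃ κ : ℂ, ‖κ‖ ^ 2 = 1 / (2 * |t|) ∧ ∀ z : ℝ,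
  k t z = κ * ∫ w : ℝ, Complex.exp (-Real.pi * ((z : ℂ) - w) ^ 2) * ch (1 / (2 * t)) w

def S_UW : Prop := ∀ (t p : ℝ) (g : ℝ → ℂ), t ≠ 0 → 1 ≤ p → Good g →
  N p (U t g) ≤ ENNReal.ofReal ((2 * |t|) ^ (-(p / 2))) * N p (W (1 / (2 * t)) g)

def S_WE : Prop := ∀ (β p : ℝ) (g : ℝ → ℂ), β ≠ 0 → Integrable g →
  N p (W β g) = ENNReal.ofReal (1 / |β|) * N p (𝓕 (fun y => ch β y * g y))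

def S_bes : Prop := ∀ g : ℝ → ℂ, Integrable g → N 2 (𝓕 g) ≤ N 2 g

def S_small : Prop := ∀ (t p : ℝ) (g : ℝ → ℂ), |t| ≤ 1 → 1 ≤ p → Measurable g →
  N p (U t g) ≤ 2 ^ p * N p g

def S_L2 : Prop := ∀ (t : ℝ) (g : ℝ → ℂ), Good g → N 2 (U t g) ≤ 4 * N 2 g

def S_auto : Prop := ∀ φ : ℝ → ℂ, Integrable φ → N 4 (𝓕 φ) ≤ N 2 (A φ)

def S_cs : Prop := ∀ (g : ℝ → ℂ) (h : ℝ), Measurable g →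
  N 2 (fun y => g (y + h) * (starRingEnd ℂ) (g y)) ≤ N 4 g

def S_Ah : Prop := ∀ (g : ℝ → ℂ) (h : ℝ), Good g → h ≠ 0 →
  ∫⁻ β, ‖A (fun y => ch β y * g y) h‖ₑ ^ (2 : ℝ) ≤ ENNReal.ofReal (1 / |h|) * N 4 g

def S_A0 : Prop := ∀ (g : ℝ → ℂ) (a Λ β h : ℝ), Measurable g → Supp g a Λ → 0 < Λ →
  ‖A (fun y => ch β y * g y) h‖ₑ ^ (2 : ℝ) ≤ ENNReal.ofReal Λ * N 4 g ∧
    (Λ < |h| → A (fun y => ch β y * g y) h = 0)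

def S_Ameas : Prop := ∀ g : ℝ → ℂ, Measurable g →
  Measurable (fun z : ℝ × ℝ => A (fun y => ch z.1 y * g y) z.2) ∧
  Measurable (fun β => N 4 (𝓕 (fun y => ch β y * g y)))

def S_hint : Prop := ∀ ε Λ : ℝ, 0 < ε → 0 < Λ →
  ∫⁻ h in Icc (-Λ) Λ, ENNReal.ofReal (|h| ^ (ε - 1)) ≤ ENNReal.ofReal (2 / ε * Λ ^ ε)

def S_core : Prop := ∀ (ε a Λ B : ℝ) (g : ℝ → ℂ), 0 < ε → ε < 1 → 0 < Λ → 0 < B → Good g →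
  Supp g a Λ → ∫⁻ β in Icc (-B) B, N 4 (𝓕 (fun y => ch β y * g y)) ≤
    ENNReal.ofReal (2 / ε * (2 * B * Λ ^ 2) ^ ε) * N 4 g

def S_cov : Prop := ∀ (F : ℝ → ℝ≥0∞) (T : ℝ), Measurable F → 0 < T →
  ∫⁻ t in D T, F (1 / (2 * t)) ≤
    ENNReal.ofReal (8 * T ^ 2) * ∫⁻ β in Icc (-(1 / (2 * T))) (1 / (2 * T)), F β

def S_near : Prop := ∀ (ε a Λ T : ℝ) (g : ℝ → ℂ), 0 < ε → ε < 1 → 0 < Λ → 0 < T → Good g →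
  Supp g a Λ → ∫⁻ t in D T, N 4 (U t g) ≤
    ENNReal.ofReal (4 * T * (2 / ε * (Λ ^ 2 / T) ^ ε)) * N 4 g

def S_loc : Prop := ∀ (t L : ℝ) (g : ℝ → ℂ), Good g → 1 + 4 * t ^ 2 ≤ L →
  N 4 (U t g) ≤ 8 * ∑' m : ℤ, N 4 (U t (blk L m g)) + 8 * N 4 g

def S_ovl : Prop := ∀ (L : ℝ) (g : ℝ → ℂ), Measurable g → 0 < L →
  ∑' m : ℤ, N 4 (blk L m g) ≤ 3 * N 4 g

def S_blk : Prop := ∀ ε : ℝ, 0 < ε → ε < 1 → ∃ C : ℝ, 0 ≤ C ∧ ∀ T : ℝ, 1 ≤ T →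
  ∀ g : ℝ → ℂ, Good g →
    ∫⁻ t in D T, N 4 (U t g) ≤ ENNReal.ofReal (C * T ^ (1 + 3 * ε)) * N 4 g

def S_w1 : Prop := ∀ η : ℝ, 0 < η → Measurable (wt η) ∧ ∫⁻ t, wt η t ≠ ⊤

def S_w4 : Prop := ∀ η : ℝ, 0 < η → ∃ C : ℝ≥0∞, C ≠ ⊤ ∧ ∀ g : ℝ → ℂ, Good g →
  ∫⁻ t, wt η t * N 4 (U t g) ≤ C * N 4 g

def S_m2 : Prop := ∀ (p : ℝ) (g : ℝ → ℂ), 2 < p → Measurable g →
  ∫⁻ l in Ioi (0 : ℝ), ENNReal.ofReal (l ^ (p - 3)) * N 2 ({y | l < ‖g y‖}.indicator g) ≤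
    ENNReal.ofReal (1 / (p - 2)) * N p g

def S_m3 : Prop := ∀ (p : ℝ) (g : ℝ → ℂ), 0 < p → p < 4 → Measurable g →
  ∫⁻ l in Ioi (0 : ℝ), ENNReal.ofReal (l ^ (p - 5)) * N 4 ({y | ‖g y‖ ≤ l}.indicator g) ≤
    ENNReal.ofReal (1 / (4 - p)) * N p g

def S_cheb : Prop := ∀ (ν : Measure (ℝ × ℝ)) (F F₁ F₂ : ℝ × ℝ → ℂ) (l : ℝ), 0 < l →
  Measurable F₁ → Measurable F₂ → (∀ z, F z = F₁ z + F₂ z) →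
  ν {z | l < ‖F z‖} ≤ ENNReal.ofReal (4 * l ^ (-2 : ℝ)) * ∫⁻ z, ‖F₁ z‖ₑ ^ (2 : ℝ) ∂ν +
    ENNReal.ofReal (16 * l ^ (-4 : ℝ)) * ∫⁻ z, ‖F₂ z‖ₑ ^ (4 : ℝ) ∂ν

def S_marc : Prop := ∀ p : ℝ, 2 < p → p < 4 → ∃ C : ℝ≥0∞, C ≠ ⊤ ∧
  ∀ (ν : Measure (ℝ × ℝ)) (F : ℝ × ℝ → ℂ) (g : ℝ → ℂ) (K : ℝ≥0∞), Measurable F → Measurable g →
    (∀ l : ℝ, 0 < l → ∃ F₁ F₂ : ℝ × ℝ → ℂ, Measurable F₁ ∧ Measurable F₂ ∧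
      (∀ z, F z = F₁ z + F₂ z) ∧
      ∫⁻ z, ‖F₁ z‖ₑ ^ (2 : ℝ) ∂ν ≤ K * N 2 ({y | l < ‖g y‖}.indicator g) ∧
      ∫⁻ z, ‖F₂ z‖ₑ ^ (4 : ℝ) ∂ν ≤ K * N 4 ({y | ‖g y‖ ≤ l}.indicator g)) →
    ∫⁻ z, ‖F z‖ₑ ^ p ∂ν ≤ C * K * N p g

def S_wp : Prop := ∀ η p : ℝ, 0 < η → 2 < p → p < 4 → ∃ C : ℝ≥0∞, C ≠ ⊤ ∧
  ∀ g : ℝ → ℂ, Good g → ∫⁻ t, wt η t * N p (U t g) ≤ C * N p g

def S_hold : Prop := ∀ (p : ℝ) (w : ℝ → ℝ≥0∞) (F : Fin 3 → ℝ → ℝ≥0∞), 3 ≤ p → Measurable w →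
  (∀ j, Measurable (F j)) →
  (∫⁻ t, w t * ∏ j, F j t) ^ p ≤ (∫⁻ t, w t) ^ (p - 3) * ∏ j, ∫⁻ t, w t * F j t ^ p

def S_pt : Prop := ∀ δ : ℝ, 0 < δ → ∃ C : ℝ≥0∞, C ≠ ⊤ ∧
  ∀ (g : Fin 3 → SchwartzMap ℝ ℂ) (x : E3),
    ‖BR δ (tens g) x‖ₑ ≤ C * ∫⁻ t, wt δ t * ∏ j, ‖U t (g j) (x j)‖ₑ

def S_fin : Prop := ∀ δ p : ℝ, 0 < δ → 3 ≤ p → p < 4 → ∃ C : ℝ≥0∞, C ≠ ⊤ ∧
  ∀ g : Fin 3 → SchwartzMap ℝ ℂ, ∫⁻ x, ‖BR δ (tens g) x‖ₑ ^ p ≤ C * ∏ j, N p (g j)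

end Vale.Agent.P117
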