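import Vale.Agent.P117.Stm

/-! Statements of the steps for exponents below two. -/

namespace Vale.Agent.P117

open MeasureTheory FourierTransform Set
open scoped ENNReal

noncomputable def kc (c t z : ℝ) : ℂ :=
  1 / ((c : ℂ) + 2 * Complex.I * t) ^ (1 / 2 : ℂ) *
    Complex.exp (-Real.pi / ((c : ℂ) + 2 * Complex.I * t) * (z : ℂ) ^ 2)

noncomputable def kv (c θ t z : ℝ) : ℂ := kc c t z - θ * kc (4 * c) t z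

noncomputable def ps (c θ ξ : ℝ) : ℝ :=
  Real.exp (-(Real.pi * c * ξ ^ 2)) - θ * Real.exp (-(Real.pi * (4 * c) * ξ ^ 2))

noncomputable def V (c θ t : ℝ) (g : ℝ → ℂ) (x : ℝ) : ℂ := ∫ y, kv c θ t (x - y) * g y

noncomputable def nu (c θ : ℝ) (g : ℝ → ℂ) (τ : ℝ) : ℂ :=
  ∫ ξ : ℝ, (((ps c θ ξ * ‖𝓕 g ξ‖) ^ 2 : ℝ) : ℂ) *
    Complex.exp (-(2 * Real.pi * Complex.I * τ * (ξ : ℂ) ^ 2))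

noncomputable def Op (a : ℝ → ℂ) (T : ℝ) (c θ : Fin 3 → ℝ) (g : Fin 3 → ℝ → ℂ) (x : E3) : ℂ :=
  ∫ t in D T, a t * ∏ j, V (c j) (θ j) t (g j) (x j)

noncomputable def Fu (c θ t : ℝ) (g : ℝ → ℂ) (x : ℝ) : ℝ≥0∞ :=
  ∫⁻ y, ‖kv c θ t (x - y)‖ₑ * ‖g y‖ₑ

noncomputable def Fa (L c θ t : ℝ) (g : ℝ → ℂ) (x : ℝ) : ℝ≥0∞ :=
  ∫⁻ y, {z : ℝ | L ≤ |z|}.indicator (fun z => ‖kv c θ t z‖ₑ) (x - y) * ‖g y‖ₑ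

noncomputable def Rest (L c θ : Fin 3 → ℝ) (g : Fin 3 → ℝ → ℂ) (x : E3) (t : ℝ) : ℝ≥0∞ :=
  ∑ j, ∏ i, if i = j then Fa (L i) (c i) (θ i) t (g i) (x i) else Fu (c i) (θ i) t (g i) (x i)

def Adm (T c θ : ℝ) : Prop := 1 ≤ c ∧ c ≤ T ∧ (θ = 1 ∨ (θ = 0 ∧ T ≤ 4 * c))

noncomputable def I3 (T : ℝ) (h : ℝ → ℂ) : ℝ≥0∞ :=
  (∫⁻ τ in Icc (-(4 * T)) (4 * T), ‖h τ‖ₑ ^ (3 : ℝ)) ^ (1 / 3 : ℝ)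

def R_hy : Prop := ∀ p : ℝ, 1 < p → p < 2 → ∃ C : ℝ≥0∞, C ≠ ⊤ ∧ ∀ g : ℝ → ℂ, Measurable g →
  Integrable g → N (p / (p - 1)) (𝓕 g) ≤ C * N p g ^ (1 / (p - 1))

def R_vm : Prop := ∀ c θ : ℝ, 1 ≤ c → |θ| ≤ 1 →
  Measurable (fun z : ℝ × ℝ => kv c θ z.1 z.2) ∧ (∀ t z, ‖kv c θ t z‖ ≤ 2) ∧
  (∀ g : ℝ → ℂ, Measurable g → Measurable (fun z : ℝ × ℝ => V c θ z.1 g z.2)) ∧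
  (∀ (g : ℝ → ℂ) (t x : ℝ), Integrable g → Integrable (fun y => kv c θ t (x - y) * g y)) ∧
  (∀ (g : ℝ → ℂ) (t x : ℝ), Integrable g → ‖V c θ t g x‖ ≤ 2 * ∫ y, ‖g y‖) ∧
  (∀ (g : ℝ → ℂ) (L : ℝ), Measurable g → Measurable (fun z : ℝ × ℝ => Fu c θ z.1 g z.2) ∧
    Measurable (fun z : ℝ × ℝ => Fa L c θ z.1 g z.2))

def R_vF : Prop := ∀ (c θ t x : ℝ) (g : ℝ → ℂ), 1 ≤ c → Integrable g →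
  V c θ t g x = 𝓕 (fun ξ : ℝ => (ps c θ ξ : ℂ) *
    Complex.exp (-(2 * Real.pi * Complex.I * t * (ξ : ℂ) ^ 2)) * 𝓕 g ξ) (-x)

def R_pars : Prop := ∀ φ ψ : ℝ → ℂ, Integrable φ → Integrable ψ → MemLp φ 2 → MemLp ψ 2 →
  MemLp (𝓕 φ) 2 ∧ ∫ x, 𝓕 φ x * (starRingEnd ℂ) (𝓕 ψ x) = ∫ x, φ x * (starRingEnd ℂ) (ψ x)

def R_ip : Prop := ∀ (c θ : ℝ) (g : ℝ → ℂ), 1 ≤ c → |θ| ≤ 1 → Good g →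
  (∃ B : ℝ≥0∞, B ≠ ⊤ ∧ ∀ t, N 2 (V c θ t g) ≤ B) ∧ Continuous (nu c θ g) ∧
  ∀ t s : ℝ, ∫ x, V c θ t g x * (starRingEnd ℂ) (V c θ s g x) = nu c θ g (t - s)

def R_L2 : Prop := ∀ (a : ℝ → ℂ) (α T : ℝ) (c θ : Fin 3 → ℝ) (g : Fin 3 → ℝ → ℂ), Measurable a →
  0 ≤ α → (∀ t ∈ D T, ‖a t‖ ≤ α) → 1 ≤ T → (∀ j, 1 ≤ c j) → (∀ j, |θ j| ≤ 1) → (∀ j, Good (g j)) →
  ∫⁻ x, ‖Op a T c θ g x‖ₑ ^ (2 : ℝ) ≤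
    ∫⁻ t in D T, ∫⁻ s in D T, ENNReal.ofReal (α ^ 2) * ∏ j, ‖nu (c j) (θ j) (g j) (t - s)‖ₑ

def R_tt : Prop := ∀ (T : ℝ) (h : Fin 3 → ℝ → ℂ), 1 ≤ T → (∀ j, Measurable (h j)) →
  ∫⁻ t in D T, ∫⁻ s in D T, ∏ j, ‖h j (t - s)‖ₑ ≤ ENNReal.ofReal (4 * T) * ∏ j, I3 T (h j)

noncomputable def Gp (F : ℝ → ℝ) (s : ℝ) : ℂ :=
  (Ioi (0 : ℝ)).indicator (fun s => (((F (√s) + F (-√s)) / (2 * √s) : ℝ) : ℂ)) s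

def R_push1 : Prop := ∀ F : ℝ → ℝ, Measurable F → Integrable F →
  Measurable (Gp F) ∧ Integrable (Gp F) ∧
    ∀ τ : ℝ, ∫ ξ : ℝ, (F ξ : ℂ) * Complex.exp (-(2 * Real.pi * Complex.I * τ * (ξ : ℂ) ^ 2)) =
      𝓕 (Gp F) τ

def R_push2 : Prop := ∀ (F : ℝ → ℝ) (q : ℝ), Measurable F → (∀ ξ, 0 ≤ F ξ) → 1 ≤ q →
  N q (Gp F) ≤ ∫⁻ ξ, ENNReal.ofReal (F ξ ^ q * |ξ| ^ (1 - q))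

def R_I3 : Prop := ∀ (T r : ℝ) (h : ℝ → ℂ), 1 ≤ T → 3 ≤ r → Measurable h →
  I3 T h ≤ ENNReal.ofReal ((8 * T) ^ (1 / 3 - 1 / r)) * N r h ^ (1 / r)

def R_jen : Prop := ∀ (p : ℝ) (s : Set ℝ) (F : ℝ → ℝ≥0∞), 1 ≤ p → Measurable F →
  (∫⁻ t in s, F t) ^ p ≤ volume s ^ (p - 1) * ∫⁻ t in s, F t ^ p

def R_ps : Prop := ∀ c ξ : ℝ, 0 < c → 0 ≤ ps c 1 ξ ∧ ps c 1 ξ ≤ 1 ∧ ∀ q : ℝ, 1 ≤ q → q ≤ 3 / 2 →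
  ps c 1 ξ ^ (2 * q) * |ξ| ^ (1 - q) ≤ 1000 * c ^ ((q - 1) / 2)

def R_nu1 : Prop := ∀ p : ℝ, 3 / 2 ≤ p → p < 2 → ∃ C : ℝ≥0∞, C ≠ ⊤ ∧ ∀ (T c : ℝ) (g : ℝ → ℂ),
  1 ≤ T → 1 ≤ c → Good g → I3 T (nu c 1 g) ≤
    C * ENNReal.ofReal (T ^ (1 / 3 - 2 * (1 / p - 1 / 2)) * c ^ (1 / p - 1 / 2)) * N p g ^ (2 / p)

def R_nu0 : Prop := ∀ p : ℝ, 3 / 2 ≤ p → p < 2 → ∃ C : ℝ≥0∞, C ≠ ⊤ ∧ ∀ (T c : ℝ) (g : ℝ → ℂ),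
  1 ≤ T → 1 ≤ c → T ≤ 4 * c → Good g → I3 T (nu c 0 g) ≤
    C * ENNReal.ofReal (T ^ (1 / 3 - 2 * (1 / p - 1 / 2)) * c ^ (1 / p - 1 / 2)) * N p g ^ (2 / p)

def R_kn : Prop := ∀ T c θ t z : ℝ, Adm T c θ → |t| ≤ 2 * T →
  ‖kv c θ t z‖ ≤ 2 * Real.exp (-(Real.pi * z ^ 2 / (5 * T / √c) ^ 2))

def R_kb : Prop := ∀ T c θ t A : ℝ, Adm T c θ → |t| ≤ 2 * T → 1 ≤ A →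
  ∫⁻ z, ‖kv c θ t z‖ₑ ≤ ENNReal.ofReal (10 * T) ∧
  ∫⁻ z, {z : ℝ | A * (5 * T / √c) ≤ |z|}.indicator (fun z => ‖kv c θ t z‖ₑ) z ≤
    ENNReal.ofReal (20 * T * Real.exp (-A))

def R_split : Prop := ∀ (a : ℝ → ℂ) (α T : ℝ) (L c θ : Fin 3 → ℝ) (g : Fin 3 → ℝ → ℂ) (x : E3),
  Measurable a → (∀ t ∈ D T, ‖a t‖ ≤ α) → (∀ j, 0 < L j) → (∀ j, 1 ≤ c j) → (∀ j, |θ j| ≤ 1) →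
  (∀ j, Good (g j)) →
  ‖Op a T c θ g x‖ₑ ≤ ‖Op a T c θ (fun j => blk (L j) ⌊x j / L j⌋ (g j)) x‖ₑ +
    ENNReal.ofReal α * ∫⁻ t in D T, Rest L c θ g x t

def R_rest : Prop := ∀ (p T A : ℝ) (c θ : Fin 3 → ℝ) (g : Fin 3 → ℝ → ℂ), 1 ≤ p → 1 ≤ T → 1 ≤ A →
  (∀ j, Adm T (c j) (θ j)) → (∀ j, Measurable (g j)) →
  ∫⁻ x : E3, (∫⁻ t in D T, Rest (fun j => A * (5 * T / √(c j))) c θ g x t) ^ p ≤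
    ENNReal.ofReal ((24000 * T ^ 4 * Real.exp (-A)) ^ p) * ∏ j, N p (g j)

def R_box : Prop := ∀ (p : ℝ) (L : Fin 3 → ℝ) (F : (Fin 3 → ℤ) → E3 → ℂ), 1 ≤ p → p < 2 →
  (∀ j, 0 < L j) → (∀ m, Measurable (F m)) →
  Measurable (fun x : E3 => F (fun j => ⌊x j / L j⌋) x) ∧
  ∫⁻ x : E3, ‖F (fun j => ⌊x j / L j⌋) x‖ₑ ^ p ≤ ∑' m : Fin 3 → ℤ,
    ENNReal.ofReal ((∏ j, L j) ^ (1 - p / 2)) * (∫⁻ x, ‖F m x‖ₑ ^ (2 : ℝ)) ^ (p / 2)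

def R_ovl : Prop := ∀ (p : ℝ) (L : Fin 3 → ℝ) (g : Fin 3 → ℝ → ℂ), 0 < p → (∀ j, 0 < L j) →
  (∀ j, Measurable (g j)) →
  ∑' m : Fin 3 → ℤ, ∏ j, N p (blk (L j) (m j) (g j)) ≤ 27 * ∏ j, N p (g j)

def R_near : Prop := ∀ p : ℝ, 3 / 2 ≤ p → p < 2 → ∃ C : ℝ≥0∞, C ≠ ⊤ ∧
  ∀ (a : ℝ → ℂ) (α T A : ℝ) (c θ : Fin 3 → ℝ) (g : Fin 3 → ℝ → ℂ), Measurable a → 0 ≤ α →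
    (∀ t ∈ D T, ‖a t‖ ≤ α) → 1 ≤ T → 1 ≤ A → (∀ j, Adm T (c j) (θ j)) → (∀ j, Good (g j)) →
    ENNReal.ofReal ((∏ j, A * (5 * T / √(c j))) ^ (1 - p / 2)) *
      (∫⁻ x, ‖Op a T c θ g x‖ₑ ^ (2 : ℝ)) ^ (p / 2) ≤
      C * ENNReal.ofReal ((α * T * A) ^ p) * ∏ j, N p (g j)

def R_opm : Prop := ∀ (a : ℝ → ℂ) (T : ℝ) (c θ : Fin 3 → ℝ) (g : Fin 3 → ℝ → ℂ), Measurable a →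
  (∀ j, 1 ≤ c j) → (∀ j, |θ j| ≤ 1) → (∀ j, Measurable (g j)) → Measurable (Op a T c θ g)

def R_piece : Prop := ∀ p η : ℝ, 3 / 2 ≤ p → p < 2 → 0 < η → ∃ C : ℝ≥0∞, C ≠ ⊤ ∧
  ∀ (a : ℝ → ℂ) (α T : ℝ) (c θ : Fin 3 → ℝ) (g : Fin 3 → ℝ → ℂ), Measurable a → 0 ≤ α →
    (∀ t ∈ D T, ‖a t‖ ≤ α) → 1 ≤ T → (∀ j, Adm T (c j) (θ j)) → (∀ j, Good (g j)) →
    ∫⁻ x, ‖Op a T c θ g x‖ₑ ^ p ≤ C * ENNReal.ofReal ((α * T * T ^ η) ^ p) * ∏ j, N p (g j)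

def R_tel : Prop := ∀ (K : ℕ) (t x : ℝ) (g : ℝ → ℂ), Integrable g →
  U t g x = ∑ k : Fin (K + 1), V (4 ^ (k : ℕ)) (if (k : ℕ) < K then 1 else 0) t g x

def R_cnt : Prop := ∀ η : ℝ, 0 < η → ∃ C : ℝ, 0 ≤ C ∧ ∀ T : ℝ, 1 ≤ T → ∃ K : ℕ,
  (4 : ℝ) ^ K ≤ T ∧ T ≤ 4 * 4 ^ K ∧ ((K : ℝ) + 1) ^ 3 ≤ C * T ^ η

def R_dy : Prop := ∀ p η : ℝ, 3 / 2 ≤ p → p < 2 → 0 < η → ∃ C : ℝ≥0∞, C ≠ ⊤ ∧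
  ∀ (a : ℝ → ℂ) (α T : ℝ) (g : Fin 3 → ℝ → ℂ), Measurable a → 0 ≤ α →
    (∀ t ∈ D T, ‖a t‖ ≤ α) → 1 ≤ T → (∀ j, Good (g j)) →
    ∫⁻ x : E3, ‖∫ t in D T, a t * ∏ j, U t (g j) (x j)‖ₑ ^ p ≤
      C * ENNReal.ofReal ((α * T * T ^ η) ^ p) * ∏ j, N p (g j)

def R_dec : Prop := ∀ h : ℝ → ℂ, Integrable h →
  ‖∫ t, h t‖ₑ ≤ (∫⁻ t in Icc (-1 : ℝ) 1, ‖h t‖ₑ) +
    ∑' n : ℕ, ‖∫ t in D (2 ^ n), {t : ℝ | |t| < 2 * 2 ^ n}.indicator h t‖ₑ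

def R_sum : Prop := ∀ p r : ℝ, 1 ≤ p → 0 < r → r < 1 → ∃ C : ℝ≥0∞, C ≠ ⊤ ∧
  ∀ (F : ℕ → E3 → ℝ≥0∞) (B : ℝ≥0∞), (∀ n, Measurable (F n)) →
    (∀ n, ∫⁻ x, F n x ^ p ≤ ENNReal.ofReal ((r ^ n) ^ p) * B) →
    ∫⁻ x, (∑' n, F n x) ^ p ≤ C * B

def R_low : Prop := ∀ (p : ℝ) (g : Fin 3 → ℝ → ℂ), 1 ≤ p → (∀ j, Measurable (g j)) →
  ∫⁻ x : E3, (∫⁻ t in Icc (-1 : ℝ) 1, ∏ j, ‖U t (g j) (x j)‖ₑ) ^ p ≤ 16 ^ p * ∏ j, N p (g j)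

end Vale.Agent.P117
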