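import Vale.Agent.P117.Stm3

/-! Statements of the steps for exponents below three halves. -/

namespace Vale.Agent.P117

open MeasureTheory FourierTransform Set
open scoped ENNReal

def Q_ps : Prop := ∀ c ξ : ℝ, 1 ≤ c →
  ps c 1 ξ ^ (3 : ℝ) * |ξ| ^ (1 - 3 / 2 : ℝ) ≤
    1000 * c ^ (1 / 4 : ℝ) * Real.exp (-(Real.pi * ξ ^ 2))

def Q_hol : Prop := ∀ (r : ℝ) (h : ℝ → ℂ), 3 ≤ r → Measurable h →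
  ∫⁻ ξ, ENNReal.ofReal (Real.exp (-(Real.pi * ξ ^ 2))) * ‖h ξ‖ₑ ^ (3 : ℝ) ≤ N r h ^ (3 / r)

def Q_nu1 : Prop := ∀ p : ℝ, 1 < p → p ≤ 3 / 2 → ∃ C : ℝ≥0∞, C ≠ ⊤ ∧ ∀ (T c : ℝ) (g : ℝ → ℂ),
  1 ≤ T → 1 ≤ c → Good g → I3 T (nu c 1 g) ≤
    C * ENNReal.ofReal (c ^ (1 / p - 1 / 2)) * N p g ^ (2 / p)

def Q_nu0 : Prop := ∀ p : ℝ, 1 < p → p ≤ 3 / 2 → ∃ C : ℝ≥0∞, C ≠ ⊤ ∧ ∀ (T c : ℝ) (g : ℝ → ℂ),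
  1 ≤ T → 1 ≤ c → T ≤ 4 * c → Good g → I3 T (nu c 0 g) ≤
    C * ENNReal.ofReal (c ^ (1 / p - 1 / 2)) * N p g ^ (2 / p)

def Q_near : Prop := ∀ p : ℝ, 1 < p → p ≤ 3 / 2 → ∃ C : ℝ≥0∞, C ≠ ⊤ ∧
  ∀ (a : ℝ → ℂ) (α T A : ℝ) (c θ : Fin 3 → ℝ) (g : Fin 3 → ℝ → ℂ), Measurable a → 0 ≤ α →
    (∀ t ∈ D T, ‖a t‖ ≤ α) → 1 ≤ T → 1 ≤ A → (∀ j, Adm T (c j) (θ j)) → (∀ j, Good (g j)) →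
    ENNReal.ofReal ((∏ j, A * (5 * T / √(c j))) ^ (1 - p / 2)) *
      (∫⁻ x, ‖Op a T c θ g x‖ₑ ^ (2 : ℝ)) ^ (p / 2) ≤
      C * ENNReal.ofReal ((α * T * T ^ (3 / p - 2) * A ^ 2) ^ p) * ∏ j, N p (g j)

def Q_piece : Prop := ∀ p η : ℝ, 1 < p → p ≤ 3 / 2 → 0 < η → ∃ C : ℝ≥0∞, C ≠ ⊤ ∧
  ∀ (a : ℝ → ℂ) (α T : ℝ) (c θ : Fin 3 → ℝ) (g : Fin 3 → ℝ → ℂ), Measurable a → 0 ≤ α →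
    (∀ t ∈ D T, ‖a t‖ ≤ α) → 1 ≤ T → (∀ j, Adm T (c j) (θ j)) → (∀ j, Good (g j)) →
    ∫⁻ x, ‖Op a T c θ g x‖ₑ ^ p ≤
      C * ENNReal.ofReal ((α * T * T ^ (3 / p - 2 + η)) ^ p) * ∏ j, N p (g j)

def Q_dy : Prop := ∀ p η : ℝ, 1 < p → p ≤ 3 / 2 → 0 < η → ∃ C : ℝ≥0∞, C ≠ ⊤ ∧
  ∀ (a : ℝ → ℂ) (α T : ℝ) (g : Fin 3 → ℝ → ℂ), Measurable a → 0 ≤ α →
    (∀ t ∈ D T, ‖a t‖ ≤ α) → 1 ≤ T → (∀ j, Good (g j)) →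
    ∫⁻ x : E3, ‖∫ t in D T, a t * ∏ j, U t (g j) (x j)‖ₑ ^ p ≤
      C * ENNReal.ofReal ((α * T * T ^ (3 / p - 2 + η)) ^ p) * ∏ j, N p (g j)

end Vale.Agent.P117
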